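import Vale.Agent.P184.H788.RowQ

/-!
# P184: nuclearity and the trace formula
-/

noncomputable section

namespace Vale.Agent.P184.H788

open Filter Topology
open Vale.Agent.P184 (IsIdem tau toFn)
open Vale.Agent.P184.H13 (E dl co sm sm_nonneg E_ext)
open Vale.Agent.P184.H847 (hasSum_clm norm_dl)
open Vale.Agent.P184.H856
open Vale.Agent.P184.H290 (Spec RowQ2 RowP)

universe u v w

variable {G : Type u} {X : Type v} {L : Type w} [Group G] [MulAction G X] [Group L] {q : ℕ}

/-- row norms of the terms -/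
def rn (α : LC G X L) (S : G → Set X) (e : Matrix (Fin q) (Fin q) (G → ℂ)) (g : G)
    (y : X × Fin q) : ℝ := ‖(pr y).comp (Tm α (S g) g (toFn e g))‖

variable {α : LC G X L} {S : G → Set X} {e : Matrix (Fin q) (Fin q) (G → ℂ)}

open Classical in
theorem rn_le (g : G) (z : X) (i : Fin q) :
    rn α S e g (z, i) ≤ if g⁻¹ • z ∈ S g then sm (toFn e g) else 0 := by
  unfold rn
  split_ifs with h
  · refine (ContinuousLinearMap.opNorm_comp_le _ _).trans ?_
    refine (mul_le_of_le_one_left (norm_nonneg _) (norm_pr _)).trans (norm_Tm _ _ _ _)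
  · have h1 : (pr (z, i)).comp (Tm α (S g) g (toFn e g)) = 0 := by
      refine ContinuousLinearMap.ext fun v => E_ext fun l => ?_
      exact Tm_apply α (S g) g (toFn e g) v z i l h
    rw [h1, norm_zero]

theorem rn_row (hfin : ∀ g, (S g).Finite) (g : G) :
    (Summable fun y => rn α S e g y) ∧ ∑' y, rn α S e g y ≤
      ((S g).ncard : ℝ) * (q * sm (toFn e g)) := by
  classical
  set D : Finset X := (hfin g).toFinset with hD
  have hmem : ∀ x, x ∈ D ↔ x ∈ S g := fun x => by rw [hD, Set.Finite.mem_toFinset]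
  let φ : X × Fin q ≃ X × Fin q := Equiv.prodCongr (MulAction.toPerm g) (Equiv.refl _)
  have hb : ∀ y : X × Fin q, rn α S e g (φ y) ≤ if y.1 ∈ D then sm (toFn e g) else 0 := by
    intro y
    have h1 := rn_le (α := α) (S := S) (e := e) g (g • y.1) y.2
    rw [inv_smul_smul] at h1
    refine h1.trans (le_of_eq ?_)
    by_cases hy : y.1 ∈ S g
    · rw [if_pos hy, if_pos ((hmem _).2 hy)]
    · rw [if_neg hy, if_neg fun h => hy ((hmem _).1 h)]
  have hz : ∀ y ∉ D ×ˢ (Finset.univ : Finset (Fin q)),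
      (if y.1 ∈ D then sm (toFn e g) else (0 : ℝ)) = 0 := by
    intro y hy
    refine if_neg fun h => hy ?_
    exact Finset.mem_product.2 ⟨h, Finset.mem_univ _⟩
  have hs : Summable fun y : X × Fin q => if y.1 ∈ D then sm (toFn e g) else (0 : ℝ) :=
    summable_of_ne_finset_zero hz
  have hs2 : Summable fun y => rn α S e g (φ y) :=
    Summable.of_nonneg_of_le (fun _ => norm_nonneg _) hb hs
  refine ⟨φ.summable_iff.1 hs2, ?_⟩
  rw [← φ.tsum_eq (fun y => rn α S e g y)]
  refine (hs2.tsum_le_tsum hb hs).trans ?_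
  rw [tsum_eq_sum hz, Finset.sum_product]
  have h5 : ∀ x ∈ D, ∑ _i : Fin q, (if x ∈ D then sm (toFn e g) else (0 : ℝ)) =
      q * sm (toFn e g) := by
    intro x hx
    rw [if_pos hx, Finset.sum_const, Finset.card_univ, Fintype.card_fin, nsmul_eq_mul]
  rw [Finset.sum_congr rfl h5, Finset.sum_const, nsmul_eq_mul]
  refine le_of_eq ?_
  congr 1
  rw [Set.ncard_eq_toFinset_card _ (hfin g)]

theorem rn_summable (hfin : ∀ g, (S g).Finite)
    (hs : Summable fun g => sm (toFn e g) * ((S g).ncard : ℝ)) :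
    Summable fun p : G × (X × Fin q) => rn α S e p.1 p.2 := by
  refine (summable_prod_of_nonneg (f := fun p : G × (X × Fin q) => rn α S e p.1 p.2)
    fun _ => norm_nonneg _).2 ⟨fun g => (rn_row hfin g).1, ?_⟩
  refine Summable.of_nonneg_of_le (fun g => tsum_nonneg fun _ => norm_nonneg _)
    (fun g => ((rn_row hfin g).2.trans ?_)) (hs.mul_left (q : ℝ))
  refine le_of_eq ?_
  ring

theorem nucL_lamS (he : IsIdem e) (hfin : ∀ g, (S g).Finite)
    (hs : Summable fun g => sm (toFn e g) * ((S g).ncard : ℝ)) : NucL (lamS α S e) := by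
  have h1 := rn_summable (α := α) hfin hs
  have h2 : Summable fun p : (X × Fin q) × G => rn α S e p.2 p.1 := h1.prod_symm
  refine Summable.of_nonneg_of_le (fun _ => norm_nonneg _) (fun y => ?_) h2.prod
  have h3 := (ContinuousLinearMap.compL ℂ (E ((X × Fin q) × L)) (E ((X × Fin q) × L)) (E L)
    (pr y)).map_tsum (Tm_summable α S he)
  change ‖(ContinuousLinearMap.compL ℂ (E ((X × Fin q) × L)) (E ((X × Fin q) × L)) (E L)
    (pr y)) (∑' g, Tm α (S g) g (toFn e g))‖ ≤ _
  rw [h3]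
  exact norm_tsum_le_tsum_norm (h2.prod_factor y)

/-- the terms of the trace -/
def tm (α : LC G X L) (S : G → Set X) (e : Matrix (Fin q) (Fin q) (G → ℂ)) (D : ConjClasses L)
    (g : G) (y : X × Fin q) : ℂ := tD D (pr y (Tm α (S g) g (toFn e g) (dl (y, 1))))

theorem tm_le (D : ConjClasses L) (g : G) (y : X × Fin q) : ‖tm α S e D g y‖ ≤ rn α S e g y := by
  refine (norm_tD_le D _).trans ?_
  have h := ((pr y).comp (Tm α (S g) g (toFn e g))).le_opNorm (dl (y, 1))
  rw [norm_dl, mul_one] at h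
  exact h

open Classical in
theorem tm_eq (D : ConjClasses L) (g : G) (x : X) (i : Fin q) :
    tm α S e D g (x, i) = if (g • x = x ∧ ConjClasses.mk (α.a g x) = D) ∧ x ∈ S g then
      e i i g else 0 := by
  change ∑' l : D.carrier, Tm α (S g) g (toFn e g) (dl ((x, i), 1)) ((x, i), (l : L)) = _
  have h1 : ∀ l : D.carrier, Tm α (S g) g (toFn e g) (dl ((x, i), 1)) ((x, i), (l : L)) =
      if x ∈ S g ∧ g • x = x ∧ α.a g x = (l : L) then e i i g else 0 := by
    intro l
    rw [Tm_dl, mul_one]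
    rfl
  rw [tsum_congr h1]
  split_ifs with h
  · obtain ⟨⟨h2, h3⟩, h4⟩ := h
    rw [tsum_eq_single (⟨α.a g x, ConjClasses.mem_carrier_iff_mk_eq.2 h3⟩ : D.carrier)]
    · rw [if_pos ⟨h4, h2, rfl⟩]
    · intro l hl
      rw [if_neg]
      rintro ⟨_, _, h5⟩
      exact hl (Subtype.ext h5.symm)
  · refine (tsum_congr fun l => ?_).trans tsum_zero
    rw [if_neg]
    rintro ⟨h2, h3, h4⟩
    refine h ⟨⟨h3, ?_⟩, h2⟩
    rw [h4]
    exact ConjClasses.mem_carrier_iff_mk_eq.1 l.2

theorem trD_lamS (he : IsIdem e) (hfin : ∀ g, (S g).Finite)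
    (hs : Summable fun g => sm (toFn e g) * ((S g).ncard : ℝ)) (D : ConjClasses L) :
    trD D (lamS α S e) = ∑' p : {p : G × X // (p.1 • p.2 = p.2 ∧
      ConjClasses.mk (α.a p.1 p.2) = D) ∧ p.2 ∈ S p.1}, ∑ i, e i i p.1.1 := by
  classical
  have h1 := rn_summable (α := α) hfin hs
  have ht : Summable fun p : G × (X × Fin q) => tm α S e D p.1 p.2 :=
    Summable.of_norm_bounded h1 fun p => tm_le D p.1 p.2
  have ht' : Summable fun p : (G × X) × Fin q => tm α S e D p.1.1 (p.1.2, p.2) := by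
    have := (Equiv.prodAssoc G X (Fin q)).summable_iff.2 ht
    exact this
  have hin : ∀ p : G × X, ∑' i, tm α S e D p.1 (p.2, i) =
      ({p : G × X | (p.1 • p.2 = p.2 ∧ ConjClasses.mk (α.a p.1 p.2) = D) ∧
        p.2 ∈ S p.1}).indicator (fun p => ∑ i, e i i p.1) p := by
    intro p
    rw [tsum_fintype]
    by_cases h : (p.1 • p.2 = p.2 ∧ ConjClasses.mk (α.a p.1 p.2) = D) ∧ p.2 ∈ S p.1
    · rw [Set.indicator_of_mem (by exact h)]
      exact Finset.sum_congr rfl fun i _ => by rw [tm_eq, if_pos h]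
    · rw [Set.indicator_of_notMem (by exact h)]
      exact Finset.sum_eq_zero fun i _ => by rw [tm_eq, if_neg h]
  have h2 : trD D (lamS α S e) = ∑' y, ∑' g, tm α S e D g y := by
    rw [trD_eq]
    refine tsum_congr fun y => ?_
    exact (((tD D).comp (pr y)).comp (ContinuousLinearMap.apply ℂ (E ((X × Fin q) × L))
      (dl (y, 1)))).map_tsum (Tm_summable α S he)
  have h4 : ∑' y, ∑' g, tm α S e D g y = ∑' g, ∑' y, tm α S e D g y :=
    Summable.tsum_comm (f := fun g y => tm α S e D g y) ht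
  have h5 : ∑' p : G × (X × Fin q), tm α S e D p.1 p.2 =
      ∑' p : (G × X) × Fin q, tm α S e D p.1.1 (p.1.2, p.2) :=
    ((Equiv.prodAssoc G X (Fin q)).tsum_eq
      (fun p : G × (X × Fin q) => tm α S e D p.1 p.2)).symm
  rw [h2, h4, ← ht.tsum_prod, h5, ht'.tsum_prod, tsum_congr hin]
  exact (tsum_subtype _ _).symm

theorem nucTr : NucTr.{u, v, w} := by
  intro G X L _ _ _ α S q e he hfin hs
  exact ⟨nucL_lamS he hfin hs, fun D => trD_lamS he hfin hs D⟩

/-- Row Q2 -/
theorem rowQ2 : RowQ2.{u, v, w} := rowQ2_of nucTr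

/-- Row P -/
theorem rowP : RowP.{u, v, w} := rowP_of nucTr

end Vale.Agent.P184.H788
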