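import Vale.Agent.P184.H13.Rep
import Vale.Agent.P184.H856.Eqv

/-!
# P184: the operators on `ℓ¹((X × Fin q) × L)` given by a cocycle with values in a group
-/

noncomputable section

namespace Vale.Agent.P184.H788

open Filter Topology
open Vale.Agent.P184 (IsIdem tau toFn)
open Vale.Agent.P184.H13 (E dl co E_summable E_norm Emk Emk_apply E_ext dl_apply dl_self
  norm_apply_le sm sm_nonneg Bd U U_apply norm_U Uc V V_apply rho rho_idem V_summable)
open Vale.Agent.P184.H847 (hasSum_dl hasSum_clm hasSum_nrm norm_dl)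
open Vale.Agent.P184.H856

/-! ### reindexing -/

section Reindex

variable {Y Y' : Type*}

/-- reindexing along an equivalence -/
def reE (σ : Y ≃ Y') : E Y →L[ℂ] E Y' :=
  LinearMap.mkContinuous
    { toFun := fun v => Emk (fun y => v (σ.symm y))
        ((E_summable v).comp_injective σ.symm.injective)
      map_add' := fun _ _ => rfl
      map_smul' := fun _ _ => rfl } 1 (fun v => by
        rw [one_mul]
        change ‖Emk (fun y => v (σ.symm y)) ((E_summable v).comp_injective σ.symm.injective)‖ ≤ _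
        rw [E_norm, E_norm]
        exact (σ.symm.tsum_eq (fun y => ‖v y‖)).le)

theorem reE_apply (σ : Y ≃ Y') (v : E Y) (y : Y') : reE σ v y = v (σ.symm y) := rfl

theorem norm_reE (σ : Y ≃ Y') : ‖reE σ‖ ≤ 1 := LinearMap.mkContinuous_norm_le _ zero_le_one _

theorem reE_symm (σ : Y ≃ Y') (v : E Y) : reE σ.symm (reE σ v) = v := by
  refine E_ext fun y => ?_
  rw [reE_apply, reE_apply, Equiv.symm_symm, Equiv.symm_apply_apply]

theorem reE_dl (σ : Y ≃ Y') (y : Y) : reE σ (dl y) = dl (σ y) := by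
  classical
  refine E_ext fun z => ?_
  rw [reE_apply, dl_apply, dl_apply]
  simp only [Equiv.symm_apply_eq]

/-- conjugation with a reindexing -/
def cj (σ : Y ≃ Y') : (E Y →L[ℂ] E Y) →L[ℂ] (E Y' →L[ℂ] E Y') :=
  LinearMap.mkContinuous
    { toFun := fun T => (reE σ).comp (T.comp (reE σ.symm))
      map_add' := fun S T => by
        rw [ContinuousLinearMap.add_comp, ContinuousLinearMap.comp_add]
      map_smul' := fun c T => by
        rw [ContinuousLinearMap.smul_comp, ContinuousLinearMap.comp_smul]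
        rfl } 1 (fun T => by
        rw [one_mul]
        have h1 := ContinuousLinearMap.opNorm_comp_le (reE σ) (T.comp (reE σ.symm))
        have h2 := ContinuousLinearMap.opNorm_comp_le T (reE σ.symm)
        have h3 : ‖T.comp (reE σ.symm)‖ ≤ ‖T‖ :=
          h2.trans (mul_le_of_le_one_right (norm_nonneg _) (norm_reE _))
        refine h1.trans ((mul_le_of_le_one_left (norm_nonneg _) (norm_reE _)).trans h3))

theorem cj_apply (σ : Y ≃ Y') (T : E Y →L[ℂ] E Y) (v : E Y') (y : Y') :
    cj σ T v y = T (reE σ.symm v) (σ.symm y) := rfl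

theorem norm_cj_le (σ : Y ≃ Y') (T : E Y →L[ℂ] E Y) : ‖cj σ T‖ ≤ ‖T‖ := by
  have h := (cj σ).le_of_opNorm_le (LinearMap.mkContinuous_norm_le _ zero_le_one _) T
  rwa [one_mul] at h

theorem cj_mul (σ : Y ≃ Y') (S T : E Y →L[ℂ] E Y) : cj σ S * cj σ T = cj σ (S * T) := by
  refine ContinuousLinearMap.ext fun v => ?_
  change reE σ (S (reE σ.symm (reE σ (T (reE σ.symm v))))) = reE σ (S (T (reE σ.symm v)))
  rw [reE_symm]

/-- the entry functional -/
def ev (p r : Y) : (E Y →L[ℂ] E Y) →L[ℂ] ℂ :=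
  (co r).comp (ContinuousLinearMap.apply ℂ (E Y) (dl p))

theorem ev_apply (p r : Y) (T : E Y →L[ℂ] E Y) : ev p r T = T (dl p) r := rfl

end Reindex

/-! ### the skew product -/

/-- cocycles with values in a group -/
structure LC (G X L : Type*) [Group G] [MulAction G X] [Group L] where
  /-- the function -/
  a : G → X → L
  mul : ∀ g h x, a (g * h) x = a g (h • x) * a h x

section Skew

variable {G X L : Type*} [Group G] [MulAction G X] [Group L]

theorem LC.one (α : LC G X L) (x : X) : α.a 1 x = 1 := by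
  have h := α.mul 1 1 x
  rw [mul_one, one_smul] at h
  exact (mul_eq_left.1 h.symm)

/-- the skew product -/
@[ext]
structure Sk (α : LC G X L) where
  /-- first coordinate -/
  x : X
  /-- second coordinate -/
  l : L

instance (α : LC G X L) : SMul G (Sk α) := ⟨fun g p => ⟨g • p.x, α.a g p.x * p.l⟩⟩

theorem smul_sk (α : LC G X L) (g : G) (x : X) (l : L) :
    g • (⟨x, l⟩ : Sk α) = ⟨g • x, α.a g x * l⟩ := rfl

instance (α : LC G X L) : MulAction G (Sk α) where
  one_smul p := by
    obtain ⟨x, l⟩ := p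
    rw [smul_sk, one_smul, α.one, one_mul]
  mul_smul g h p := by
    obtain ⟨x, l⟩ := p
    rw [smul_sk, smul_sk, smul_sk, mul_smul, α.mul, mul_assoc]

/-- the reindexing -/
def sg (α : LC G X L) (q : ℕ) : Sk α × Fin q ≃ (X × Fin q) × L where
  toFun p := ((p.1.x, p.2), p.1.l)
  invFun p := (⟨p.1.1, p.2⟩, p.1.2)
  left_inv _ := rfl
  right_inv _ := rfl

variable {q : ℕ}

theorem sg_symm (α : LC G X L) (x : X) (j : Fin q) (l : L) :
    (sg α q).symm ((x, j), l) = (⟨x, l⟩, j) := rfl

open Classical in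
/-- indicator functions as bounded functions on the skew product -/
def bi (α : LC G X L) (b : Set X) : Bd (Sk α) :=
  ⟨fun p => if p.x ∈ b then 1 else 0, 1, fun p => by
    split_ifs
    · rw [norm_one]
    · rw [norm_zero]; exact zero_le_one, zero_le_one⟩

theorem bi_mem (α : LC G X L) {b : Set X} {p : Sk α} (h : p.x ∈ b) : (bi α b).a p = 1 := if_pos h

theorem bi_notMem (α : LC G X L) {b : Set X} {p : Sk α} (h : p.x ∉ b) : (bi α b).a p = 0 :=
  if_neg h

/-- the terms -/
def Tm (α : LC G X L) (b : Set X) (g : G) (m : Matrix (Fin q) (Fin q) ℂ) :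
    E ((X × Fin q) × L) →L[ℂ] E ((X × Fin q) × L) :=
  cj (sg α q) (U (bi α b) (MulAction.toPerm g) m)

theorem norm_Tm (α : LC G X L) (b : Set X) (g : G) (m : Matrix (Fin q) (Fin q) ℂ) :
    ‖Tm α b g m‖ ≤ sm m := by
  refine (norm_cj_le _ _).trans ?_
  have := norm_U (bi α b) (MulAction.toPerm g) m
  rwa [show (bi α b).B = 1 from rfl, one_mul] at this

open Classical in
theorem Tm_dl (α : LC G X L) (b : Set X) (g : G) (m : Matrix (Fin q) (Fin q) ℂ)
    (x z : X) (j i : Fin q) (l k : L) :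
    Tm α b g m (dl ((x, j), l)) ((z, i), k) =
      if x ∈ b ∧ g • x = z ∧ α.a g x * l = k then m i j else 0 := by
  change U (bi α b) (MulAction.toPerm g) m (reE (sg α q).symm (dl ((x, j), l)))
    ((sg α q).symm ((z, i), k)) = _
  rw [reE_dl, sg_symm, sg_symm, U_apply]
  set s : Sk α := (MulAction.toPerm g : Equiv.Perm (Sk α)).symm (⟨z, k⟩ : Sk α) with hs
  have hs' : s = ⟨x, l⟩ ↔ g • x = z ∧ α.a g x * l = k := by
    rw [hs, Equiv.symm_apply_eq]
    change (⟨z, k⟩ : Sk α) = g • (⟨x, l⟩ : Sk α) ↔ _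
    rw [smul_sk, Sk.mk.injEq]
    exact ⟨fun h => ⟨h.1.symm, h.2.symm⟩, fun h => ⟨h.1.symm, h.2.symm⟩⟩
  by_cases h : s = ⟨x, l⟩
  · rw [Finset.sum_eq_single j]
    · rw [h, dl_self, mul_one]
      by_cases hx : x ∈ b
      · rw [if_pos ⟨hx, hs'.1 h⟩, bi_mem α (p := ⟨x, l⟩) hx, one_mul]
      · rw [if_neg fun h => hx h.1, bi_notMem α (p := ⟨x, l⟩) hx, zero_mul]
    · intro j' _ hj
      rw [dl_apply, if_neg (by intro h; exact hj (Prod.mk.inj h).2), mul_zero]
    · intro h
      exact absurd (Finset.mem_univ j) h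
  · rw [if_neg fun h2 => h (hs'.2 h2.2), Finset.sum_eq_zero, mul_zero]
    intro j' _
    rw [dl_apply, if_neg (by intro h2; exact h (Prod.mk.inj h2).1), mul_zero]

theorem Tm_apply (α : LC G X L) (b : Set X) (g : G) (m : Matrix (Fin q) (Fin q) ℂ)
    (v : E ((X × Fin q) × L)) (z : X) (i : Fin q) (k : L) (h : g⁻¹ • z ∉ b) :
    Tm α b g m v ((z, i), k) = 0 := by
  change U (bi α b) (MulAction.toPerm g) m (reE (sg α q).symm v)
    ((sg α q).symm ((z, i), k)) = _
  rw [sg_symm, U_apply]
  have h2 : (bi α b).a ((MulAction.toPerm g : Equiv.Perm (Sk α)).symm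
      (⟨z, k⟩ : Sk α)) = 0 := bi_notMem α (p := g⁻¹ • (⟨z, k⟩ : Sk α)) h
  rw [h2, zero_mul]

/-- the operator of `e`, with the entries over `S` only -/
def lamS (α : LC G X L) (S : G → Set X) (e : Matrix (Fin q) (Fin q) (G → ℂ)) :
    E ((X × Fin q) × L) →L[ℂ] E ((X × Fin q) × L) := ∑' g, Tm α (S g) g (toFn e g)

variable (α : LC G X L) (S : G → Set X) {e : Matrix (Fin q) (Fin q) (G → ℂ)}

theorem sm_summable (he : IsIdem e) : Summable fun g => sm (toFn e g) :=
  summable_sum fun i _ => summable_sum fun j _ => he.1 i j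

theorem Tm_summable (he : IsIdem e) : Summable fun g => Tm α (S g) g (toFn e g) :=
  Summable.of_norm_bounded (sm_summable he) fun g => norm_Tm α (S g) g _

theorem lamS_dl (he : IsIdem e) (p r : (X × Fin q) × L) :
    lamS α S e (dl p) r = ∑' g, Tm α (S g) g (toFn e g) (dl p) r :=
  (ev p r).map_tsum (Tm_summable α S he)

theorem eqv_lamS (he : IsIdem e) : Eqv (lamS α S e) := by
  classical
  intro y l z a m
  rw [lamS_dl α S he, lamS_dl α S he]
  refine tsum_congr fun g => ?_
  obtain ⟨x, j⟩ := y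
  obtain ⟨z, i⟩ := z
  rw [Tm_dl, Tm_dl]
  simp only [← mul_assoc, mul_left_inj]

theorem lamS_entry (he : IsIdem e) {x z : X} {j i : Fin q} {l : L}
    (h : lamS α S e (dl ((x, j), 1)) ((z, i), l) ≠ 0) :
    ∃ g, x ∈ S g ∧ g • x = z ∧ α.a g x = l := by
  classical
  by_contra h2
  refine h ?_
  rw [lamS_dl α S he]
  refine (tsum_congr fun g => ?_).trans tsum_zero
  rw [Tm_dl, if_neg]
  rintro ⟨h3, h4, h5⟩
  exact h2 ⟨g, h3, h4, by rwa [mul_one] at h5⟩

theorem lamS_add (he : IsIdem e) (S' : G → Set X) (hd : ∀ g, S' g = (S g)ᶜ) :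
    lamS α (fun _ => Set.univ) e = lamS α S e + lamS α S' e := by
  classical
  refine ContinuousLinearMap.ext fun v => ?_
  have h1 : ∀ p, lamS α (fun _ => Set.univ) e (dl p) = (lamS α S e + lamS α S' e) (dl p) := by
    intro p
    refine E_ext fun r => ?_
    change lamS α (fun _ => Set.univ) e (dl p) r = lamS α S e (dl p) r + lamS α S' e (dl p) r
    rw [lamS_dl α _ he, lamS_dl α _ he, lamS_dl α _ he]
    have hs1 : Summable fun g => Tm α (S g) g (toFn e g) (dl p) r :=
      (Tm_summable α S he).map (ev p r) (ev p r).continuous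
    have hs2 : Summable fun g => Tm α (S' g) g (toFn e g) (dl p) r :=
      (Tm_summable α S' he).map (ev p r) (ev p r).continuous
    rw [← hs1.tsum_add hs2]
    refine tsum_congr fun g => ?_
    obtain ⟨⟨x, j⟩, l⟩ := p
    obtain ⟨⟨z, i⟩, k⟩ := r
    rw [Tm_dl, Tm_dl, Tm_dl, hd]
    by_cases hx : x ∈ S g
    · simp [hx]
    · simp [hx]
  rw [← (hasSum_clm _ v).tsum_eq, ← (hasSum_clm (lamS α S e + lamS α S' e) v).tsum_eq]
  exact tsum_congr fun p => by rw [h1]

/-- the trivial scalar cocycle -/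
def triv (α : LC G X L) : Uc G (Sk α) := ⟨fun _ _ => 1, fun _ _ => norm_one, fun _ _ _ =>
  (one_mul 1).symm⟩

theorem lamS_idem (he : IsIdem e) :
    lamS α (fun _ => Set.univ) e * lamS α (fun _ => Set.univ) e =
      lamS α (fun _ => Set.univ) e := by
  have h1 : ∀ g, Tm α Set.univ g (toFn e g) = cj (sg α q) (V (triv α) g (toFn e g)) := by
    intro g
    unfold Tm
    congr 1
    refine ContinuousLinearMap.ext fun v => E_ext fun y => ?_
    rw [U_apply, bi_mem α (Set.mem_univ _)]
    rfl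
  have hs : Summable fun g => V (triv α) g (toFn e g) :=
    (V_summable (triv α) (sm_summable he)).of_norm
  have h2 : lamS α (fun _ => Set.univ) e = cj (sg α q) (rho (triv α) (toFn e)) := by
    unfold lamS rho
    rw [(cj (sg α q)).map_tsum hs]
    exact tsum_congr h1
  rw [h2, cj_mul, rho_idem (triv α) he]

end Skew

end Vale.Agent.P184.H788
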