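import Vale.Agent.P184.H788.Trans
import Vale.Agent.P184.Bdl.B4

/-!
# P184: the `ℓ¹`-Bass conjecture for products with finite groups and with nice groups whose
torsion classes are separated by finite quotients
-/

namespace Vale.Agent.P184.H788

open Vale.Agent.P184

universe u v

section Finite

theorem bass_prod_comm {G : Type u} {C : Type v} [Group G] [Group C]
    (hC : ∀ a b : C, a * b = b * a) (hG : L1Bass G) : L1Bass (G × C) :=
  (@H977.bass_prod G C _ { (inferInstance : Group C) with mul_comm := hC }).2 hG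

variable {G : Type u} {P : Type v} [Group G] [Group P]

/-- the subgroup `G × ⟨p⟩` -/
def cy (G : Type u) [Group G] (p : P) : Subgroup (G × P) :=
  (Subgroup.zpowers p).comap (MonoidHom.snd G P)

theorem bass_cy (hG : L1Bass G) (p : P) : L1Bass (cy G p) := by
  let ι : cy G p →* G × Subgroup.zpowers p :=
    MonoidHom.prod ((MonoidHom.fst G P).comp (cy G p).subtype)
      (((MonoidHom.snd G P).comp (cy G p).subtype).codRestrict (Subgroup.zpowers p)
        fun x => Subgroup.mem_comap.1 x.2)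
  let π : G × Subgroup.zpowers p →* cy G p :=
    (MonoidHom.prodMap (MonoidHom.id G) (Subgroup.zpowers p).subtype).codRestrict (cy G p)
      fun x => Subgroup.mem_comap.2 x.2.2
  refine H11.l1Bass_retract (P := G × Subgroup.zpowers p) (Q := cy G p) ι π (fun x => rfl) ?_
  exact bass_prod_comm (fun a b => mul_comm' a b) hG

/-- products with finite groups -/
theorem bass_prod_finite [Finite P] : L1Bass (G × P) ↔ L1Bass G := by
  constructor
  · exact fun h => H11.l1Bass_retract (MonoidHom.inl G P) (MonoidHom.fst G P) (fun _ => rfl) h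
  · intro hG
    refine bass_of_cover (fun p : P => cy G p) (fun p => ?_) (fun x => ⟨x.2, 1, ?_⟩)
      fun p => bass_cy hG p
    · rw [Subgroup.finiteIndex_iff]
      unfold cy
      rw [Subgroup.index_comap_of_surjective _ Prod.snd_surjective]
      exact Subgroup.FiniteIndex.index_ne_zero
    · rw [one_mul, inv_one, mul_one]
      exact Subgroup.mem_comap.2 (Subgroup.mem_zpowers _)

end Finite

section Nice

/-- The traces of an idempotent over `ℓ¹(K)` live over finitely many torsion classes of any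
nice quotient. -/
theorem exists_over {K : Type u} {B : Type v} [Group K] [Group B] (f : K →* B)
    (hB : W.Nice B) {q : ℕ} {e : Matrix (Fin q) (Fin q) (K → ℂ)} (he : IsIdem e) :
    ∃ T : Finset B, (∀ b ∈ T, IsOfFinOrder b) ∧
      ∀ x : K, (∀ b ∈ T, ¬ IsConj b (f x)) → tau (ConjClasses.mk x) e = 0 := by
  classical
  obtain ⟨S₁, δ, hδ, h⟩ := exists_slowD_param e he
  obtain ⟨S₂, h2⟩ := exists_support e he
  obtain ⟨C, hC, hC2⟩ := (W.nice_iff.1 hB).2 (f '' ((S₁ ∪ S₂ : Finset K) : Set K))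
    ((Finset.finite_toSet _).image _) δ hδ
  refine ⟨hC.toFinset.filter fun b => IsOfFinOrder b, fun b hb => (Finset.mem_filter.1 hb).2,
    fun x hx => ?_⟩
  by_cases hy : ∀ y ∈ Subgroup.closure (S₂ : Set K), ¬ IsConj x y
  · exact h2 x hy
  · push Not at hy
    obtain ⟨y, hy, hxy⟩ := hy
    have hfy : IsConj (f x) (f y) := f.map_isConj hxy
    rw [ConjClasses.mk_eq_mk_iff_isConj.mpr hxy]
    by_cases hyo : IsOfFinOrder (f y)
    · have hyS : f y ∈ Subgroup.closure (f '' ((S₁ ∪ S₂ : Finset K) : Set K)) := by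
        rw [← MonoidHom.map_closure]
        exact ⟨y, Subgroup.closure_mono (by rw [Finset.coe_union]; exact Set.subset_union_right) hy,
          rfl⟩
      have hconj : ∀ b ∈ C, ¬ IsConj b (f y) := by
        intro b hb hby
        refine hx b (Finset.mem_filter.2 ⟨hC.mem_toFinset.2 hb, ?_⟩) (hby.trans hfy.symm)
        exact hby.symm.isOfFinOrder hyo
      have h3 := slowD_hom f (hC2 _ hyS hyo hconj)
      exact h y (slowD_mono (by rw [Finset.coe_union]; exact Set.subset_union_left) h3)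
    · exact W.vanishesAt_of_mild (W.mild_hom f (hB.1 _ hyo)) _ e he

/-- Torsion elements which are not conjugate are not conjugate in some finite quotient. -/
def TorSep (B : Type v) [Group B] : Prop :=
  ∀ x y : B, IsOfFinOrder x → IsOfFinOrder y → ¬ IsConj x y →
    ∃ N : Subgroup B, N.Normal ∧ N.FiniteIndex ∧ ∀ c, c * x * c⁻¹ * y⁻¹ ∉ N

/-- finitely many torsion elements are separated by one finite quotient -/
theorem exists_sep {B : Type v} [Group B] (h : TorSep B) (T : Finset B)
    (hT : ∀ b ∈ T, IsOfFinOrder b) : ∃ N : Subgroup B, N.Normal ∧ N.FiniteIndex ∧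
      ∀ x ∈ T, ∀ y ∈ T, ¬ IsConj x y → ∀ c, c * x * c⁻¹ * y⁻¹ ∉ N := by
  classical
  have h1 : ∀ p : B × B, ∃ N : Subgroup B, N.Normal ∧ N.FiniteIndex ∧
      (IsOfFinOrder p.1 → IsOfFinOrder p.2 → ¬ IsConj p.1 p.2 →
        ∀ c, c * p.1 * c⁻¹ * p.2⁻¹ ∉ N) := by
    intro p
    by_cases hp : IsOfFinOrder p.1 ∧ IsOfFinOrder p.2 ∧ ¬ IsConj p.1 p.2
    · obtain ⟨N, h2, h3, h4⟩ := h p.1 p.2 hp.1 hp.2.1 hp.2.2
      exact ⟨N, h2, h3, fun _ _ _ => h4⟩
    · exact ⟨⊤, inferInstance, inferInstance, fun h2 h3 h4 => (hp ⟨h2, h3, h4⟩).elim⟩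
  choose N hN1 hN2 hN3 using h1
  have h2 : ∀ R : Finset (B × B), (R.inf N).Normal ∧ (R.inf N).FiniteIndex := by
    intro R
    induction R using Finset.induction_on with
    | empty => rw [Finset.inf_empty]; exact ⟨inferInstance, inferInstance⟩
    | insert p R _ ih =>
      rw [Finset.inf_insert]
      have := hN1 p
      have := hN2 p
      have := ih.1
      have := ih.2
      exact ⟨inferInstance, inferInstance⟩
  refine ⟨(T ×ˢ T).inf N, (h2 _).1, (h2 _).2, fun x hx y hy hxy c hc => ?_⟩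
  have h3 : (T ×ˢ T).inf N ≤ N (x, y) := Finset.inf_le (Finset.mem_product.2 ⟨hx, hy⟩)
  exact hN3 (x, y) (hT x hx) (hT y hy) hxy c (h3 hc)

variable {G : Type u} {B : Type v} [Group G] [Group B]

theorem isConj_prod {x y : G × B} : IsConj x y ↔ IsConj x.1 y.1 ∧ IsConj x.2 y.2 := by
  constructor
  · intro h
    exact ⟨(MonoidHom.fst G B).map_isConj h, (MonoidHom.snd G B).map_isConj h⟩
  · rintro ⟨h1, h2⟩
    obtain ⟨g, hg⟩ := isConj_iff.mp h1
    obtain ⟨k, hk⟩ := isConj_iff.mp h2
    exact isConj_iff.mpr ⟨(g, k), Prod.ext hg hk⟩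

/-- **Products with nice groups.** -/
theorem bass_prod_nice (hB : W.Nice B) (hS : TorSep B) : L1Bass (G × B) ↔ L1Bass G := by
  classical
  constructor
  · exact fun h => H11.l1Bass_retract (MonoidHom.inl G B) (MonoidHom.fst G B) (fun _ => rfl) h
  intro hG q e he
  obtain ⟨T, hT1, hT2⟩ := exists_over (MonoidHom.snd G B) hB he
  obtain ⟨N, hN1, hN2, hN3⟩ := exists_sep hS T hT1
  let π : G × B →* G × (B ⧸ N) := MonoidHom.prodMap (MonoidHom.id G) (QuotientGroup.mk' N)
  have hfin : Finite (B ⧸ N) := inferInstance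
  obtain ⟨b, hb, htau⟩ := pushforward π e he
  obtain ⟨F, hF1, hF2⟩ := (bass_prod_finite (G := G) (P := B ⧸ N)).2 hG q b hb
  -- the traces agree
  have key : ∀ (g : G) (t : B), t ∈ T →
      tau (ConjClasses.mk (π (g, t))) b = tau (ConjClasses.mk (g, t)) e := by
    intro g t ht
    rw [htau]
    refine tsum_classes_single he π _ (ConjClasses.mk (g, t)) rfl fun D hD hne => ?_
    obtain ⟨⟨g', t'⟩, rfl⟩ := ConjClasses.mk_surjective D
    refine hT2 _ fun s hs hst => hne ?_
    have h1 : IsConj (π (g', t')) (π (g, t)) := ConjClasses.mk_eq_mk_iff_isConj.1 hD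
    obtain ⟨h2, h3⟩ := isConj_prod.1 h1
    have h4 : IsConj s t' := hst
    have h5 : IsConj s t := by
      by_contra hne'
      have h6 : IsConj (QuotientGroup.mk' N s) (QuotientGroup.mk' N t) :=
        ((QuotientGroup.mk' N).map_isConj h4).trans h3
      obtain ⟨c, hc⟩ := isConj_iff.1 h6
      obtain ⟨c, rfl⟩ := QuotientGroup.mk'_surjective N c
      refine hN3 s hs t ht hne' c ?_
      rw [← QuotientGroup.ker_mk' N, MonoidHom.mem_ker, map_mul, map_mul, map_mul, map_inv,
        map_inv, hc, mul_inv_cancel]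
    exact ConjClasses.mk_eq_mk_iff_isConj.2 (isConj_prod.2 ⟨h2, h4.symm.trans h5⟩)
  -- the classes with nonzero trace
  have hsurj : ∀ C : ConjClasses (G × (B ⧸ N)), ∃ g : G, ∃ c : B ⧸ N, ConjClasses.mk (g, c) = C := by
    intro C
    obtain ⟨⟨g, c⟩, rfl⟩ := ConjClasses.mk_surjective C
    exact ⟨g, c, rfl⟩
  choose r c hr using hsurj
  refine ⟨((F ×ˢ T).image fun p => ConjClasses.mk (r p.1, p.2)).filter
    fun C => IsTorsionClass C, fun C hC => (Finset.mem_filter.1 hC).2, fun C hC => ?_⟩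
  obtain ⟨⟨g, t⟩, rfl⟩ := ConjClasses.mk_surjective C
  by_cases ht : ∃ s ∈ T, IsConj s t
  · obtain ⟨s, hs, hst⟩ := ht
    have h1 : ConjClasses.mk (g, t) = ConjClasses.mk (g, s) :=
      ConjClasses.mk_eq_mk_iff_isConj.2 (isConj_prod.2 ⟨IsConj.refl g, hst.symm⟩)
    rw [h1] at hC ⊢
    rw [← key g s hs]
    refine hF2 _ fun h2 => hC ?_
    have h3 : IsConj (r (ConjClasses.mk (π (g, s)))) g :=
      (isConj_prod.1 (ConjClasses.mk_eq_mk_iff_isConj.1 (hr (ConjClasses.mk (π (g, s)))))).1
    have h4 : IsOfFinOrder g :=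
      (MonoidHom.fst G (B ⧸ N)).isOfFinOrder (isTorsionClass_mk.1 (hF1 _ h2))
    refine Finset.mem_filter.2 ⟨Finset.mem_image.2
      ⟨(ConjClasses.mk (π (g, s)), s), Finset.mem_product.2 ⟨h2, hs⟩, ?_⟩, ?_⟩
    · exact ConjClasses.mk_eq_mk_iff_isConj.2 (isConj_prod.2 ⟨h3, IsConj.refl s⟩)
    · exact isTorsionClass_mk.2 (h4.prod_mk (hT1 s hs))
  · push Not at ht
    exact hT2 _ ht

theorem torSep_of_torsionFree (h : ∀ b : B, IsOfFinOrder b → b = 1) : TorSep B :=
  fun x y hx hy hxy => (hxy (by rw [h x hx, h y hy])).elim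

theorem torSep_of_finite [Finite B] : TorSep B := by
  intro x y _ _ hxy
  refine ⟨⊥, inferInstance, inferInstance, fun c hc => hxy ?_⟩
  rw [Subgroup.mem_bot, mul_inv_eq_one] at hc
  exact isConj_iff.2 ⟨c, hc⟩

theorem nice_of_torsionFree (h : ∀ b : B, IsOfFinOrder b → b = 1) (hB : W.MildInf B) :
    W.Nice B := by
  refine ⟨hB, fun S δ _ => ⟨{1}, fun x _ hx => Or.inr ⟨1, Finset.mem_singleton_self 1, ?_⟩⟩⟩
  rw [h x hx]

/-- Products with torsion free groups whose elements are mild. -/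
theorem bass_prod_torsionFree (h : ∀ b : B, IsOfFinOrder b → b = 1) (hB : W.MildInf B) :
    L1Bass (G × B) ↔ L1Bass G :=
  bass_prod_nice (nice_of_torsionFree h hB) (torSep_of_torsionFree h)

/-- The second factor can be tested on finitely generated subgroups. -/
theorem bass_prod_loc (h : ∀ S : Finset B, L1Bass (G × Subgroup.closure (S : Set B))) :
    L1Bass (G × B) := by
  classical
  refine l1Bass_of_local.{max u v, max u v} fun S => ?_
  obtain ⟨s, hs1, hs2⟩ := liftsTo_closure (S.image Prod.snd)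
  refine ⟨G × Subgroup.closure ((S.image Prod.snd : Finset B) : Set B), inferInstance,
    MonoidHom.prodMap (MonoidHom.id G) (Subgroup.subtype _), fun x => (x.1, s x.2), ⟨?_, ?_⟩, h _⟩
  · intro x hx
    exact Prod.ext rfl (hs1 x.2 (Finset.mem_image_of_mem _ hx))
  · intro x hx y hy hxy
    exact Prod.ext rfl (hs2 x.2 (Finset.mem_image_of_mem _ hx) y.2 (Finset.mem_image_of_mem _ hy)
      (Finset.mem_image_of_mem Prod.snd hxy))

/-- **Products with locally nice groups.** -/
theorem bass_prod_locNice (h : ∀ S : Finset B, W.Nice (Subgroup.closure (S : Set B)) ∧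
    TorSep (Subgroup.closure (S : Set B))) : L1Bass (G × B) ↔ L1Bass G :=
  ⟨fun h => H11.l1Bass_retract (MonoidHom.inl G B) (MonoidHom.fst G B) (fun _ => rfl) h,
    fun hG => bass_prod_loc fun S => (bass_prod_nice (h S).1 (h S).2).2 hG⟩

end Nice

end Vale.Agent.P184.H788
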