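import Vale.Agent.P184.H788.LocW
import Vale.Agent.P184.H11.LocB

/-!
# P184: localisation, the adapter
-/

noncomputable section

namespace Vale.Agent.P184.H788

open Vale.Agent.P184 (IsIdem tau toFn)
open Vale.Agent.P184.H13 (E dl co sm sm_nonneg E_ext)
open Vale.Agent.P184.H856

universe u v w

theorem zz_nf {Y : Type v} {L : Type w} (P K : E (Y × L) →L[ℂ] E (Y × L)) :
    H856.Loc.ZZ P K = blk true true 1 + H11.LocB.nf P K := by
  unfold H856.Loc.ZZ H11.LocB.nf
  rw [show blk true true (1 + P * K * P) = blk true true 1 + blk true true (P * K * P) from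
    (blk_add true true 1 (P * K * P)).symm]
  abel

theorem locB' {G : Type u} [Group G] {q : ℕ} {e : Matrix (Fin q) (Fin q) (G → ℂ)}
    (he : IsIdem e) {δ : ℝ} (hδ : 0 < δ) :
    ∃ T : Finset G, ∀ (X : Type v) (L : Type w) [MulAction G X] [Group L] (α α' : LC G X L)
      (F : Set X) (N : Subgroup L), H856.Loc.Sup (T : Set G) α α' F N →
      ∃ S ∈ H856.Loc.Cor {p : Bool × (X × Fin q) | p.2.1 ∈ F} N,
        ‖H856.Loc.ZZ (lamS α' (fun _ => Set.univ) e)
          (lamS α (fun _ => Set.univ) e - lamS α' (fun _ => Set.univ) e) -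
            (blk true true 1 + S)‖ ≤ δ := by
  obtain ⟨T, _, hT⟩ := H11.LocB.locB he hδ
  refine ⟨T, fun X L _ _ α α' F N h => ?_⟩
  obtain ⟨S, h1, h2, h3⟩ := hT X L α α' F N h.1 h.2
  refine ⟨S, cor_of h1 ?_, ?_⟩
  · rintro ⟨b, x, i⟩ ⟨c, z, j⟩ l h4
    exact h2 b c x z i j l h4
  · rw [zz_nf, add_sub_add_left_eq_sub]
    exact h3

end Vale.Agent.P184.H788
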