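import Vale.Agent.P184.H369.Conj

/-!
# P184: elements without charge over torsion classes of order prime to the exponent

If the kernel of `π` is abelian of exponent dividing `n`, the cocycle is injective on the kernel
and all charges of `t` and `t'` vanish, where `π t`, `π t'` are conjugate of finite order prime
to `n`, then `t` and `t'` are conjugate and of finite order.
-/

namespace Vale.Agent.P184.H788

open Vale.Agent.P184.H13 Vale.Agent.P184.H369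

section

variable {G Q A : Type*} [Group G] [Group Q] [AddCommGroup A] (Z : Coc G Q A)

theorem c_pow (t : G) (m : ℕ) (x : Q) :
    Z.c (t ^ m) x = ∑ i ∈ Finset.range m, Z.c t (Z.pi t ^ i * x) := by
  induction m with
  | zero => rw [pow_zero, c_one, Finset.sum_range_zero]
  | succ m ih => rw [pow_succ', Z.mul, ih, map_pow, Finset.sum_range_succ, add_comm]

theorem D_eq_sum {t : G} (hf : IsOfFinOrder (Z.pi t)) (x : Q) :
    Z.D t x = ∑ i ∈ Finset.range (orderOf (Z.pi t)), Z.c t (Z.pi t ^ i * x) := by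
  have h1 : ∑ i ∈ Finset.range (orderOf (Z.pi t)), Z.c t (Z.pi t ^ i * x) =
      ∑ i : Fin (orderOf (Z.pi t)), Z.c t (Z.pi t ^ (i : ℕ) * x) :=
    (Fin.sum_univ_eq_sum_range (fun i => Z.c t (Z.pi t ^ i * x)) _).symm
  rw [h1, ← finsum_eq_sum_of_fintype]
  unfold Coc.D
  refine (finsum_eq_of_bijective (finEquivZPowers hf) (Equiv.bijective _) fun i => ?_).symm
  rw [finEquivZPowers_apply]

/-- an element without charge over an element of finite order has finite order -/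
theorem pow_eq_one (hinj : ∀ a, Z.pi a = 1 → (∀ x, Z.c a x = 0) → a = 1) {t : G}
    (hf : IsOfFinOrder (Z.pi t)) (hD : ∀ x, Z.D t x = 0) : t ^ orderOf (Z.pi t) = 1 := by
  refine hinj _ ?_ fun x => ?_
  · rw [map_pow, pow_orderOf_eq_one]
  · rw [c_pow, ← D_eq_sum Z hf, hD]

end

section

variable {G : Type*} [Group G]

/-- the partial products `∏_(j < i) t' ^ j t ^ (-j)` -/
def P (t t' : G) : ℕ → G
  | 0 => 1
  | i + 1 => P t t' i * (t' ^ i * (t ^ i)⁻¹)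

/-- two elements `t`, `a t` with `a` in an abelian normal subgroup `K` of exponent `n` and with
`t ^ m = (a t) ^ m = 1`, `m` prime to `n`, are conjugate. -/
theorem conj_of_pow (K : Subgroup G) [K.Normal] (hK : ∀ a ∈ K, ∀ b ∈ K, Commute a b) (n : ℕ)
    (hn : ∀ a ∈ K, a ^ n = 1) {t a : G} (ha : a ∈ K) {m : ℕ} (ht : t ^ m = 1)
    (ht' : (a * t) ^ m = 1) (hco : m.Coprime n) : IsConj t (a * t) := by
  have h0 : ∀ i : ℕ, (a * t) ^ (i + 1) * (t ^ (i + 1))⁻¹ =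
      a * (t * ((a * t) ^ i * (t ^ i)⁻¹) * t⁻¹) := by
    intro i
    rw [pow_succ', pow_succ' t, mul_inv_rev]
    simp only [mul_assoc]
  have hf : ∀ i : ℕ, (a * t) ^ i * (t ^ i)⁻¹ ∈ K := by
    intro i
    induction i with
    | zero => rw [pow_zero, pow_zero, inv_one, mul_one]; exact K.one_mem
    | succ i ih =>
      rw [h0]
      exact K.mul_mem ha (‹K.Normal›.conj_mem _ ih t)
  have hP : ∀ i : ℕ, P t (a * t) i ∈ K := by
    intro i
    induction i with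
    | zero => exact K.one_mem
    | succ i ih => exact K.mul_mem ih (hf i)
  have key : ∀ i : ℕ, t * P t (a * t) i * t⁻¹ =
      P t (a * t) i * ((a * t) ^ i * (t ^ i)⁻¹) * (a ^ i)⁻¹ := by
    intro i
    induction i with
    | zero =>
      change t * 1 * t⁻¹ = 1 * ((a * t) ^ 0 * (t ^ 0)⁻¹) * (a ^ 0)⁻¹
      rw [pow_zero, pow_zero, pow_zero]; group
    | succ i ih =>
      have h1 : t * ((a * t) ^ i * (t ^ i)⁻¹) * t⁻¹ =
          a⁻¹ * ((a * t) ^ (i + 1) * (t ^ (i + 1))⁻¹) := by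
        rw [h0, inv_mul_cancel_left]
      have h2 : Commute ((a ^ i)⁻¹ * a⁻¹) ((a * t) ^ (i + 1) * (t ^ (i + 1))⁻¹) :=
        hK _ (K.mul_mem (K.inv_mem (K.pow_mem ha i)) (K.inv_mem ha)) _ (hf (i + 1))
      have h3 : (a ^ i)⁻¹ * a⁻¹ = (a ^ (i + 1))⁻¹ := by
        rw [← mul_inv_rev, pow_succ']
      change t * (P t (a * t) i * ((a * t) ^ i * (t ^ i)⁻¹)) * t⁻¹ =
        P t (a * t) i * ((a * t) ^ i * (t ^ i)⁻¹) * ((a * t) ^ (i + 1) * (t ^ (i + 1))⁻¹) *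
          (a ^ (i + 1))⁻¹
      calc t * (P t (a * t) i * ((a * t) ^ i * (t ^ i)⁻¹)) * t⁻¹
          = (t * P t (a * t) i * t⁻¹) * (t * ((a * t) ^ i * (t ^ i)⁻¹) * t⁻¹) := by group
        _ = P t (a * t) i * ((a * t) ^ i * (t ^ i)⁻¹) * (((a ^ i)⁻¹ * a⁻¹) *
              ((a * t) ^ (i + 1) * (t ^ (i + 1))⁻¹)) := by rw [ih, h1]; group
        _ = P t (a * t) i * ((a * t) ^ i * (t ^ i)⁻¹) * (((a * t) ^ (i + 1) *
              (t ^ (i + 1))⁻¹) * ((a ^ i)⁻¹ * a⁻¹)) := by rw [h2.eq]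
        _ = _ := by rw [h3, ← mul_assoc]
  have hm := key m
  rw [ht, ht', inv_one, mul_one, mul_one] at hm
  -- the inverse of `m` modulo `n`
  have hb : (m : ℤ) * m.gcdA n + n * m.gcdB n = 1 := by
    rw [← Nat.gcd_eq_gcd_ab, hco.gcd_eq_one, Nat.cast_one]
  have hau : (a ^ m) ^ m.gcdA n = a := by
    have h1 : a ^ ((n : ℤ) * m.gcdB n) = 1 := by
      rw [zpow_mul, zpow_natCast, hn a ha, one_zpow]
    have h2 : a ^ ((m : ℤ) * m.gcdA n) = (a ^ m) ^ m.gcdA n := by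
      rw [zpow_mul, zpow_natCast]
    rw [← h2, ← mul_one (a ^ ((m : ℤ) * m.gcdA n)), ← h1, ← zpow_add, hb, zpow_one]
  have hk : t * P t (a * t) m ^ m.gcdA n * t⁻¹ = P t (a * t) m ^ m.gcdA n * a⁻¹ := by
    rw [← conj_zpow, hm, (hK _ (hP m) _ (K.inv_mem (K.pow_mem ha m))).mul_zpow, inv_zpow, hau]
  have hc : Commute (P t (a * t) m ^ m.gcdA n) a⁻¹ := hK _ (K.zpow_mem (hP m) _) _ (K.inv_mem ha)
  rw [isConj_iff]
  refine ⟨P t (a * t) m ^ m.gcdA n, ?_⟩
  rw [hc.eq] at hk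
  calc P t (a * t) m ^ m.gcdA n * t * (P t (a * t) m ^ m.gcdA n)⁻¹
      = a * (a⁻¹ * P t (a * t) m ^ m.gcdA n) * t * (P t (a * t) m ^ m.gcdA n)⁻¹ := by
        rw [mul_inv_cancel_left]
    _ = a * (t * P t (a * t) m ^ m.gcdA n * t⁻¹) * t * (P t (a * t) m ^ m.gcdA n)⁻¹ := by
        rw [hk]
    _ = a * t := by
        rw [mul_assoc a, inv_mul_cancel_right, ← mul_assoc a, mul_inv_cancel_right]

end

section

variable {G Q A : Type*} [Group G] [Group Q] [AddCommGroup A] (Z : Coc G Q A)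

theorem conj_of_D (hsurj : Function.Surjective Z.pi)
    (hab : ∀ a b, Z.pi a = 1 → Z.pi b = 1 → Commute a b) (n : ℕ)
    (hn : ∀ a, Z.pi a = 1 → a ^ n = 1) (hinj : ∀ a, Z.pi a = 1 → (∀ x, Z.c a x = 0) → a = 1)
    {t t' : G} (hc : IsConj (Z.pi t) (Z.pi t')) (hf : IsOfFinOrder (Z.pi t))
    (hco : (orderOf (Z.pi t)).Coprime n) (hD : ∀ x, Z.D t x = 0) (hD' : ∀ x, Z.D t' x = 0) :
    IsConj t t' ∧ IsOfFinOrder t := by
  have h1 := pow_eq_one Z hinj hf hD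
  have h2 := pow_eq_one Z hinj (hc.isOfFinOrder hf) hD'
  refine ⟨?_, isOfFinOrder_iff_pow_eq_one.2 ⟨_, hf.orderOf_pos, h1⟩⟩
  obtain ⟨u, hu⟩ := isConj_iff.1 hc
  obtain ⟨g, rfl⟩ := hsurj u
  have ho : orderOf (Z.pi t') = orderOf (Z.pi t) := by
    rw [← hu]
    exact (MulAut.conj (Z.pi g)).orderOf_eq (Z.pi t)
  have h3 : (g * t * g⁻¹) ^ orderOf (Z.pi t) = 1 := by
    rw [conj_pow, h1, mul_one, mul_inv_cancel]
  have h4 : t' * (g * t * g⁻¹)⁻¹ ∈ Z.pi.ker := by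
    rw [MonoidHom.mem_ker, map_mul, map_inv, map_mul, map_mul, map_inv, hu, mul_inv_cancel]
  have h5 : t' * (g * t * g⁻¹)⁻¹ * (g * t * g⁻¹) = t' := inv_mul_cancel_right _ _
  have h6 := conj_of_pow Z.pi.ker
    (fun a ha b hb => hab a b (MonoidHom.mem_ker.1 ha) (MonoidHom.mem_ker.1 hb)) n
    (fun a ha => hn a (MonoidHom.mem_ker.1 ha)) h4 h3 (by rw [h5, ← ho]; exact h2) hco
  rw [h5] at h6
  exact (isConj_iff.2 ⟨g, rfl⟩).trans h6

end

end Vale.Agent.P184.H788
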