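import Vale.Agent.P184.H788.LiftI
import Vale.Agent.P184.H856.Eqv

/-!
# P184: the algebra of block operators and the lifting of idempotents in it
-/

noncomputable section

namespace Vale.Agent.P184.H788

open Filter Topology
open Vale.Agent.P184.H13 (E dl co E_summable E_norm Emk Emk_apply E_ext dl_apply dl_self
  norm_apply_le)
open Vale.Agent.P184.H847 (hasSum_dl hasSum_clm hasSum_nrm norm_dl)
open Vale.Agent.P184.H856

universe u v

variable {Y : Type u} {L : Type v}

/-! ### projections onto sets of rows -/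

theorem qF_summable (F : Finset Y) (v : E (Y × L)) :
    Summable fun p : Y × L => ‖(F : Set Y).indicator (fun _ => v p) p.1‖ := by
  refine Summable.of_nonneg_of_le (fun _ => norm_nonneg _) (fun p => ?_) (E_summable v)
  exact norm_indicator_le_norm_self _ _

/-- the projection onto the rows in `F` -/
def qF (F : Finset Y) : E (Y × L) →L[ℂ] E (Y × L) :=
  LinearMap.mkContinuous
    { toFun := fun v => Emk (fun p => (F : Set Y).indicator (fun _ => v p) p.1) (qF_summable F v)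
      map_add' := fun v w => E_ext fun p => by
        change (F : Set Y).indicator (fun _ => v p + w p) p.1 =
          (F : Set Y).indicator (fun _ => v p) p.1 + (F : Set Y).indicator (fun _ => w p) p.1
        by_cases h : p.1 ∈ (F : Set Y)
        · simp only [Set.indicator_of_mem h]
        · simp only [Set.indicator_of_notMem h, add_zero]
      map_smul' := fun c v => E_ext fun p => by
        change (F : Set Y).indicator (fun _ => c * v p) p.1 =
          c * (F : Set Y).indicator (fun _ => v p) p.1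
        by_cases h : p.1 ∈ (F : Set Y)
        · simp only [Set.indicator_of_mem h]
        · simp only [Set.indicator_of_notMem h, mul_zero] } 1 (fun v => by
    rw [one_mul]
    change ‖Emk (fun p => (F : Set Y).indicator (fun _ => v p) p.1) (qF_summable F v)‖ ≤ _
    rw [E_norm, E_norm]
    have h : ∀ p : Y × L, ‖(F : Set Y).indicator (fun _ => v p) p.1‖ ≤ ‖v p‖ := fun p =>
      norm_indicator_le_norm_self _ _
    exact (qF_summable F v).tsum_le_tsum h (E_summable v))

theorem qF_mem {F : Finset Y} (v : E (Y × L)) {y : Y} (hy : y ∈ F) (l : L) :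
    qF F v (y, l) = v (y, l) := by
  change (F : Set Y).indicator (fun _ => v (y, l)) y = _
  rw [Set.indicator_of_mem (Finset.mem_coe.2 hy)]

theorem qF_notMem {F : Finset Y} (v : E (Y × L)) {y : Y} (hy : y ∉ F) (l : L) :
    qF F v (y, l) = 0 := by
  change (F : Set Y).indicator (fun _ => v (y, l)) y = _
  rw [Set.indicator_of_notMem (fun h => hy (Finset.mem_coe.1 h))]

theorem qF_qF (F : Finset Y) : (qF F : E (Y × L) →L[ℂ] E (Y × L)) * qF F = qF F := by
  refine ContinuousLinearMap.ext fun v => E_ext fun p => ?_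
  obtain ⟨y, l⟩ := p
  change qF F (qF F v) (y, l) = qF F v (y, l)
  by_cases h : y ∈ F
  · rw [qF_mem _ h]
  · rw [qF_notMem _ h, qF_notMem _ h]

theorem norm_sub_qF {K : E (Y × L) →L[ℂ] E (Y × L)} (hK : NucL K) {ε : ℝ} (hε : 0 < ε) :
    ∃ F : Finset Y, ‖K - qF F * K‖ ≤ ε := by
  obtain ⟨F, hF⟩ := (tendsto_order.1 (Summable.hasSum hK)).1 _
    (sub_lt_self (∑' y, ‖(pr y).comp K‖) hε) |>.exists
  have h1 : Summable fun y => ‖(pr y).comp K‖ := hK
  have h2 := h1.sum_add_tsum_compl (s := F)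
  have h3 : ∑' y : ((F : Set Y)ᶜ : Set Y), ‖(pr (y : Y)).comp K‖ ≤ ε := by linarith
  refine ⟨F, ?_⟩
  set T : E (Y × L) →L[ℂ] E (Y × L) := K - qF F * K with hT
  refine ContinuousLinearMap.opNorm_le_bound _ hε.le fun v => ?_
  have h4 := hasSum_pr (T v)
  have h5 : ∀ y ∈ F, ‖pr y (T v)‖ = 0 := by
    intro y hy
    rw [norm_eq_zero]
    refine E_ext fun l => ?_
    change K v (y, l) - qF F (K v) (y, l) = 0
    rw [qF_mem _ hy, sub_self]
  have h6 : ∀ y, y ∉ F → ‖pr y (T v)‖ ≤ ‖(pr y).comp K‖ * ‖v‖ := by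
    intro y hy
    have h7 : pr y (T v) = ((pr y).comp K) v := by
      refine E_ext fun l => ?_
      change K v (y, l) - qF F (K v) (y, l) = K v (y, l)
      rw [qF_notMem _ hy, sub_zero]
    rw [h7]
    exact ((pr y).comp K).le_opNorm v
  rw [← h4.tsum_eq, ← h4.summable.sum_add_tsum_compl (s := F), Finset.sum_eq_zero h5, zero_add]
  refine le_trans ?_ (mul_le_mul_of_nonneg_right h3 (norm_nonneg v))
  rw [← tsum_mul_right]
  refine Summable.tsum_le_tsum (fun y => h6 y.1 fun h => y.2 (Finset.mem_coe.2 h)) ?_ ?_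
  · exact h4.summable.comp_injective Subtype.val_injective
  · exact (h1.comp_injective Subtype.val_injective).mul_right _

theorem qF_dl (F : Finset Y) {y : Y} (hy : y ∈ F) (l : L) :
    qF F (dl (y, l) : E (Y × L)) = dl (y, l) := by
  classical
  refine E_ext fun p => ?_
  obtain ⟨z, a⟩ := p
  by_cases h : z ∈ F
  · rw [qF_mem _ h]
  · rw [qF_notMem _ h, dl_apply, if_neg]
    intro h2
    exact h ((Prod.mk.inj h2).1 ▸ hy)

theorem qF_dl_notMem (F : Finset Y) {y : Y} (hy : y ∉ F) (l : L) :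
    qF F (dl (y, l) : E (Y × L)) = 0 := by
  classical
  refine E_ext fun p => ?_
  obtain ⟨z, a⟩ := p
  change _ = (0 : ℂ)
  by_cases h : z ∈ F
  · rw [qF_mem _ h, dl_apply, if_neg]
    intro h2
    exact hy ((Prod.mk.inj h2).1 ▸ h)
  · rw [qF_notMem _ h]

section Group

variable [Group L]

/-- block operators -/
def Blk (A : Y → Subgroup L) (T : E (Y × L) →L[ℂ] E (Y × L)) : Prop :=
  ∀ (y z : Y) (l : L), ¬ (A z = A y ∧ l ∈ A y) → T (dl (y, 1)) (z, l) = 0

theorem eqv_at {T : E (Y × L) →L[ℂ] E (Y × L)} (hT : Eqv T) (y z : Y) (a l : L) :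
    T (dl (y, a)) (z, l) = T (dl (y, 1)) (z, l * a⁻¹) := by
  have h := hT y 1 z (l * a⁻¹) a
  rwa [one_mul, inv_mul_cancel_right] at h

theorem eqv_ext {T S : E (Y × L) →L[ℂ] E (Y × L)} (hT : Eqv T) (hS : Eqv S)
    (h : ∀ y z l, T (dl (y, 1)) (z, l) = S (dl (y, 1)) (z, l)) : T = S := by
  refine ContinuousLinearMap.ext fun v => ?_
  have h1 : ∀ p : Y × L, T (dl p) = S (dl p) := by
    intro p
    obtain ⟨y, a⟩ := p
    refine E_ext fun r => ?_
    obtain ⟨z, l⟩ := r
    rw [eqv_at hT, eqv_at hS, h]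
  rw [← (hasSum_clm T v).tsum_eq, ← (hasSum_clm S v).tsum_eq]
  exact tsum_congr fun p => by rw [h1]

theorem eqv_qF (F : Finset Y) : Eqv (qF F : E (Y × L) →L[ℂ] E (Y × L)) := by
  classical
  intro y l z a m
  by_cases hy : y ∈ F
  · rw [qF_dl F hy, qF_dl F hy, dl_apply, dl_apply]
    simp only [Prod.mk.injEq, mul_left_inj]
  · rw [qF_dl_notMem F hy, qF_dl_notMem F hy]
    rfl

theorem eqv_smul {K : E (Y × L) →L[ℂ] E (Y × L)} (hK : Eqv K) (c : ℂ) : Eqv (c • K) := by
  intro y l z a m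
  change c * K (dl (y, l * m)) (z, a * m) = c * K (dl (y, l)) (z, a)
  rw [hK]

theorem blk_dl_one (A : Y → Subgroup L) : ∀ (y z : Y) (l : L), ¬ (A z = A y ∧ l ∈ A y) →
    (dl (y, 1) : E (Y × L)) (z, l) = 0 := by
  classical
  intro y z l h
  rw [dl_apply, if_neg]
  intro h2
  obtain ⟨h3, h4⟩ := Prod.mk.inj h2
  exact h ⟨by rw [h3], by rw [h4]; exact one_mem _⟩

theorem blk_qF (A : Y → Subgroup L) (F : Finset Y) :
    Blk A (qF F : E (Y × L) →L[ℂ] E (Y × L)) := by
  intro y z l h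
  by_cases hy : y ∈ F
  · rw [qF_dl F hy]
    exact blk_dl_one A y z l h
  · rw [qF_dl_notMem F hy]
    rfl

theorem blk_mul {A : Y → Subgroup L} {K T : E (Y × L) →L[ℂ] E (Y × L)} (eK : Eqv K)
    (hK : Blk A K) (hT : Blk A T) : Blk A (K * T) := by
  intro y z l h
  rw [← (mul_entry K T (y, 1) (z, l)).tsum_eq]
  refine (tsum_congr fun r => ?_).trans tsum_zero
  obtain ⟨w, m⟩ := r
  by_cases h1 : A w = A y ∧ m ∈ A y
  · rw [eqv_at eK, hK w z, mul_zero]
    rintro ⟨h2, h3⟩
    rw [h1.1] at h2 h3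
    refine h ⟨h2, ?_⟩
    have := mul_mem h3 h1.2
    rwa [inv_mul_cancel_right] at this
  · rw [hT y w m h1, zero_mul]

/-- the algebra of equivariant block operators -/
def blkAlg (A : Y → Subgroup L) : Subalgebra ℂ (E (Y × L) →L[ℂ] E (Y × L)) where
  carrier := {T | Eqv T ∧ Blk A T}
  mul_mem' := fun ha hb => ⟨eqv_mul ha.1 hb.1, blk_mul ha.1 ha.2 hb.2⟩
  add_mem' := fun {S T} ha hb => ⟨eqv_add ha.1 hb.1, fun y z l h => by
    change S (dl (y, 1)) (z, l) + T (dl (y, 1)) (z, l) = 0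
    rw [ha.2 y z l h, hb.2 y z l h, add_zero]⟩
  algebraMap_mem' := fun c => by
    rw [Algebra.algebraMap_eq_smul_one]
    refine ⟨eqv_smul eqv_one c, fun y z l h => ?_⟩
    change c * (dl (y, 1) : E (Y × L)) (z, l) = 0
    rw [blk_dl_one A y z l h, mul_zero]

theorem mem_blkAlg {A : Y → Subgroup L} {T : E (Y × L) →L[ℂ] E (Y × L)} :
    T ∈ blkAlg A ↔ Eqv T ∧ Blk A T := Iff.rfl

theorem isClosed_blkAlg (A : Y → Subgroup L) :
    IsClosed (blkAlg A : Set (E (Y × L) →L[ℂ] E (Y × L))) := by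
  have h : (blkAlg A : Set (E (Y × L) →L[ℂ] E (Y × L))) =
      {K | Eqv K} ∩ ⋂ (y : Y) (z : Y) (l : L) (_ : ¬ (A z = A y ∧ l ∈ A y)),
        {K : E (Y × L) →L[ℂ] E (Y × L) | K (dl (y, 1)) (z, l) = 0} := by
    ext K
    simp only [SetLike.mem_coe, mem_blkAlg, Blk, Set.mem_inter_iff, Set.mem_ofPred_eq,
      Set.mem_iInter]
  rw [h]
  refine eqv_closed.inter ?_
  refine isClosed_iInter fun y => isClosed_iInter fun z => isClosed_iInter fun l =>
    isClosed_iInter fun _ => ?_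
  refine isClosed_eq ?_ continuous_const
  exact (co (z, l)).continuous.comp
    (ContinuousLinearMap.apply ℂ (E (Y × L)) (dl (y, 1))).continuous

instance (A : Y → Subgroup L) : CompleteSpace (blkAlg A) :=
  (isClosed_blkAlg A).completeSpace_coe

/-- the projection as an element of the algebra -/
def qB (A : Y → Subgroup L) (F : Finset Y) : blkAlg A := ⟨qF F, eqv_qF F, blk_qF A F⟩

theorem corner_zero {A : Y → Subgroup L} {F : Finset Y} {c : E (Y × L) →L[ℂ] E (Y × L)}
    (ec : Eqv c) (bc : Blk A c) (h3 : qF F * c = c) (h4 : c * qF F = c)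
    (h : ∀ y ∈ F, ∀ z ∈ F, ∀ l ∈ A y, c (dl (y, 1)) (z, l) = 0) : c = 0 := by
  refine eqv_ext ec (S := 0) (fun _ _ _ _ _ => rfl) fun y z l => ?_
  change c (dl (y, 1)) (z, l) = 0
  by_cases hy : y ∈ F
  · by_cases hz : z ∈ F
    · by_cases hl : l ∈ A y
      · exact h y hy z hz l hl
      · exact bc y z l fun h => hl h.2
    · rw [← h3]
      exact qF_notMem _ hz l
  · rw [← h4]
    change c (qF F (dl (y, 1))) (z, l) = 0
    rw [qF_dl_notMem F hy, map_zero]
    rfl

/-- the entries in the rows and columns of `F` -/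
def ent (A : Y → Subgroup L) (F : Finset Y) :
    (E (Y × L) →L[ℂ] E (Y × L)) →ₗ[ℂ] ((Σ y : F, F × (A y.1)) → ℂ) where
  toFun c p := c (dl (p.1.1, 1)) (p.2.1.1, p.2.2.1)
  map_add' _ _ := rfl
  map_smul' _ _ := rfl

theorem finite_corner (A : Y → Subgroup L) [∀ y, Finite (A y)] (F : Finset Y) :
    FiniteDimensional ℂ (LinearMap.range (cpr (qB A F))) := by
  have hq : qB A F * qB A F = qB A F := Subtype.ext (qF_qF F)
  let Φ : LinearMap.range (cpr (qB A F)) →ₗ[ℂ] ((Σ y : F, F × (A y.1)) → ℂ) :=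
    (ent A F).comp ((blkAlg A).val.toLinearMap.comp (LinearMap.range (cpr (qB A F))).subtype)
  have hΦ : Function.Injective Φ := by
    rw [← LinearMap.ker_eq_bot, LinearMap.ker_eq_bot']
    intro c hc
    obtain ⟨h1, h2⟩ := (mem_cpr hq).1 c.2
    refine Subtype.ext (Subtype.ext ?_)
    refine corner_zero (A := A) (F := F) c.1.2.1 c.1.2.2 (congrArg Subtype.val h1)
      (congrArg Subtype.val h2) fun y hy z hz l hl => ?_
    exact congrFun hc ⟨⟨y, hy⟩, ⟨z, hz⟩, ⟨l, hl⟩⟩
  exact Module.Finite.of_injective Φ hΦ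

/-- ALG: lifting of idempotents modulo nuclear operators, in the algebra of block operators. -/
theorem alg {A : Y → Subgroup L} [∀ y, Finite (A y)] {x : E (Y × L) →L[ℂ] E (Y × L)}
    (ex : Eqv x) (bx : Blk A x) (hN : NucL (x * x - x)) :
    ∃ f : E (Y × L) →L[ℂ] E (Y × L), f * f = f ∧ Eqv f ∧ Blk A f ∧ NucL (f - x) := by
  obtain ⟨f, b, hf, hfx⟩ := lift_idem (B := blkAlg A) ⟨x, ex, bx⟩ (fun ε hε => by
    obtain ⟨F, hF⟩ := norm_sub_qF hN hε
    exact ⟨qB A F, Subtype.ext (qF_qF F), hF, finite_corner A F⟩)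
  refine ⟨f.1, congrArg Subtype.val hf, f.2.1, f.2.2, ?_⟩
  have h : f.1 - x = (x * x - x) * b.1 := congrArg Subtype.val hfx
  rw [h]
  exact nucL_mul hN b.1

theorem trD_blk {A : Y → Subgroup L} {f : E (Y × L) →L[ℂ] E (Y × L)} (hf : Blk A f)
    {D : ConjClasses L} (hD : ∀ y, ∀ a ∈ A y, ConjClasses.mk a ≠ D) : trD D f = 0 := by
  unfold trD
  refine (tsum_congr fun y => ?_).trans tsum_zero
  refine (tsum_congr fun l => ?_).trans tsum_zero
  refine hf y y l.1 fun h => hD y l.1 h.2 ?_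
  exact ConjClasses.mem_carrier_iff_mk_eq.1 l.2

end Group

end Vale.Agent.P184.H788
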