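import Vale.Agent.P184.H788.Pair

/-!
# P184: sums over the classes over a class
-/

noncomputable section

namespace Vale.Agent.P184.H788

open Vale.Agent.P184 (IsIdem tau toFn L1Bass IsTorsionClass)
open Vale.Agent.P184.H13 (sm sm_nonneg)

universe u v w x

variable {G : Type u} {Y : Type v} {L : Type w} {K : Type x} [Group G] [Group L] [Group K] {q : ℕ}

/-- the sum of the bad traces over the classes over `C` -/
def Sys.big (Z : Sys G Y L) (ι : L →* K) (bad : G → Set Y) (e : Matrix (Fin q) (Fin q) (G → ℂ))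
    (C : ConjClasses K) : ℂ :=
  ∑' g, (∑ i, e i i g) *
    (({y | (Z.act g y = y ∧ ConjClasses.mk (ι (Z.a g y)) = C) ∧ y ∈ bad g} : Set Y).ncard : ℂ)

theorem norm_tr_le (M : Matrix (Fin q) (Fin q) ℂ) : ‖∑ i, M i i‖ ≤ sm M := by
  refine (norm_sum_le _ _).trans (Finset.sum_le_sum fun i _ => ?_)
  exact Finset.single_le_sum (f := fun j => ‖M i j‖) (fun _ _ => norm_nonneg _)
    (Finset.mem_univ i)

/-- points sorted by their class -/
def psi (Q R : G × Y → Prop) (T : G × Y → ConjClasses L) (C : ConjClasses K)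
    (κ : ConjClasses L → ConjClasses K) (π : {p : G × Y // (Q p ∧ κ (T p) = C) ∧ R p} →
      {D : ConjClasses L // κ D = C}) (hπ : ∀ p, (π p).1 = T p.1)
    (D : {D : ConjClasses L // κ D = C}) :
    {p // π p = D} ≃ {p : G × Y // (Q p ∧ T p = D.1) ∧ R p} where
  toFun p := ⟨p.1.1, ⟨p.1.2.1.1, (hπ p.1).symm.trans (congrArg Subtype.val p.2)⟩, p.1.2.2⟩
  invFun p := ⟨⟨p.1, ⟨p.2.1.1, (congrArg κ p.2.1.2).trans D.2⟩, p.2.2⟩,
    Subtype.ext ((hπ _).trans p.2.1.2)⟩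
  left_inv _ := rfl
  right_inv _ := rfl

omit [Group G] in
theorem tsum_sorted (Q R : G × Y → Prop) (T : G × Y → ConjClasses L) (C : ConjClasses K)
    (κ : ConjClasses L → ConjClasses K) (w : G → ℂ)
    (hs : Summable fun p : {p : G × Y // (Q p ∧ κ (T p) = C) ∧ R p} => w p.1.1) :
    ∑' p : {p : G × Y // (Q p ∧ κ (T p) = C) ∧ R p}, w p.1.1 =
      ∑' D : {D : ConjClasses L // κ D = C},
        ∑' p : {p : G × Y // (Q p ∧ T p = D.1) ∧ R p}, w p.1.1 := by
  let π : {p : G × Y // (Q p ∧ κ (T p) = C) ∧ R p} → {D : ConjClasses L // κ D = C} :=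
    fun p => ⟨T p.1, p.2.1.2⟩
  let φ := Equiv.sigmaFiberEquiv π
  let W : {p : G × Y // (Q p ∧ κ (T p) = C) ∧ R p} → ℂ := fun p => w p.1.1
  have h3 : Summable (W ∘ φ) := φ.summable_iff.2 hs
  have h4 : ∑' p, W p = ∑' p, (W ∘ φ) p := (φ.tsum_eq W).symm
  refine h4.trans (h3.tsum_sigma.trans ?_)
  refine tsum_congr fun D => ?_
  exact (psi Q R T C κ π (fun _ => rfl) D).tsum_eq
    fun p : {p : G × Y // (Q p ∧ T p = D.1) ∧ R p} => w p.1.1

theorem Sys.big_eq (Z : Sys G Y L) (ι : L →* K) {bad : G → Set Y} (hfin : ∀ g, (bad g).Finite)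
    {e : Matrix (Fin q) (Fin q) (G → ℂ)}
    (hs : Summable fun g => sm (toFn e g) * ((bad g).ncard : ℝ)) (C : ConjClasses K) :
    Z.big ι bad e C = ∑' D : {D : ConjClasses L // ConjClasses.map ι D = C}, Z.cnt bad e D.1 := by
  have hs' : Summable fun g => ‖∑ i, e i i g‖ * ((bad g).ncard : ℝ) :=
    Summable.of_nonneg_of_le (fun g => mul_nonneg (norm_nonneg _) (Nat.cast_nonneg _))
      (fun g => mul_le_mul_of_nonneg_right (norm_tr_le (toFn e g)) (Nat.cast_nonneg _)) hs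
  obtain ⟨h1, h2⟩ := tsum_bad (w := fun g => ∑ i, e i i g) hfin hs' fun p =>
    Z.act p.1 p.2 = p.2 ∧ ConjClasses.map ι (ConjClasses.mk (Z.a p.1 p.2)) = C
  have h3 := tsum_sorted (fun p => Z.act p.1 p.2 = p.2) (fun p => p.2 ∈ bad p.1)
    (fun p => ConjClasses.mk (Z.a p.1 p.2)) C (ConjClasses.map ι) (fun g => ∑ i, e i i g) h1
  exact h2.symm.trans h3

theorem torsion_map (ι : L →* K) {D : ConjClasses L} (h : IsTorsionClass D) :
    IsTorsionClass (ConjClasses.map ι D) := by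
  obtain ⟨d, rfl⟩ := ConjClasses.exists_rep D
  intro g hg
  have h1 : ConjClasses.mk g = ConjClasses.mk (ι d) := ConjClasses.mem_carrier_iff_mk_eq.1 hg
  have h2 : IsOfFinOrder (ι d) := ι.isOfFinOrder (h d ConjClasses.mem_carrier_mk)
  obtain ⟨c, hc⟩ := isConj_iff.1 (ConjClasses.mk_eq_mk_iff_isConj.1 h1.symm)
  rw [← hc]
  have h3 := (MulAut.conj c).toMonoidHom.isOfFinOrder h2
  exact h3

/-- **The pair theorem, all classes over a class.** -/
theorem pair_big (hL : L1Bass L) (ι : L →* K) (Z₁ Z₂ : Sys G Y L) {bad : G → Set Y}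
    (hfin : ∀ g, (bad g).Finite)
    (h : ∀ g y, y ∉ bad g → Z₁.act g y = Z₂.act g y ∧ Z₁.a g y = Z₂.a g y)
    {e : Matrix (Fin q) (Fin q) (G → ℂ)} (he : IsIdem e)
    (hs : Summable fun g => sm (toFn e g) * ((bad g).ncard : ℝ)) :
    ∃ F : Finset (ConjClasses K), (∀ C ∈ F, IsTorsionClass C) ∧
      ∀ C ∉ F, Z₁.big ι bad e C = Z₂.big ι bad e C := by
  classical
  obtain ⟨m, f, f', hf, hf', hD⟩ := pair Z₁ Z₂ hfin h he hs
  obtain ⟨F₁, h1, h2⟩ := hL m f hf
  obtain ⟨F₂, h3, h4⟩ := hL m f' hf'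
  refine ⟨(F₁ ∪ F₂).image (ConjClasses.map ι), fun C hC => ?_, fun C hC => ?_⟩
  · obtain ⟨D, hD, rfl⟩ := Finset.mem_image.1 hC
    refine torsion_map ι ?_
    rcases Finset.mem_union.1 hD with h | h
    · exact h1 D h
    · exact h3 D h
  · rw [Z₁.big_eq ι hfin hs, Z₂.big_eq ι hfin hs]
    refine tsum_congr fun D => ?_
    have h5 : D.1 ∉ F₁ ∪ F₂ := fun h => hC (Finset.mem_image.2 ⟨D.1, h, D.2⟩)
    have h6 := hD D.1
    rw [h2 _ fun h => h5 (Finset.mem_union_left _ h),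
      h4 _ fun h => h5 (Finset.mem_union_right _ h), sub_zero] at h6
    exact sub_eq_zero.1 h6.symm

end Vale.Agent.P184.H788
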