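import Vale.Agent.P184.H788.VR1

/-!
# P184: the bad vertices
-/

noncomputable section

namespace Vale.Agent.P184.H788

open Vale.Agent.P184.H290.Tree

universe u v

section

variable {G : Type u} {V : Type v} [Group G] [MulAction G V] {T : SimpleGraph V}

theorem Bd_eq (a : V) (g : G) : Bd T a g = insert a {v | par T a (g • v) ≠ g • par T a v} := rfl

theorem Bd_finite (hT : T.IsTree) (hadj : ∀ (g : G) u v, T.Adj u v → T.Adj (g • u) (g • v))
    (a : V) (g : G) : (Bd T a g).Finite := (par_smul_finite hadj hT a g).insert a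

theorem Bd_sub (hT : T.IsTree) (hadj : ∀ (g : G) u v, T.Adj u v → T.Adj (g • u) (g • v))
    (a : V) : ∃ ν : G → ℕ, (∀ g h, ν (g * h) ≤ ν g + ν h) ∧ ∀ g, (Bd T a g).ncard ≤ ν g + 1 := by
  refine ⟨fun g => ({v | par T a (g • v) ≠ g • par T a v} : Set V).ncard, fun g h => ?_,
    fun g => ?_⟩
  · have hsub : ({v | par T a ((g * h) • v) ≠ (g * h) • par T a v} : Set V) ⊆
        (fun x => h⁻¹ • x) '' {v | par T a (g • v) ≠ g • par T a v} ∪
          {v | par T a (h • v) ≠ h • par T a v} := by
      intro v hv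
      by_cases h1 : par T a (h • v) = h • par T a v
      · refine Or.inl ⟨h • v, fun h2 => hv ?_, inv_smul_smul h v⟩
        rw [mul_smul, mul_smul, h2, h1]
      · exact Or.inr h1
    refine (Set.ncard_le_ncard hsub (((par_smul_finite hadj hT a g).image _).union
      (par_smul_finite hadj hT a h))).trans ?_
    refine (Set.ncard_union_le _ _).trans (Nat.add_le_add_right ?_ _)
    exact Set.ncard_image_le (par_smul_finite hadj hT a g)
  · rw [Bd_eq]
    exact Set.ncard_insert_le _ _

theorem Bd_count (hT : T.IsTree) (hadj : ∀ (g : G) u v, T.Adj u v → T.Adj (g • u) (g • v))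
    (a : V) (g : G) (hg : ∃ v : V, g • v = v) :
    ({v | g • v = v ∧ v ∈ Bd T a g} : Set V).ncard = 1 := by
  classical
  obtain ⟨v, hv, hmin⟩ : ∃ v : V, g • v = v ∧ ∀ w, g • w = w → T.dist a v ≤ T.dist a w := by
    obtain ⟨v₀, h0⟩ := hg
    let f : {v : V // g • v = v} → ℕ := fun w => T.dist a w.1
    have : Nonempty {v : V // g • v = v} := ⟨⟨v₀, h0⟩⟩
    exact ⟨(Function.argmin f).1, (Function.argmin f).2,
      fun w hw => Function.argmin_le f ⟨w, hw⟩⟩
  have hvB : v ∈ Bd T a g := by
    by_cases hva : v = a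
    · exact Or.inl hva
    · refine Or.inr fun h1 => ?_
      rw [hv] at h1
      have h2 := hmin _ h1.symm
      have h3 := par_dist hT (Ne.symm hva)
      omega
  have key : ∀ x y : V, (g • x = x ∧ x ∈ Bd T a g) → (g • y = y) → x ≠ y →
      T.dist a y = T.dist a x + T.dist x y := by
    rintro x y ⟨h1, h2⟩ h3 hxy
    rcases h2 with rfl | h2
    · rw [SimpleGraph.dist_self, zero_add]
    · refine dist_add hT _ y rfl hxy fun h4 => h2 ?_
      have h5 := par_smul hadj hT g y x
      rw [h1, h3] at h5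
      rw [h1, h4]
      exact h5
  rw [Set.ncard_eq_one]
  refine ⟨v, Set.eq_singleton_iff_unique_mem.2 ⟨⟨hv, hvB⟩, fun w hw => ?_⟩⟩
  by_contra hne
  have h1 := key w v hw hv hne
  have h2 := key v w ⟨hv, hvB⟩ hw.1 (Ne.symm hne)
  rw [SimpleGraph.dist_comm (u := v) (v := w)] at h2
  have h3 : 0 < T.dist w v := hT.connected.pos_dist_of_ne hne
  omega

end

end Vale.Agent.P184.H788
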