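import Vale.Agent.P184.Bdl.B3

/-!
# P184: decaying replacements and the bad points of a cocycle
-/

noncomputable section

namespace Vale.Agent.P184.H788

open Vale.Agent.P184 (IsIdem tau toFn exists_decay)

section

attribute [local instance] Matrix.linftyOpNormedRing Matrix.linftyOpNormedAlgebra

theorem norm_le_linfty {q : ℕ} (M : Matrix (Fin q) (Fin q) ℂ) (i j : Fin q) : ‖M i j‖ ≤ ‖M‖ := by
  rw [Matrix.linfty_opNorm_def]
  have h1 : ‖M i j‖₊ ≤ ∑ k, ‖M i k‖₊ :=
    Finset.single_le_sum (f := fun k => ‖M i k‖₊) (fun k _ => zero_le) (Finset.mem_univ j)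
  have h2 : ∑ k, ‖M i k‖₊ ≤ Finset.univ.sup fun i => ∑ k, ‖M i k‖₊ :=
    Finset.le_sup (f := fun i => ∑ k, ‖M i k‖₊) (Finset.mem_univ i)
  exact_mod_cast h1.trans h2

/-- replacing an idempotent by a weighted summable one -/
theorem exists_dec {G : Type*} [Group G] (len : G → ℕ) (hlen : ∀ g h, len (g * h) ≤ len g + len h)
    {q : ℕ} (e : Matrix (Fin q) (Fin q) (G → ℂ)) (he : IsIdem e) :
    ∃ f : Matrix (Fin q) (Fin q) (G → ℂ), IsIdem f ∧
      (∀ i j, Summable fun g => ‖f i j g‖ * (1 + len g : ℝ)) ∧ ∀ C, tau C f = tau C e := by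
  obtain ⟨ε, hε, f, hf, hdec, htau⟩ :=
    exists_decay (fun g => (len g : ℝ)) (fun g => Nat.cast_nonneg _)
      (fun g h => by exact_mod_cast hlen g h) e he
  refine ⟨f, hf, fun i j => ?_, htau⟩
  refine Summable.of_nonneg_of_le
    (fun g => mul_nonneg (norm_nonneg _) (by positivity)) (fun g => ?_)
    (hdec.mul_left (1 + 1 / ε))
  have h0 : (0 : ℝ) ≤ len g := Nat.cast_nonneg _
  have h1 : ‖f i j g‖ ≤ ‖toFn f g‖ := norm_le_linfty (toFn f g) i j
  have h2 : ε * len g + 1 ≤ Real.exp (ε * len g) := Real.add_one_le_exp _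
  have h3 : 1 + (len g : ℝ) ≤ (1 + 1 / ε) * Real.exp (ε * len g) := by
    have h4 : (1 + 1 / ε) * (ε * len g + 1) = 1 + len g + (ε * len g + 1 / ε) := by
      field_simp
      ring
    have h5 : (1 + 1 / ε) * (ε * len g + 1) ≤ (1 + 1 / ε) * Real.exp (ε * len g) :=
      mul_le_mul_of_nonneg_left h2 (by positivity)
    have h6 : 0 ≤ ε * len g + 1 / ε := by positivity
    linarith
  calc ‖f i j g‖ * (1 + len g : ℝ) ≤ ‖toFn f g‖ * ((1 + 1 / ε) * Real.exp (ε * len g)) :=
        mul_le_mul h1 h3 (by positivity) (norm_nonneg _)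
    _ = (1 + 1 / ε) * (‖toFn f g‖ * Real.exp (ε * len g)) := by ring

end

section

variable {G X L : Type*} [Group G] [MulAction G X] [Group L]

/-- the bad points -/
def bad (α : G → X → L) (A : X → Subgroup L) (g : G) : Set X :=
  {x | ¬ (A (g • x) = A x ∧ α g x ∈ A x)}

/-- the good points -/
def good (α : G → X → L) (A : X → Subgroup L) (g : G) : Set X :=
  {x | A (g • x) = A x ∧ α g x ∈ A x}

theorem mem_good {α : G → X → L} {A : X → Subgroup L} {g : G} {x : X} :
    x ∈ good α A g ↔ A (g • x) = A x ∧ α g x ∈ A x := Iff.rfl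

theorem notMem_good {α : G → X → L} {A : X → Subgroup L} {g : G} {x : X} :
    x ∉ good α A g ↔ x ∈ bad α A g := Iff.rfl

theorem ncard_bad_mul {α : G → X → L} (hα : ∀ g h x, α (g * h) x = α g (h • x) * α h x)
    {A : X → Subgroup L} (hfin : ∀ g, (bad α A g).Finite) (g h : G) :
    (bad α A (g * h)).ncard ≤ (bad α A g).ncard + (bad α A h).ncard := by
  have hsub : bad α A (g * h) ⊆ (fun x => h⁻¹ • x) '' bad α A g ∪ bad α A h := by
    intro x hx
    by_cases h1 : x ∈ bad α A h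
    · exact Or.inr h1
    · refine Or.inl ⟨h • x, ?_, inv_smul_smul h x⟩
      by_contra h2
      obtain ⟨h3, h4⟩ : A (h • x) = A x ∧ α h x ∈ A x := not_not.1 h1
      obtain ⟨h5, h6⟩ : A (g • h • x) = A (h • x) ∧ α g (h • x) ∈ A (h • x) := not_not.1 h2
      refine hx ⟨?_, ?_⟩
      · rw [mul_smul, h5, h3]
      · rw [hα]
        rw [h3] at h6
        exact mul_mem h6 h4
  refine (Set.ncard_le_ncard hsub (((hfin g).image _).union (hfin h))).trans ?_
  refine (Set.ncard_union_le _ _).trans (Nat.add_le_add_right ?_ _)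
  exact Set.ncard_image_le (hfin g)

end

end Vale.Agent.P184.H788
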