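import Mathlib

/-!
# P184: Fredholm determinants in Banach algebras

If `y` is approximated by `q * y` with idempotents `q` such that `q B q` is finite dimensional,
then `1 + w y` is invertible for all but finitely many `w` in every disc.
-/

namespace Vale.Agent.P184.H788

open Filter Topology

section

variable {B : Type*} [NormedRing B] [NormedAlgebra ℂ B]

/-- the compression `b ↦ q b q` -/
noncomputable def cpr (q : B) : B →ₗ[ℂ] B :=
  (LinearMap.mulRight ℂ q).comp (LinearMap.mulLeft ℂ q)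

theorem cpr_apply (q b : B) : cpr q b = q * b * q := rfl

variable {q : B}

theorem mem_cpr (hq : q * q = q) {c : B} : c ∈ LinearMap.range (cpr q) ↔ q * c = c ∧ c * q = c := by
  constructor
  · rintro ⟨b, rfl⟩
    rw [cpr_apply]
    constructor
    · rw [← mul_assoc, ← mul_assoc, hq]
    · rw [mul_assoc (q * b), hq]
  · rintro ⟨h1, h2⟩
    exact ⟨c, by rw [cpr_apply, h1, h2]⟩

/-- left multiplication on the corner -/
noncomputable def lm (hq : q * q = q) :
    LinearMap.range (cpr q) →ₗ[ℂ] (LinearMap.range (cpr q) →ₗ[ℂ] LinearMap.range (cpr q)) :=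
  LinearMap.mk₂ ℂ (fun c v => ⟨(c : B) * v, (mem_cpr hq).2 ⟨by
      rw [← mul_assoc, ((mem_cpr hq).1 c.2).1], by
      rw [mul_assoc, ((mem_cpr hq).1 v.2).2]⟩⟩)
    (fun a b c => Subtype.ext (add_mul _ _ _))
    (fun r a b => Subtype.ext (smul_mul_assoc _ _ _))
    (fun a b c => Subtype.ext (mul_add _ _ _))
    (fun r a b => Subtype.ext (mul_smul_comm _ _ _))

theorem lm_apply (hq : q * q = q) (c v : LinearMap.range (cpr q)) :
    ((lm hq c v : LinearMap.range (cpr q)) : B) = c * v := rfl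

/-- an element of the corner with nonzero determinant -/
theorem isUnit_of_det [FiniteDimensional ℂ (LinearMap.range (cpr q))] (hq : q * q = q)
    (c : LinearMap.range (cpr q)) (h : LinearMap.det (1 + lm hq c) ≠ 0) :
    IsUnit (1 + (c : B)) := by
  have hc := (mem_cpr hq).1 c.2
  have hqm : q ∈ LinearMap.range (cpr q) := (mem_cpr hq).2 ⟨hq, hq⟩
  let M : LinearMap.range (cpr q) →ₗ[ℂ] LinearMap.range (cpr q) := 1 + lm hq c
  have hu : IsUnit M := by
    rw [LinearMap.isUnit_iff_isUnit_det]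
    exact isUnit_iff_ne_zero.2 h
  obtain ⟨z, hz⟩ : ∃ z, M z = ⟨q, hqm⟩ := by
    obtain ⟨N, hN⟩ := hu.exists_right_inv
    exact ⟨N ⟨q, hqm⟩, congrArg (fun L => L (⟨q, hqm⟩ : LinearMap.range (cpr q))) hN⟩
  have hzm := (mem_cpr hq).1 z.2
  have h1 : (z : B) + c * z = q := congrArg Subtype.val hz
  -- the left inverse
  have h2 : M * (lm hq z) = 1 := by
    refine LinearMap.ext fun v => Subtype.ext ?_
    change (z : B) * v + c * (z * v) = v
    rw [← mul_assoc, ← add_mul, h1]
    exact ((mem_cpr hq).1 v.2).1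
  have h3 : (lm hq z) * M = 1 := mul_eq_one_comm.1 h2
  have h4 : (z : B) * (q + c * q) = q := congrArg Subtype.val
    (congrArg (fun L => L (⟨q, hqm⟩ : LinearMap.range (cpr q))) h3)
  have h5 : (z : B) + z * c = q := by
    rw [hc.2, mul_add, hzm.2] at h4
    exact h4
  refine ⟨⟨1 + c, 1 - q + z, ?_, ?_⟩, rfl⟩
  · calc (1 + (c : B)) * (1 - q + z) = 1 - q + (z + c * z) + (c - c * q) := by noncomm_ring
      _ = 1 := by rw [h1, hc.2]; abel
  · calc (1 - q + z) * (1 + (c : B)) = 1 - q + (z + z * c) + (c - q * c) := by noncomm_ring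
      _ = 1 := by rw [h5, hc.1]; abel

theorem isUnit_comm {B : Type*} [Ring B] {a b : B} (h : IsUnit (1 + a * b)) : IsUnit (1 + b * a) := by
  obtain ⟨u, hu⟩ := h
  have h1 : (1 + a * b) * (↑u⁻¹ : B) = 1 := by rw [← hu, Units.mul_inv]
  have h2 : (↑u⁻¹ : B) * (1 + a * b) = 1 := by rw [← hu, Units.inv_mul]
  refine ⟨⟨1 + b * a, 1 - b * ↑u⁻¹ * a, ?_, ?_⟩, rfl⟩
  · calc (1 + b * a) * (1 - b * ↑u⁻¹ * a) = 1 + b * a - b * ((1 + a * b) * ↑u⁻¹) * a := by
          noncomm_ring
      _ = 1 := by rw [h1]; noncomm_ring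
  · calc (1 - b * ↑u⁻¹ * a) * (1 + b * a) = 1 + b * a - b * (↑u⁻¹ * (1 + a * b)) * a := by
          noncomm_ring
      _ = 1 := by rw [h2]; noncomm_ring

variable [CompleteSpace B]

/-- the bad set in a disc is finite -/
theorem finite_bad (hq : q * q = q) [FiniteDimensional ℂ (LinearMap.range (cpr q))] {y : B}
    {R₀ R₁ : ℝ} (hR : R₀ < R₁) (hy : ∀ w : ℂ, ‖w‖ < R₁ → IsUnit (1 + w • (y - q * y))) :
    {w : ℂ | ‖w‖ ≤ R₀ ∧ ¬ IsUnit (1 + w • y)}.Finite := by
  classical
  set V := LinearMap.range (cpr q) with hV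
  -- the resolvent
  set R : ℂ → B := fun w => Ring.inverse (1 + w • (y - q * y)) with hRdef
  have hRan : ∀ w : ℂ, ‖w‖ < R₁ → AnalyticAt ℂ R w := by
    intro w hw
    obtain ⟨u, hu⟩ := hy w hw
    have h1 : AnalyticAt ℂ (fun w : ℂ => 1 + w • (y - q * y)) w := by fun_prop
    have h2 := analyticAt_inverse (𝕜 := ℂ) u
    rw [hu] at h2
    exact AnalyticAt.comp (g := Ring.inverse) (f := fun w : ℂ => 1 + w • (y - q * y)) h2 h1
  -- the corner valued function
  let L' : B →L[ℂ] V :=
    { toLinearMap := (cpr q).rangeRestrict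
      cont := by
        refine Continuous.subtype_mk ?_ _
        change Continuous fun b => q * b * q
        fun_prop }
  set c : ℂ → V := fun w => L' (w • (y * R w)) with hc
  have hcan : ∀ w : ℂ, ‖w‖ < R₁ → AnalyticAt ℂ c w := by
    intro w hw
    have h1 := hRan w hw
    have h2 : AnalyticAt ℂ (fun w : ℂ => w • (y * R w)) w :=
      analyticAt_id.smul (analyticAt_const.mul h1)
    exact (L'.analyticAt _).comp h2
  -- the determinant
  let bs := Module.finBasis ℂ V
  set D : ℂ → ℂ := fun w => LinearMap.det (1 + lm hq (c w)) with hD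
  have hDan : AnalyticOnNhd ℂ D (Metric.ball 0 R₁) := by
    intro w hw
    rw [mem_ball_zero_iff] at hw
    have h1 : D = fun w => ∑ σ : Equiv.Perm (Fin (Module.finrank ℂ V)),
        (Equiv.Perm.sign σ : ℤ) • ∏ i, LinearMap.toMatrix bs bs (1 + lm hq (c w)) (σ i) i := by
      funext w
      rw [hD]
      dsimp only
      rw [← LinearMap.det_toMatrix bs, Matrix.det_apply]
      rfl
    rw [h1]
    have h2 : ∀ i j, AnalyticAt ℂ
        (fun w => LinearMap.toMatrix bs bs (1 + lm hq (c w)) i j) w := by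
      intro i j
      have h3 : (fun w => LinearMap.toMatrix bs bs (1 + lm hq (c w)) i j) =
          fun w => bs.coord i (bs j) +
            LinearMap.toContinuousLinearMap ((bs.coord i).comp ((LinearMap.flip (lm hq)) (bs j)))
              (c w) := by
        funext w
        rw [LinearMap.toMatrix_apply]
        change bs.repr (bs j + lm hq (c w) (bs j)) i = _
        rw [map_add]
        rfl
      rw [h3]
      exact analyticAt_const.add ((ContinuousLinearMap.analyticAt _ _).comp (hcan w hw))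
    refine Finset.analyticAt_fun_sum _ fun σ _ => ?_
    have h4 : AnalyticAt ℂ (fun w => ∏ i, LinearMap.toMatrix bs bs (1 + lm hq (c w)) (σ i) i) w :=
      Finset.analyticAt_fun_prod _ fun i _ => h2 (σ i) i
    have h5 : (fun w => (Equiv.Perm.sign σ : ℤ) • ∏ i, LinearMap.toMatrix bs bs
        (1 + lm hq (c w)) (σ i) i) = fun w => ((Equiv.Perm.sign σ : ℤ) : ℂ) *
          ∏ i, LinearMap.toMatrix bs bs (1 + lm hq (c w)) (σ i) i := by
      funext w
      rw [zsmul_eq_mul]
    rw [h5]
    exact analyticAt_const.mul h4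
  have hD0 : D 0 ≠ 0 := by
    have h1 : c 0 = 0 := by
      rw [hc]
      dsimp only
      rw [zero_smul, map_zero]
    rw [hD]
    dsimp only
    rw [h1, map_zero, add_zero, map_one]
    exact one_ne_zero
  have hunit : ∀ w : ℂ, ‖w‖ < R₁ → D w ≠ 0 → IsUnit (1 + w • y) := by
    intro w hw hDw
    obtain ⟨u, hu⟩ := hy w hw
    have h1 := isUnit_of_det hq (c w) hDw
    have h2 : ((c w : V) : B) = (q * y) * (w • (R w * q)) := by
      change q * (w • (y * R w)) * q = _
      rw [mul_smul_comm, smul_mul_assoc, mul_smul_comm]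
      congr 1
      noncomm_ring
    rw [h2] at h1
    have h3 := isUnit_comm h1
    have hRw : R w = ↑u⁻¹ := by
      rw [hRdef]
      dsimp only
      rw [← hu, Ring.inverse_unit]
    have h4 : 1 + w • y = (u : B) * (1 + (w • (R w * q)) * (q * y)) := by
      rw [mul_add, mul_one, smul_mul_assoc, mul_smul_comm, hRw]
      have h5 : (u : B) * ((↑u⁻¹ : B) * q * (q * y)) = q * y := by
        rw [mul_assoc, Units.mul_inv_cancel_left, ← mul_assoc, hq]
      rw [h5, hu, smul_sub]
      abel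
    rw [h4]
    exact u.isUnit.mul h3
  by_contra hinf
  have hinf' : {w : ℂ | ‖w‖ ≤ R₀ ∧ ¬ IsUnit (1 + w • y)}.Infinite := hinf
  obtain ⟨z₀, hz₀, hacc⟩ := hinf'.exists_accPt_of_subset_isCompact
    (isCompact_closedBall (0 : ℂ) R₀) (fun w hw => mem_closedBall_zero_iff.2 hw.1)
  have hz1 : z₀ ∈ Metric.ball (0 : ℂ) R₁ :=
    mem_ball_zero_iff.2 ((mem_closedBall_zero_iff.1 hz₀).trans_lt hR)
  have hfreq : ∃ᶠ w in 𝓝[≠] z₀, D w = 0 := by
    have h1 := accPt_iff_frequently_nhdsNE.1 hacc
    refine h1.mono fun w hw => ?_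
    by_contra hne
    exact hw.2 (hunit w (hw.1.trans_lt hR) hne)
  have h6 := hDan.eqOn_zero_of_preconnected_of_frequently_eq_zero
    (convex_ball (0 : ℂ) R₁).isPreconnected hz1 hfreq
  have h0 : (0 : ℂ) ∈ Metric.ball (0 : ℂ) R₁ := by
    rw [mem_ball_zero_iff, norm_zero]
    exact (norm_nonneg z₀).trans_lt (mem_ball_zero_iff.1 hz1)
  exact hD0 (h6 h0)

end

end Vale.Agent.P184.H788
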