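import Vale.Agent.P184.H788.Riesz

/-!
# P184: lifting of idempotents modulo compact elements of Banach algebras
-/

namespace Vale.Agent.P184.H788

open Filter Topology Finset

variable {B : Type*} [NormedRing B] [NormedAlgebra ℂ B] [CompleteSpace B]

/-- a circle around `1` missing the spectrum -/
theorem exists_circle (x : B) (happ : ∀ ε : ℝ, 0 < ε → ∃ q : B, q * q = q ∧
    ‖(x * x - x) - q * (x * x - x)‖ ≤ ε ∧ FiniteDimensional ℂ (LinearMap.range (cpr q))) :
    ∃ r : ℝ, 1 / 4 < r ∧ r < 1 / 2 ∧ ∀ z : ℂ, ‖z - 1‖ = r → IsUnit (algebraMap ℂ B z - x) := by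
  classical
  set y := x * x - x with hy
  obtain ⟨q, hq, hqy, hfd⟩ := happ (1 / 10) (by norm_num)
  have hfin := finite_bad (y := y) (R₀ := 8) (R₁ := 9) hq (by norm_num) (fun w hw => by
    have h1 : ‖w • (y - q * y)‖ < 1 := by
      rw [norm_smul]
      have h2 : ‖w‖ * ‖y - q * y‖ ≤ 9 * (1 / 10) :=
        mul_le_mul hw.le hqy (norm_nonneg _) (by norm_num)
      linarith
    have h2 := isUnit_one_sub_of_norm_lt_one (x := -(w • (y - q * y))) (by rwa [norm_neg])
    rwa [sub_neg_eq_add] at h2)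
  set S := {w : ℂ | ‖w‖ ≤ 8 ∧ ¬ IsUnit (1 + w • y)} with hS
  set Z : Set ℂ := ⋃ w ∈ S, {z : ℂ | w * (z * (1 - z)) = 1} with hZ
  have hZfin : Z.Finite := by
    refine hfin.biUnion fun w _ => ?_
    by_cases h : ∃ z₀ : ℂ, w * (z₀ * (1 - z₀)) = 1
    · obtain ⟨z₀, hz₀⟩ := h
      refine (Set.toFinite {z₀, 1 - z₀}).subset fun z hz => ?_
      have hw0 : w ≠ 0 := by
        rintro rfl
        rw [zero_mul] at hz₀
        exact zero_ne_one hz₀
      have h1 : w * (z * (1 - z)) = w * (z₀ * (1 - z₀)) := by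
        rw [hz₀]
        exact hz
      have h2 := mul_left_cancel₀ hw0 h1
      have h3 : (z - z₀) * (1 - z - z₀) = 0 := by linear_combination h2
      rcases mul_eq_zero.1 h3 with h4 | h4
      · left
        exact sub_eq_zero.1 h4
      · right
        rw [Set.mem_singleton_iff]
        linear_combination -h4
    · refine Set.finite_empty.subset fun z hz => ?_
      exact h ⟨z, hz⟩
  have hrad : ((fun z : ℂ => ‖z - 1‖) '' Z).Finite := hZfin.image _
  obtain ⟨r, hr1, hr2⟩ := ((Set.Ioo_infinite (show (1 : ℝ) / 4 < 1 / 2 by norm_num)).sdiff hrad).nonempty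
  refine ⟨r, hr1.1, hr1.2, fun z hz => ?_⟩
  have hr0 : 0 < r := by linarith [hr1.1]
  have hz1 : z - 1 ≠ 0 := by
    intro h
    rw [h, norm_zero] at hz
    exact hr0.ne hz
  have hzn : 1 / 2 ≤ ‖z‖ := by
    have h1 := norm_sub_norm_le (1 : ℂ) (1 - z)
    rw [norm_one, norm_sub_rev 1 z, hz, sub_sub_cancel] at h1
    linarith [hr1.2]
  have hz0 : z ≠ 0 := by
    rintro rfl
    rw [norm_zero] at hzn
    linarith
  have hN0 : z * (1 - z) ≠ 0 := mul_ne_zero hz0 (by
    intro h
    exact hz1 (by linear_combination -h))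
  have hN : 1 / 8 ≤ ‖z * (1 - z)‖ := by
    rw [norm_mul, norm_sub_rev 1 z, hz]
    have := mul_le_mul hzn hr1.1.le (by norm_num) (norm_nonneg z)
    linarith
  have hu : IsUnit (1 + (z * (1 - z))⁻¹ • y) := by
    by_contra hbad
    refine hr2 ⟨z, ?_, hz⟩
    refine Set.mem_biUnion (x := (z * (1 - z))⁻¹) ⟨?_, hbad⟩ ?_
    · rw [norm_inv]
      calc ‖z * (1 - z)‖⁻¹ ≤ (1 / 8)⁻¹ := inv_anti₀ (by norm_num) hN
        _ = 8 := by norm_num
    · exact inv_mul_cancel₀ hN0
  have hprod : (algebraMap ℂ B z - x) * (algebraMap ℂ B (1 - z) - x) =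
      (z * (1 - z)) • (1 + (z * (1 - z))⁻¹ • y) := by
    rw [smul_add, smul_smul, mul_inv_cancel₀ hN0, one_smul, ← Algebra.algebraMap_eq_smul_one,
      map_mul, map_sub, map_one, hy]
    have hc : algebraMap ℂ B z * x = x * algebraMap ℂ B z := Algebra.commutes z x
    calc (algebraMap ℂ B z - x) * (1 - algebraMap ℂ B z - x) =
        algebraMap ℂ B z * (1 - algebraMap ℂ B z) + (x * x - x) +
          (x * algebraMap ℂ B z - algebraMap ℂ B z * x) := by noncomm_ring
      _ = algebraMap ℂ B z * (1 - algebraMap ℂ B z) + (x * x - x) := by rw [hc, sub_self, add_zero]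
  have hcomm : Commute (algebraMap ℂ B z - x) (algebraMap ℂ B (1 - z) - x) := by
    have c1 : Commute (algebraMap ℂ B z) (algebraMap ℂ B (1 - z)) := Algebra.commutes _ _
    have c2 : Commute (algebraMap ℂ B z) x := Algebra.commutes _ _
    have c3 : Commute x (algebraMap ℂ B (1 - z)) := (Algebra.commutes (1 - z) x).symm
    exact (c1.sub_right c2).sub_left (c3.sub_right (Commute.refl x))
  refine (hcomm.isUnit_mul_iff.1 ?_).1
  rw [hprod]
  have h1 : (z * (1 - z)) • (1 + (z * (1 - z))⁻¹ • y) =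
      algebraMap ℂ B (z * (1 - z)) * (1 + (z * (1 - z))⁻¹ • y) := Algebra.smul_def _ _
  rw [h1]
  exact ((isUnit_iff_ne_zero.2 hN0).map (algebraMap ℂ B)).mul hu

/-- **Lifting of idempotents** modulo compact elements. -/
theorem lift_idem (x : B) (happ : ∀ ε : ℝ, 0 < ε → ∃ q : B, q * q = q ∧
    ‖(x * x - x) - q * (x * x - x)‖ ≤ ε ∧ FiniteDimensional ℂ (LinearMap.range (cpr q))) :
    ∃ f b : B, f * f = f ∧ f - x = (x * x - x) * b := by
  classical
  obtain ⟨r, hr1, hr2, hr⟩ := exists_circle x happ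
  set y := x * x - x with hy
  have hr0 : 0 < r := by linarith
  have hrc : (r : ℂ) ≠ 0 := Complex.ofReal_ne_zero.2 hr0.ne'
  set u : B := (r : ℂ)⁻¹ • (x - 1) with hu
  -- the scalar analogue
  set u₀ : ℂ := -(r : ℂ)⁻¹ with hu₀
  have hz : ∀ w : ℂ, ‖w‖ = 1 → ‖(1 + r * w) - 1‖ = r := by
    intro w hw
    rw [add_sub_cancel_left, norm_mul, hw, mul_one, Complex.norm_real, Real.norm_of_nonneg hr0.le]
  have hfac : ∀ w : ℂ, algebraMap ℂ B w - u = (r : ℂ)⁻¹ • (algebraMap ℂ B (1 + r * w) - x) := by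
    intro w
    rw [hu, Algebra.algebraMap_eq_smul_one, Algebra.algebraMap_eq_smul_one, add_smul, one_smul,
      smul_sub, smul_sub, smul_add, smul_smul, inv_mul_cancel_left₀ hrc]
    abel
  have hunit : ∀ w : ℂ, ‖w‖ = 1 → IsUnit (algebraMap ℂ B w - u) := by
    intro w hw
    rw [hfac w, Algebra.smul_def]
    exact ((isUnit_iff_ne_zero.2 (inv_ne_zero hrc)).map (algebraMap ℂ B)).mul (hr _ (hz w hw))
  -- the functions modulo `y`
  have hFr : ∀ w : ℂ, ‖w‖ = 1 → ∃ b : B, Fr u w = x + (Fr u₀ w) • (1 - x) + y * b := by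
    intro w hw
    have hw0 : w ≠ 0 := norm_ne_zero_iff.1 (by rw [hw]; exact one_ne_zero)
    set z : ℂ := 1 + r * w with hzd
    have hz0 : z ≠ 0 := by
      intro h
      have h1 := hz w hw
      rw [← hzd, h, zero_sub, norm_neg, norm_one] at h1
      linarith
    have hzu : IsUnit (algebraMap ℂ B z - x) := hr _ (hz w hw)
    obtain ⟨v, hv⟩ := hzu
    have h1 : Fr u w = (r * w) • (↑v⁻¹ : B) := by
      unfold Fr
      have h2 : Ring.inverse (algebraMap ℂ B w - u) = (r : ℂ) • (↑v⁻¹ : B) := by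
        rw [hfac w, ← hzd, ← hv]
        have h3 : ((r : ℂ)⁻¹ • (v : B)) * ((r : ℂ) • (↑v⁻¹ : B)) = 1 := by
          rw [smul_mul_smul_comm, inv_mul_cancel₀ hrc, one_smul, Units.mul_inv]
        have h4 : ((r : ℂ) • (↑v⁻¹ : B)) * ((r : ℂ)⁻¹ • (v : B)) = 1 := by
          rw [smul_mul_smul_comm, mul_inv_cancel₀ hrc, one_smul, Units.inv_mul]
        exact Ring.inverse_unit ⟨_, _, h3, h4⟩
      rw [h2, smul_smul, mul_comm (r : ℂ)]
    have h2 : Fr u₀ w = 1 - z⁻¹ := by
      unfold Fr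
      rw [Ring.inverse_eq_inv', hu₀]
      have h3 : algebraMap ℂ ℂ w - -(r : ℂ)⁻¹ = z / r := by
        change w - -(r : ℂ)⁻¹ = z / r
        rw [hzd]
        field_simp
        ring
      have h8 : (r : ℂ) * w = z - 1 := by rw [hzd]; ring
      rw [h3, smul_eq_mul, inv_div, ← mul_div_assoc, mul_comm w, h8, sub_div, div_self hz0,
        one_div]
    refine ⟨z⁻¹ • (↑v⁻¹ : B), ?_⟩
    -- `(z - x) (z - 1 + x) = z (z - 1) - y`
    have h3 : (algebraMap ℂ B z - 1 + x) * (v : B) = algebraMap ℂ B (z * (z - 1)) - y := by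
      rw [hv, map_mul, map_sub, map_one, hy]
      have hc : algebraMap ℂ B z * x = x * algebraMap ℂ B z := Algebra.commutes z x
      calc (algebraMap ℂ B z - 1 + x) * (algebraMap ℂ B z - x) =
          algebraMap ℂ B z * (algebraMap ℂ B z - 1) - (x * x - x) +
            (x * algebraMap ℂ B z - algebraMap ℂ B z * x) := by noncomm_ring
        _ = algebraMap ℂ B z * (algebraMap ℂ B z - 1) - (x * x - x) := by
          rw [hc, sub_self, add_zero]
    have h4 : algebraMap ℂ B z - 1 + x = (z * (z - 1)) • (↑v⁻¹ : B) - y * ↑v⁻¹ := by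
      calc algebraMap ℂ B z - 1 + x = ((algebraMap ℂ B z - 1 + x) * (v : B)) * ↑v⁻¹ := by
            rw [Units.mul_inv_cancel_right]
        _ = (z * (z - 1)) • (↑v⁻¹ : B) - y * ↑v⁻¹ := by
            rw [h3, sub_mul, ← Algebra.smul_def]
    have h5 : (z * (z - 1)) • (↑v⁻¹ : B) = algebraMap ℂ B z - 1 + x + y * ↑v⁻¹ := by
      rw [h4, sub_add_cancel]
    have h6 : (r * w) • (↑v⁻¹ : B) = z⁻¹ • ((z * (z - 1)) • (↑v⁻¹ : B)) := by
      rw [smul_smul, inv_mul_cancel_left₀ hz0]
      congr 1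
      rw [hzd]
      ring
    rw [h1, h6, h5, h2, mul_smul_comm, smul_add, sub_smul, one_smul]
    have h7 : z⁻¹ • (algebraMap ℂ B z - 1 + x) = 1 - z⁻¹ • (1 - x) := by
      rw [Algebra.algebraMap_eq_smul_one, sub_add, smul_sub, smul_smul, inv_mul_cancel₀ hz0,
        one_smul]
    rw [h7]
    abel
  have hav : ∀ (n : ℕ) (η : ℂ), 0 < n → ‖η‖ = 1 →
      ∃ b : B, av u n η = x + (av u₀ n η) • (1 - x) + y * b := by
    intro n η hn hη
    have h1 : ∀ k : ℕ, ‖η * Complex.exp (2 * Real.pi * Complex.I / n) ^ k‖ = 1 := fun k => by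
      rw [norm_mul, hη, norm_root, one_mul]
    choose b hb using fun k : ℕ => hFr _ (h1 k)
    refine ⟨(n : ℂ)⁻¹ • ∑ k ∈ range n, b k, ?_⟩
    have hn0 : (n : ℂ) ≠ 0 := Nat.cast_ne_zero.2 hn.ne'
    unfold av
    rw [sum_congr rfl fun k _ => hb k, sum_add_distrib, sum_add_distrib, sum_const, card_range,
      smul_add, smul_add, ← Nat.cast_smul_eq_nsmul ℂ, smul_smul, inv_mul_cancel₀ hn0, one_smul,
      ← sum_smul, ← mul_sum, smul_smul, mul_smul_comm]
    rfl
  -- the almost idempotent elements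
  set η : ℕ → ℂ := fun n => Complex.exp (Real.pi * Complex.I / n) with hηd
  have hη1 : ∀ n, ‖η n‖ = 1 := by
    intro n
    have h1 : (Real.pi * Complex.I / n : ℂ) = ((Real.pi / n : ℝ) : ℂ) * Complex.I := by
      push_cast
      ring
    rw [hηd]
    dsimp only
    rw [h1, Complex.norm_exp_ofReal_mul_I]
  have hηn : ∀ n : ℕ, 0 < n → η n ^ n = -1 := by
    intro n hn
    have hn0 : (n : ℂ) ≠ 0 := Nat.cast_ne_zero.2 hn.ne'
    rw [hηd]
    dsimp only
    rw [← Complex.exp_nat_mul, mul_div_cancel₀ _ hn0, Complex.exp_pi_mul_I]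
  set g : ℕ → B := fun n => (2 : ℂ)⁻¹ • (av u n 1 + av u n (η n)) with hg
  set m : ℕ → ℂ := fun n => (2 : ℂ)⁻¹ * (av u₀ n 1 + av u₀ n (η n)) with hm
  have hdf : Tendsto (fun n => df (g n)) atTop (𝓝 0) := by
    have h1 := (tendsto_av hunit).const_smul (2 : ℂ)⁻¹
    rw [smul_zero] at h1
    have h2 := h1.mul h1
    rw [mul_zero] at h2
    refine h2.congr' ?_
    filter_upwards [eventually_gt_atTop 0] with n hn
    have e1 := mul_av hunit hn (η := 1) norm_one
    rw [one_pow, inv_one, one_smul] at e1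
    have e2 := mul_av hunit hn (hη1 n)
    rw [hηn n hn, inv_neg, inv_one, neg_smul, one_smul, sub_neg_eq_add] at e2
    exact (df_mean e1 e2 ((av_comm n 1).pow_left n) ((av_comm n (η n)).pow_left n)).symm
  have hm0 : Tendsto m atTop (𝓝 0) := by
    have hun : 1 < ‖u₀‖ := by
      rw [hu₀, norm_neg, norm_inv, Complex.norm_real, Real.norm_of_nonneg hr0.le]
      exact (one_lt_inv₀ hr0).2 (by linarith)
    have h1 := (tendsto_av_zero hun (η := fun _ => 1) fun _ => norm_one).add
      (tendsto_av_zero hun hη1)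
    have h2 := h1.const_mul (2 : ℂ)⁻¹
    rwa [add_zero, mul_zero] at h2
  obtain ⟨C, hC⟩ := norm_av_le hunit
  have hgC : ∀ n, ‖g n‖ ≤ C := by
    intro n
    rw [hg]
    dsimp only
    rw [norm_smul, norm_inv, Complex.norm_ofNat]
    have h1 := norm_add_le (av u n 1) (av u n (η n))
    have h2 := hC n 1 norm_one
    have h3 := hC n (η n) (hη1 n)
    linarith
  -- the corrected elements
  set h : ℕ → B := fun n => m n • (1 - x) with hh
  have hh0 : Tendsto h atTop (𝓝 0) := by
    have h1 := hm0.smul_const (1 - x)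
    rwa [zero_smul] at h1
  have hdf' : Tendsto (fun n => df (g n - h n)) atTop (𝓝 0) := by
    have h1 : ∀ n, df (g n - h n) = df (g n) + (h n * h n + h n) - (g n * h n + h n * g n) := by
      intro n
      unfold df
      noncomm_ring
    have h2 : Tendsto (fun n => g n * h n + h n * g n) atTop (𝓝 0) := by
      rw [tendsto_zero_iff_norm_tendsto_zero]
      have h3 : Tendsto (fun n => 2 * C * ‖h n‖) atTop (𝓝 0) := by
        have := (tendsto_zero_iff_norm_tendsto_zero.1 hh0).const_mul (2 * C)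
        rwa [mul_zero] at this
      refine squeeze_zero (fun _ => norm_nonneg _) (fun n => ?_) h3
      have e1 := norm_add_le (g n * h n) (h n * g n)
      have e2 := norm_mul_le (g n) (h n)
      have e3 := norm_mul_le (h n) (g n)
      have e4 := mul_le_mul_of_nonneg_right (hgC n) (norm_nonneg (h n))
      nlinarith [norm_nonneg (h n)]
    have h4 := (hdf.add ((hh0.mul hh0).add hh0)).sub h2
    rw [mul_zero, add_zero, add_zero, sub_zero] at h4
    refine h4.congr fun n => ?_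
    rw [h1 n]
  have hev : ∀ᶠ n in atTop, ‖df (g n - h n)‖ ≤ 1 / 16 := by
    have h1 := (tendsto_zero_iff_norm_tendsto_zero.1 hdf').eventually
      (gt_mem_nhds (show (0 : ℝ) < 1 / 16 by norm_num))
    exact h1.mono fun n hn => hn.le
  obtain ⟨n, hn16, hn0⟩ := (hev.and (eventually_gt_atTop 0)).exists
  obtain ⟨f, b, hf, hfb⟩ := newton hn16
  obtain ⟨b₁, hb₁⟩ := hav n 1 hn0 norm_one
  obtain ⟨b₂, hb₂⟩ := hav n (η n) hn0 (hη1 n)
  set c : B := (2 : ℂ)⁻¹ • (b₁ + b₂) with hc
  have hgx : g n - h n = x + y * c := by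
    have h1 : g n = x + m n • (1 - x) + y * c := by
      rw [hg]
      dsimp only
      rw [hb₁, hb₂, hc, hm]
      dsimp only
      have h2 : x + av u₀ n 1 • (1 - x) + y * b₁ + (x + av u₀ n (η n) • (1 - x) + y * b₂) =
          2 * x + (av u₀ n 1 + av u₀ n (η n)) • (1 - x) + y * (b₁ + b₂) := by
        rw [add_smul, mul_add, two_mul]
        abel
      rw [h2, smul_add, smul_add, half_two, smul_smul, mul_smul_comm]
    rw [h1, hh]
    dsimp only
    abel
  have hxy : x * y = y * x := by rw [hy]; noncomm_ring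
  have hdfy : df (g n - h n) = y * (1 + x * c + c * x + c * (y * c) - c) := by
    rw [hgx]
    unfold df
    have h1 : (x + y * c) * (x + y * c) - (x + y * c) = (x * x - x) + (x * y) * c + y * (c * x) +
        y * (c * (y * c)) - y * c := by noncomm_ring
    rw [h1, ← hy, hxy]
    noncomm_ring
  refine ⟨f, c + (1 + x * c + c * x + c * (y * c) - c) * b, hf, ?_⟩
  rw [hfb, hgx] at *
  rw [hdfy]
  noncomm_ring

end Vale.Agent.P184.H788
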