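import Vale.Agent.P184.H788.TrF


/-!
# P184: localisation, the difference operator and the corners
-/

noncomputable section

namespace Vale.Agent.P184.H788

open Filter Topology
open Vale.Agent.P184 (IsIdem tau toFn)
open Vale.Agent.P184.H13 (E dl co sm sm_nonneg E_ext)
open Vale.Agent.P184.H847 (hasSum_clm norm_dl)
open Vale.Agent.P184.H856

universe u v w

section

variable {Y : Type u} {L : Type v} [Group L]

theorem pr_zero {S : E (Y × L) →L[ℂ] E (Y × L)} (hS : Eqv S) {z : Y}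
    (h : ∀ y l, S (dl (y, 1)) (z, l) = 0) : (pr z).comp S = 0 := by
  refine ContinuousLinearMap.ext fun v => ?_
  have h1 : ∀ p : Y × L, ((pr z).comp S) (dl p) = 0 := by
    intro p
    obtain ⟨y, a⟩ := p
    refine E_ext fun l => ?_
    change S (dl (y, a)) (z, l) = 0
    rw [eqv_at hS, h]
  rw [← (hasSum_clm ((pr z).comp S) v).tsum_eq]
  refine (tsum_congr fun p => ?_).trans tsum_zero
  rw [h1, smul_zero]

theorem nucL_of_rows {S : E (Y × L) →L[ℂ] E (Y × L)} (hS : Eqv S) {F : Set Y} (hF : F.Finite)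
    (h : ∀ y z l, S (dl (y, 1)) (z, l) ≠ 0 → z ∈ F) : NucL S := by
  refine summable_of_hasFiniteSupport (hF.subset fun z hz => ?_)
  by_contra hzF
  refine hz ?_
  change ‖(pr z).comp S‖ = 0
  rw [pr_zero hS fun y l => ?_, norm_zero]
  by_contra h1
  exact hzF (h y z l h1)

theorem trD_of_notMem {S : E (Y × L) →L[ℂ] E (Y × L)} {N : Subgroup L}
    (h : ∀ y l, S (dl (y, 1)) (y, l) ≠ 0 → l ∈ N) {D : ConjClasses L}
    (hD : ∀ a ∈ N, ConjClasses.mk a ≠ D) : trD D S = 0 := by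
  unfold trD
  refine (tsum_congr fun y => ?_).trans tsum_zero
  refine (tsum_congr fun l => ?_).trans tsum_zero
  by_contra h1
  exact hD l.1 (h y l.1 h1) (ConjClasses.mem_carrier_iff_mk_eq.1 l.2)

end

section

variable {G : Type u} {X : Type v} {L : Type w} [Group G] [MulAction G X] [Group L] {q : ℕ}

theorem norm_lamS_le (α : LC G X L) (S : G → Set X) {e : Matrix (Fin q) (Fin q) (G → ℂ)}
    (he : IsIdem e) : ‖lamS α S e‖ ≤ ∑' g, sm (toFn e g) :=
  tsum_of_norm_bounded (sm_summable he).hasSum fun g => norm_Tm α (S g) g _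

/-- the difference of the two operators -/
theorem diff_nuc (Z Z' : LC G X L) {e : Matrix (Fin q) (Fin q) (G → ℂ)} (he : IsIdem e)
    (hfin : ∀ g, {x | Z.a g x ≠ Z'.a g x}.Finite)
    (hs : Summable fun g => sm (toFn e g) * (({x | Z.a g x ≠ Z'.a g x} : Set X).ncard : ℝ)) :
    NucL (lamS Z (fun _ => Set.univ) e - lamS Z' (fun _ => Set.univ) e) ∧
      ∀ D : ConjClasses L, (∀ g x, ConjClasses.mk (Z'.a g x) ≠ D) →
        trD D (lamS Z (fun _ => Set.univ) e - lamS Z' (fun _ => Set.univ) e) =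
          ∑' p : {p : G × X // p.1 • p.2 = p.2 ∧ ConjClasses.mk (Z.a p.1 p.2) = D},
            ∑ i, e i i p.1.1 := by
  let c : G → Set X := fun g => {x | Z.a g x ≠ Z'.a g x}
  have hN : NucL (lamS Z c e) := nucL_lamS he hfin hs
  have hN' : NucL (lamS Z' c e) := nucL_lamS he hfin hs
  have htr := trD_lamS (α := Z) (S := c) he hfin hs
  have htr' := trD_lamS (α := Z') (S := c) he hfin hs
  have hadd := lamS_add Z (fun g => (c g)ᶜ) he c (fun g => (compl_compl (c g)).symm)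
  have hadd' := lamS_add Z' (fun g => (c g)ᶜ) he c (fun g => (compl_compl (c g)).symm)
  have heq : lamS Z (fun g => (c g)ᶜ) e = lamS Z' (fun g => (c g)ᶜ) e := by
    refine eqv_ext (eqv_lamS Z _ he) (eqv_lamS Z' _ he) fun y z l => ?_
    rw [lamS_dl Z _ he, lamS_dl Z' _ he]
    refine tsum_congr fun g => ?_
    obtain ⟨x, j⟩ := y
    obtain ⟨z, i⟩ := z
    rw [Tm_dl, Tm_dl]
    by_cases hx : x ∈ (c g)ᶜ
    · have h1 : Z.a g x = Z'.a g x := not_not.1 hx
      rw [h1]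
    · rw [if_neg fun h => hx h.1, if_neg fun h => hx h.1]
  have h1 : lamS Z (fun _ => Set.univ) e - lamS Z' (fun _ => Set.univ) e =
      lamS Z c e + -lamS Z' c e := by
    rw [hadd, hadd', heq]; abel
  refine ⟨h1 ▸ nucL_add hN (nucL_neg hN'), fun D hD => ?_⟩
  rw [h1, trD_add hN (nucL_neg hN'), trD_neg, htr D, htr' D]
  have hz : ∑' p : {p : G × X // (p.1 • p.2 = p.2 ∧ ConjClasses.mk (Z'.a p.1 p.2) = D) ∧
      p.2 ∈ c p.1}, ∑ i, e i i p.1.1 = 0 := by
    have : IsEmpty {p : G × X // (p.1 • p.2 = p.2 ∧ ConjClasses.mk (Z'.a p.1 p.2) = D) ∧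
      p.2 ∈ c p.1} := ⟨fun p => hD _ _ p.2.1.2⟩
    exact tsum_empty
  rw [hz, neg_zero, add_zero]
  have hiff : ∀ p : G × X, ((p.1 • p.2 = p.2 ∧ ConjClasses.mk (Z.a p.1 p.2) = D) ∧
      p.2 ∈ c p.1) ↔ (p.1 • p.2 = p.2 ∧ ConjClasses.mk (Z.a p.1 p.2) = D) := by
    intro p
    refine ⟨fun h => h.1, fun h => ⟨h, fun h4 => ?_⟩⟩
    refine hD p.1 p.2 ?_
    rw [← h4]
    exact h.2
  exact (Equiv.subtypeEquivRight hiff).tsum_eq
    (fun p : {p : G × X // p.1 • p.2 = p.2 ∧ ConjClasses.mk (Z.a p.1 p.2) = D} =>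
      ∑ i, e i i p.1.1)

end

end Vale.Agent.P184.H788
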