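import Vale.Agent.P184.H788.LocA
import Vale.Agent.P184.H856.LocDef
import Vale.Agent.P184.H977.LocDef

/-!
# P184: localisation, from the operators to the fixed points
-/

noncomputable section

namespace Vale.Agent.P184.H788

open Vale.Agent.P184 (IsIdem tau toFn)
open Vale.Agent.P184.H13 (E dl co sm sm_nonneg E_ext)
open Vale.Agent.P184.H856

universe u v w

theorem locW_of (hL : H856.Loc.LOC.{u, v, w}) : H977.LocW.{u, v, w} := by
  intro G _ q e he ν hν
  obtain ⟨e₁, he₁, hdec, htau⟩ := exists_dec ν hν e he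
  obtain ⟨T, hT⟩ := hL G q e₁ he₁
  refine ⟨e₁, he₁, htau, T, fun {X} {L} _ _ α α' hα hα' hfin hle F N _ h1 h2 D hD hD' => ?_⟩
  let Z : LC G X L := ⟨α, hα⟩
  let Z' : LC G X L := ⟨α', hα'⟩
  have hs : Summable fun g => sm (toFn e₁ g) * (({x | α g x ≠ α' g x} : Set X).ncard : ℝ) := by
    refine Summable.of_nonneg_of_le (fun g => mul_nonneg (sm_nonneg _) (Nat.cast_nonneg _))
      (fun g => ?_) (sm_dec hdec)
    exact mul_le_mul_of_nonneg_left (Nat.cast_le.2 (hle g)) (sm_nonneg _)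
  have h3 := hT X L Z Z' hfin hs F N ⟨h1, h2⟩ D hD
  rw [(diff_nuc Z Z' he₁ hfin hs).2 D hD'] at h3
  exact h3

/-! ### the adapter -/

section

variable {Y : Type v} {L : Type w} [Group L]

theorem cor_of {S : E (Y × L) →L[ℂ] E (Y × L)} (hS : Eqv S) {F : Set Y} {N : Subgroup L}
    (h : ∀ y z l, S (dl (y, 1)) (z, l) ≠ 0 → y ∈ F ∧ z ∈ F ∧ l ∈ N) : S ∈ H856.Loc.Cor F N := by
  refine ⟨hS, fun y z l a h1 => ?_⟩
  rw [eqv_at hS] at h1
  exact h y z _ h1

end

end Vale.Agent.P184.H788
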