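import Vale.Agent.P184.H788.TrF

/-!
# P184: pairs of systems (action, cocycle)
-/

noncomputable section

namespace Vale.Agent.P184.H788

open Filter Topology
open Vale.Agent.P184 (IsIdem tau toFn L1Bass IsTorsionClass)
open Vale.Agent.P184.H13 (E dl co sm sm_nonneg E_ext)
open Vale.Agent.P184.H847 (hasSum_clm norm_dl)
open Vale.Agent.P184.H856

universe u v w x

/-- an action of `G` on `Y` and a cocycle with values in `L` -/
structure Sys (G Y L : Type*) [Group G] [Group L] where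
  /-- the action -/
  act : G →* Equiv.Perm Y
  /-- the cocycle -/
  a : G → Y → L
  mul : ∀ g h y, a (g * h) y = a g (act h y) * a h y

section

variable {G : Type u} {Y : Type v} {L : Type w} [Group G] [Group L] {q : ℕ}

/-- the action of the system -/
@[reducible]
def Sys.inst (Z : Sys G Y L) : MulAction G Y where
  smul g y := Z.act g y
  one_smul y := by
    change Z.act 1 y = y
    rw [map_one]
    rfl
  mul_smul g h y := by
    change Z.act (g * h) y = Z.act g (Z.act h y)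
    rw [map_mul]
    rfl

/-- the cocycle of the system -/
def Sys.lc (Z : Sys G Y L) : @LC G Y L _ Z.inst _ := @LC.mk G Y L _ Z.inst _ Z.a Z.mul

/-- the operator of the system, with the entries over `S` only -/
def Sys.op (Z : Sys G Y L) (S : G → Set Y) (e : Matrix (Fin q) (Fin q) (G → ℂ)) :
    E ((Y × Fin q) × L) →L[ℂ] E ((Y × Fin q) × L) := @lamS G Y L _ Z.inst _ q Z.lc S e

/-- the trace of the bad part of the operator of the system at the class `D` -/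
def Sys.cnt (Z : Sys G Y L) (bad : G → Set Y) (e : Matrix (Fin q) (Fin q) (G → ℂ))
    (D : ConjClasses L) : ℂ :=
  ∑' p : {p : G × Y // (Z.act p.1 p.2 = p.2 ∧ ConjClasses.mk (Z.a p.1 p.2) = D) ∧
    p.2 ∈ bad p.1}, ∑ i, e i i p.1.1

theorem Sys.op_idem (Z : Sys G Y L) {e : Matrix (Fin q) (Fin q) (G → ℂ)} (he : IsIdem e) :
    Z.op (fun _ => Set.univ) e * Z.op (fun _ => Set.univ) e = Z.op (fun _ => Set.univ) e :=
  @lamS_idem G Y L _ Z.inst _ q Z.lc e he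

theorem Sys.eqv_op (Z : Sys G Y L) (S : G → Set Y) {e : Matrix (Fin q) (Fin q) (G → ℂ)}
    (he : IsIdem e) : Eqv (Z.op S e) := @eqv_lamS G Y L _ Z.inst _ q Z.lc S e he

theorem Sys.op_add (Z : Sys G Y L) (bad : G → Set Y) {e : Matrix (Fin q) (Fin q) (G → ℂ)}
    (he : IsIdem e) :
    Z.op (fun _ => Set.univ) e = Z.op (fun g => (bad g)ᶜ) e + Z.op bad e :=
  @lamS_add G Y L _ Z.inst _ q Z.lc (fun g => (bad g)ᶜ) e he bad
    fun g => (compl_compl (bad g)).symm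

theorem Sys.tm (Z : Sys G Y L) (b : Set Y) (g : G) (m : Matrix (Fin q) (Fin q) ℂ)
    (x z : Y) (j i : Fin q) (k : L) :
    ((x ∈ b ∧ Z.act g x = z ∧ Z.a g x * 1 = k) →
      @Tm G Y L _ Z.inst _ q Z.lc b g m (dl ((x, j), 1)) ((z, i), k) = m i j) ∧
    (¬(x ∈ b ∧ Z.act g x = z ∧ Z.a g x * 1 = k) →
      @Tm G Y L _ Z.inst _ q Z.lc b g m (dl ((x, j), 1)) ((z, i), k) = 0) := by
  have h := @Tm_dl G Y L _ Z.inst _ q Z.lc b g m x z j i 1 k
  exact ⟨fun h1 => h.trans (if_pos h1), fun h1 => h.trans (if_neg h1)⟩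

theorem Sys.op_eq (Z₁ Z₂ : Sys G Y L) {bad : G → Set Y}
    (h : ∀ g y, y ∉ bad g → Z₁.act g y = Z₂.act g y ∧ Z₁.a g y = Z₂.a g y)
    {e : Matrix (Fin q) (Fin q) (G → ℂ)} (he : IsIdem e) :
    Z₁.op (fun g => (bad g)ᶜ) e = Z₂.op (fun g => (bad g)ᶜ) e := by
  refine eqv_ext (Z₁.eqv_op _ he) (Z₂.eqv_op _ he) fun y z l => ?_
  refine (@lamS_dl G Y L _ Z₁.inst _ q Z₁.lc _ e he (y, 1) (z, l)).trans ?_
  refine Eq.trans ?_ (@lamS_dl G Y L _ Z₂.inst _ q Z₂.lc _ e he (y, 1) (z, l)).symm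
  refine tsum_congr fun g => ?_
  obtain ⟨x, j⟩ := y
  obtain ⟨z, i⟩ := z
  obtain ⟨h1, h2⟩ := Z₁.tm (bad g)ᶜ g (toFn e g) x z j i l
  obtain ⟨h3, h4⟩ := Z₂.tm (bad g)ᶜ g (toFn e g) x z j i l
  by_cases hx : x ∈ (bad g)ᶜ
  · obtain ⟨h5, h6⟩ := h g x hx
    rw [h5, h6] at h1 h2
    by_cases hP : x ∈ (bad g)ᶜ ∧ Z₂.act g x = z ∧ Z₂.a g x * 1 = l
    · exact (h1 hP).trans (h3 hP).symm
    · exact (h2 hP).trans (h4 hP).symm
  · exact (h2 fun h => hx h.1).trans (h4 fun h => hx h.1).symm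

/-- The pair theorem: two systems which agree outside a finite set for each `g`. -/
theorem pair (Z₁ Z₂ : Sys G Y L) {bad : G → Set Y} (hfin : ∀ g, (bad g).Finite)
    (h : ∀ g y, y ∉ bad g → Z₁.act g y = Z₂.act g y ∧ Z₁.a g y = Z₂.a g y)
    {e : Matrix (Fin q) (Fin q) (G → ℂ)} (he : IsIdem e)
    (hs : Summable fun g => sm (toFn e g) * ((bad g).ncard : ℝ)) :
    ∃ (m : ℕ) (f f' : Matrix (Fin m) (Fin m) (L → ℂ)), IsIdem f ∧ IsIdem f' ∧
      ∀ D : ConjClasses L, tau D f' - tau D f = Z₁.cnt bad e D - Z₂.cnt bad e D := by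
  have hN₁ : NucL (Z₁.op bad e) := @nucL_lamS G Y L _ Z₁.inst _ q Z₁.lc bad e he hfin hs
  have hN₂ : NucL (Z₂.op bad e) := @nucL_lamS G Y L _ Z₂.inst _ q Z₂.lc bad e he hfin hs
  have htr₁ : ∀ D, trD D (Z₁.op bad e) = Z₁.cnt bad e D := fun D =>
    @trD_lamS G Y L _ Z₁.inst _ q Z₁.lc bad e he hfin hs D
  have htr₂ : ∀ D, trD D (Z₂.op bad e) = Z₂.cnt bad e D := fun D =>
    @trD_lamS G Y L _ Z₂.inst _ q Z₂.lc bad e he hfin hs D
  have h1 : Z₁.op (fun _ => Set.univ) e - Z₂.op (fun _ => Set.univ) e =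
      Z₁.op bad e + -Z₂.op bad e := by
    rw [Z₁.op_add bad he, Z₂.op_add bad he, Sys.op_eq Z₁ Z₂ h he]
    abel
  obtain ⟨m, f, f', h2, h3, h4⟩ := pOp (Z₂.op (fun _ => Set.univ) e)
    (Z₁.op (fun _ => Set.univ) e) (Z₂.op_idem he) (Z₁.op_idem he) (Z₂.eqv_op _ he)
    (Z₁.eqv_op _ he) (h1 ▸ nucL_add hN₁ (nucL_neg hN₂))
  refine ⟨m, f, f', h2, h3, fun D => ?_⟩
  rw [h4, h1, trD_add hN₁ (nucL_neg hN₂), trD_neg, htr₁, htr₂]
  ring

end

/-! ### sums over the bad points -/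

section Sums

variable {G : Type u} {Y : Type v} {bad : G → Set Y} {w : G → ℂ}

theorem tsum_bad (hfin : ∀ g, (bad g).Finite)
    (hs : Summable fun g => ‖w g‖ * ((bad g).ncard : ℝ)) (Q : G × Y → Prop) :
    (Summable fun p : {p : G × Y // Q p ∧ p.2 ∈ bad p.1} => w p.1.1) ∧
      ∑' p : {p : G × Y // Q p ∧ p.2 ∈ bad p.1}, w p.1.1 =
        ∑' g, w g * (({y | Q (g, y) ∧ y ∈ bad g} : Set Y).ncard : ℂ) := by
  let φ := Equiv.subtypeProdEquivSigmaSubtype fun g y => Q (g, y) ∧ y ∈ bad g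
  have hf : ∀ g, Finite {y // Q (g, y) ∧ y ∈ bad g} := fun g =>
    ((hfin g).subset fun y hy => hy.2).to_subtype
  have hc : ∀ g, Nat.card {y // Q (g, y) ∧ y ∈ bad g} =
      ({y | Q (g, y) ∧ y ∈ bad g} : Set Y).ncard := fun g => rfl
  have hle : ∀ g, ({y | Q (g, y) ∧ y ∈ bad g} : Set Y).ncard ≤ (bad g).ncard := fun g =>
    Set.ncard_le_ncard (fun y hy => hy.2) (hfin g)
  have h1 : Summable fun p : Σ g, {y // Q (g, y) ∧ y ∈ bad g} => ‖w p.1‖ := by
    refine (summable_sigma_of_nonneg fun _ => norm_nonneg _).2 ⟨fun g => ?_, ?_⟩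
    · have := hf g
      exact Summable.of_finite
    · refine Summable.of_nonneg_of_le (fun g => tsum_nonneg fun _ => norm_nonneg _)
        (fun g => ?_) hs
      have h3 : ∑' _y : {y // Q (g, y) ∧ y ∈ bad g}, ‖w g‖ =
          ‖w g‖ * (({y | Q (g, y) ∧ y ∈ bad g} : Set Y).ncard : ℝ) := by
        rw [tsum_const, nsmul_eq_mul, mul_comm, hc g]
      refine h3.le.trans ?_
      exact mul_le_mul_of_nonneg_left (by exact_mod_cast hle g) (norm_nonneg _)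
  have h2 : Summable fun p : Σ g, {y // Q (g, y) ∧ y ∈ bad g} => w p.1 := h1.of_norm
  refine ⟨φ.summable_iff.2 h2, ?_⟩
  refine (φ.tsum_eq fun p : Σ g, {y // Q (g, y) ∧ y ∈ bad g} => w p.1).trans ?_
  rw [h2.tsum_sigma]
  refine tsum_congr fun g => ?_
  have h3 : ∑' _y : {y // Q (g, y) ∧ y ∈ bad g}, w g =
      w g * (({y | Q (g, y) ∧ y ∈ bad g} : Set Y).ncard : ℂ) := by
    rw [tsum_const, nsmul_eq_mul, mul_comm, hc g]
  exact h3

end Sums

end Vale.Agent.P184.H788
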