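import Vale.Agent.P184.H788.Fred

/-!
# P184: lifting of idempotents modulo compact elements of Banach algebras
-/

namespace Vale.Agent.P184.H788

open Filter Topology Finset

section Roots

variable {B : Type*} [Ring B] [Algebra ℂ B]

theorem sum_pow_root {n : ℕ} {ζ : ℂ} (hζ : IsPrimitiveRoot ζ n) {i : ℕ} (hi : i < n) :
    ∑ k ∈ range n, (ζ ^ k) ^ (i + 1) = if i + 1 = n then (n : ℂ) else 0 := by
  have h1 : ∀ k, (ζ ^ k) ^ (i + 1) = (ζ ^ (i + 1)) ^ k := fun k => by
    rw [← pow_mul, ← pow_mul, mul_comm]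
  simp only [h1]
  split_ifs with h
  · rw [h, hζ.pow_eq_one]
    simp
  · have h2 : ζ ^ (i + 1) ≠ 1 := by
      intro h3
      have h4 := hζ.dvd_of_pow_eq_one _ h3
      have h5 := Nat.le_of_dvd (Nat.succ_pos i) h4
      omega
    have h3 : (ζ ^ (i + 1)) ^ n = 1 := by
      rw [← pow_mul, mul_comm, pow_mul, hζ.pow_eq_one, one_pow]
    have h4 := mul_neg_geom_sum (ζ ^ (i + 1)) n
    rw [h3, sub_self] at h4
    exact (mul_eq_zero.1 h4).resolve_left (sub_ne_zero.2 (Ne.symm h2))

/-- partial fractions for `n (1 - u ^ n)⁻¹` -/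
theorem sum_roots {n : ℕ} (hn : 0 < n) {ζ : ℂ} (hζ : IsPrimitiveRoot ζ n) (u : B) (R : ℕ → B)
    (hR : ∀ k < n, (algebraMap ℂ B (ζ ^ k) - u) * R k = 1) :
    (1 - u ^ n) * ∑ k ∈ range n, ζ ^ k • R k = (n : B) := by
  have h1 : ∀ k ∈ range n, (1 - u ^ n) * (ζ ^ k • R k) =
      ∑ i ∈ range n, (ζ ^ k) ^ (i + 1) • u ^ (n - 1 - i) := by
    intro k hk
    have h2 : algebraMap ℂ B (ζ ^ k) ^ n = 1 := by
      rw [← map_pow, ← pow_mul, mul_comm, pow_mul, hζ.pow_eq_one, one_pow, map_one]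
    have hcm : Commute (algebraMap ℂ B (ζ ^ k)) u := Algebra.commutes _ _
    have h3 := hcm.geom_sum₂_mul n
    rw [h2] at h3
    rw [← h3, mul_smul_comm, mul_assoc, hR k (mem_range.1 hk), mul_one, smul_sum]
    refine sum_congr rfl fun i _ => ?_
    rw [← map_pow, ← Algebra.smul_def, smul_smul, pow_succ']
  rw [mul_sum, sum_congr rfl h1, sum_comm]
  have h4 : ∀ i ∈ range n, ∑ k ∈ range n, (ζ ^ k) ^ (i + 1) • u ^ (n - 1 - i) =
      if i + 1 = n then (n : B) else 0 := by
    intro i hi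
    rw [← sum_smul, sum_pow_root hζ (mem_range.1 hi)]
    split_ifs with h
    · have h5 : n - 1 - i = 0 := by omega
      rw [h5, pow_zero, Algebra.smul_def, mul_one, map_natCast]
    · rw [zero_smul]
  rw [sum_congr rfl h4]
  obtain ⟨m, rfl⟩ : ∃ m, n = m + 1 := ⟨n - 1, by omega⟩
  rw [sum_eq_single m]
  · rw [if_pos rfl]
  · intro i _ hi
    rw [if_neg (fun h => hi (by omega))]
  · intro h
    exact absurd (mem_range.2 (Nat.lt_succ_self m)) h

end Roots

section Newton

variable {B : Type*} [NormedRing B]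

/-- the defect of an almost idempotent -/
def df (g : B) : B := g * g - g

/-- the iterates of Newton's method, with the quotient of the defects -/
def it (g : B) : ℕ → B × B
  | 0 => (g, 1)
  | k + 1 => ((it g k).1 - (2 * (it g k).1 - 1) * df (it g k).1,
      (it g k).2 * (4 * (df (it g k).1 * df (it g k).1) - 3 * df (it g k).1))

theorem df_it (g : B) (k : ℕ) : df (it g k).1 = df g * (it g k).2 := by
  induction k with
  | zero => rw [it, mul_one]
  | succ k ih =>
    change df ((it g k).1 - (2 * (it g k).1 - 1) * df (it g k).1) = df g * ((it g k).2 *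
      (4 * (df (it g k).1 * df (it g k).1) - 3 * df (it g k).1))
    rw [← mul_assoc, ← ih]
    generalize (it g k).1 = x
    unfold df
    noncomm_ring

theorem norm_df_it {g : B} (h : ‖df g‖ ≤ 1 / 16) (k : ℕ) :
    ‖df (it g k).1‖ ≤ 1 / 16 * (1 / 4) ^ k ∧ ‖(it g k).2‖ ≤ ‖(1 : B)‖ * (1 / 4) ^ k := by
  induction k with
  | zero => exact ⟨by rw [pow_zero, mul_one]; exact h, by rw [pow_zero, mul_one]; exact le_rfl⟩
  | succ k ih =>
    obtain ⟨h1, h2⟩ := ih
    have hd0 := norm_nonneg (df (it g k).1)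
    have hd : ‖df (it g k).1‖ ≤ 1 / 16 := h1.trans (by
      have : ((1 : ℝ) / 4) ^ k ≤ 1 := pow_le_one₀ (by norm_num) (by norm_num)
      linarith)
    have h3 : ‖(4 : B) * (df (it g k).1 * df (it g k).1) - 3 * df (it g k).1‖ ≤ 1 / 4 := by
      have e1 : (4 : B) * (df (it g k).1 * df (it g k).1) - 3 * df (it g k).1 =
          (4 : ℕ) • (df (it g k).1 * df (it g k).1) - (3 : ℕ) • df (it g k).1 := by
        rw [nsmul_eq_mul, nsmul_eq_mul]; norm_num
      rw [e1]
      refine (norm_sub_le _ _).trans ?_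
      have e2 : ‖(4 : ℕ) • (df (it g k).1 * df (it g k).1)‖ ≤ 4 * (‖df (it g k).1‖ * ‖df (it g k).1‖) := by
        refine (norm_nsmul_le).trans ?_
        have := norm_mul_le (df (it g k).1) (df (it g k).1)
        push_cast
        linarith
      have e3 : ‖(3 : ℕ) • df (it g k).1‖ ≤ 3 * ‖df (it g k).1‖ := by
        refine (norm_nsmul_le).trans ?_
        push_cast
        exact le_rfl
      nlinarith
    refine ⟨?_, ?_⟩
    · have h4 : df (it g (k + 1)).1 = df (it g k).1 * (4 * (df (it g k).1 * df (it g k).1) -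
          3 * df (it g k).1) := by
        rw [df_it g (k + 1), df_it g k]
        change df g * ((it g k).2 * (4 * (df (it g k).1 * df (it g k).1) -
          3 * df (it g k).1)) = _
        rw [← mul_assoc, ← df_it]
      rw [h4, pow_succ]
      refine (norm_mul_le _ _).trans ?_
      have := mul_le_mul h1 h3 (norm_nonneg _) (by positivity)
      linarith
    · change ‖(it g k).2 * (4 * (df (it g k).1 * df (it g k).1) - 3 * df (it g k).1)‖ ≤ _
      rw [pow_succ]
      refine (norm_mul_le _ _).trans ?_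
      have := mul_le_mul h2 h3 (norm_nonneg _) (by positivity)
      linarith

theorem norm_it {g : B} (h : ‖df g‖ ≤ 1 / 16) (k : ℕ) :
    ‖2 * (it g k).1 - 1‖ ≤ ‖2 * g - 1‖ * 2 ^ k := by
  induction k with
  | zero => rw [pow_zero, mul_one]; exact le_rfl
  | succ k ih =>
    have h1 : (2 : B) * (it g (k + 1)).1 - 1 = (2 * (it g k).1 - 1) -
        (2 : ℕ) • ((2 * (it g k).1 - 1) * df (it g k).1) := by
      rw [nsmul_eq_mul]
      change (2 : B) * ((it g k).1 - (2 * (it g k).1 - 1) * df (it g k).1) - 1 = _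
      push_cast
      noncomm_ring
    have h2 := (norm_df_it h k).1
    have h3 : ((1 : ℝ) / 4) ^ k ≤ 1 := pow_le_one₀ (by norm_num) (by norm_num)
    have h4 : ‖(2 : ℕ) • ((2 * (it g k).1 - 1) * df (it g k).1)‖ ≤ ‖2 * (it g k).1 - 1‖ := by
      refine (norm_nsmul_le).trans ?_
      have h5 := norm_mul_le (2 * (it g k).1 - 1) (df (it g k).1)
      have h6 := norm_nonneg (2 * (it g k).1 - 1)
      push_cast
      nlinarith
    rw [h1, pow_succ]
    refine (norm_sub_le _ _).trans ?_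
    linarith

/-- an almost idempotent element is close to an idempotent, modulo multiples of its defect -/
theorem newton [CompleteSpace B] {g : B} (h : ‖df g‖ ≤ 1 / 16) :
    ∃ f b : B, f * f = f ∧ f = g + df g * b := by
  have hs : Summable fun k => (2 * (it g k).1 - 1) * (it g k).2 := by
    refine Summable.of_norm_bounded (g := fun k => ‖2 * g - 1‖ * ‖(1 : B)‖ * (1 / 2) ^ k)
      (summable_geometric_two.mul_left _) fun k => ?_
    refine (norm_mul_le _ _).trans ?_
    have h1 := norm_it h k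
    have h2 := (norm_df_it h k).2
    calc ‖2 * (it g k).1 - 1‖ * ‖(it g k).2‖ ≤ (‖2 * g - 1‖ * 2 ^ k) * (‖(1 : B)‖ * (1 / 4) ^ k) :=
          mul_le_mul h1 h2 (norm_nonneg _) (by positivity)
      _ = ‖2 * g - 1‖ * ‖(1 : B)‖ * (1 / 2) ^ k := by
        have : ((1 : ℝ) / 2) ^ k = 2 ^ k * (1 / 4) ^ k := by
          rw [← mul_pow]; norm_num
        rw [this]; ring
  have hcomm : ∀ k, (2 * (it g k).1 - 1) * df g = df g * (2 * (it g k).1 - 1) ∧
      (it g k).2 * df g = df g * (it g k).2 := by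
    intro k
    induction k with
    | zero =>
      refine ⟨?_, by change 1 * df g = df g * 1; rw [one_mul, mul_one]⟩
      change (2 * g - 1) * df g = df g * (2 * g - 1)
      unfold df
      noncomm_ring
    | succ k ih =>
      obtain ⟨h1, h2⟩ := ih
      have c1 : Commute (2 * (it g k).1 - 1) (df g) := h1
      have c2 : Commute (it g k).2 (df g) := h2
      have c3 : Commute (df (it g k).1) (df g) := by
        rw [df_it]
        exact (Commute.refl _).mul_left c2
      refine ⟨?_, ?_⟩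
      · have h3 : (2 : B) * (it g (k + 1)).1 - 1 = (2 * (it g k).1 - 1) -
            2 * ((2 * (it g k).1 - 1) * df (it g k).1) := by
          change (2 : B) * ((it g k).1 - (2 * (it g k).1 - 1) * df (it g k).1) - 1 = _
          noncomm_ring
        rw [h3]
        exact (c1.sub_left ((Commute.ofNat_left 2 _).mul_left (c1.mul_left c3)))
      · exact c2.mul_left (((Commute.ofNat_left 4 _).mul_left (c3.mul_left c3)).sub_left
          ((Commute.ofNat_left 3 _).mul_left c3))
  have hsum : ∀ n, (it g n).1 = g - df g * ∑ k ∈ range n, (2 * (it g k).1 - 1) * (it g k).2 := by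
    intro n
    induction n with
    | zero => rw [sum_range_zero, mul_zero, sub_zero]; rfl
    | succ n ih =>
      have h1 : (it g (n + 1)).1 = (it g n).1 - (2 * (it g n).1 - 1) * df (it g n).1 := rfl
      rw [h1, sum_range_succ, mul_add, ← sub_sub, ← ih, df_it g n, ← mul_assoc, (hcomm n).1,
        mul_assoc]
  refine ⟨g - df g * ∑' k, (2 * (it g k).1 - 1) * (it g k).2,
    -∑' k, (2 * (it g k).1 - 1) * (it g k).2, ?_, by rw [mul_neg, sub_eq_add_neg]⟩
  have hlim : Tendsto (fun n => (it g n).1) atTop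
      (𝓝 (g - df g * ∑' k, (2 * (it g k).1 - 1) * (it g k).2)) := by
    have h1 : (fun n => (it g n).1) =
        fun n => g - df g * ∑ k ∈ range n, (2 * (it g k).1 - 1) * (it g k).2 := funext hsum
    rw [h1]
    exact (tendsto_const_nhds.mul hs.hasSum.tendsto_sum_nat).const_sub g
  have h0 : Tendsto (fun n => df (it g n).1) atTop (𝓝 0) := by
    rw [tendsto_zero_iff_norm_tendsto_zero]
    refine squeeze_zero (fun _ => norm_nonneg _) (fun n => (norm_df_it h n).1) ?_
    have := (tendsto_pow_atTop_nhds_zero_of_lt_one (r := (1 : ℝ) / 4) (by norm_num)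
      (by norm_num)).const_mul (1 / 16)
    rwa [mul_zero] at this
  have h2 := (hlim.mul hlim).sub hlim
  have h3 := tendsto_nhds_unique h0 h2
  exact (sub_eq_zero.1 h3.symm)

end Newton

section Circle

variable {B : Type*} [NormedRing B] [NormedAlgebra ℂ B]

/-- the function `ω (ω - u)⁻¹` -/
noncomputable def Fr (u : B) (w : ℂ) : B := w • Ring.inverse (algebraMap ℂ B w - u)

theorem continuousOn_Fr [CompleteSpace B] {u : B} (hu : ∀ w : ℂ, ‖w‖ = 1 → IsUnit (algebraMap ℂ B w - u)) :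
    ContinuousOn (Fr u) (Metric.sphere 0 1) := by
  intro w hw
  rw [mem_sphere_zero_iff_norm] at hw
  obtain ⟨v, hv⟩ := hu w hw
  have h1 : ContinuousAt Ring.inverse (algebraMap ℂ B w - u) := by
    rw [← hv]
    exact NormedRing.inverse_continuousAt v
  have h2 : ContinuousAt (fun w : ℂ => algebraMap ℂ B w - u) w :=
    (continuous_algebraMap ℂ B).continuousAt.sub continuousAt_const
  exact (continuousAt_id.smul (ContinuousAt.comp (g := Ring.inverse)
    (f := fun w : ℂ => algebraMap ℂ B w - u) h1 h2)).continuousWithinAt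

/-- the averages over the roots of `ω ^ n = η ^ n` -/
noncomputable def av (u : B) (n : ℕ) (η : ℂ) : B :=
  (n : ℂ)⁻¹ • ∑ k ∈ range n, Fr u (η * Complex.exp (2 * Real.pi * Complex.I / n) ^ k)

theorem norm_root (n : ℕ) (k : ℕ) :
    ‖Complex.exp (2 * Real.pi * Complex.I / n) ^ k‖ = 1 := by
  rw [norm_pow]
  have h1 : (2 * Real.pi * Complex.I / n : ℂ) = ((2 * Real.pi / n : ℝ) : ℂ) * Complex.I := by
    push_cast
    ring
  rw [h1, Complex.norm_exp_ofReal_mul_I, one_pow]

theorem mul_av {u : B} (hu : ∀ w : ℂ, ‖w‖ = 1 → IsUnit (algebraMap ℂ B w - u)) {n : ℕ}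
    (hn : 0 < n) {η : ℂ} (hη : ‖η‖ = 1) : (1 - (η ^ n)⁻¹ • u ^ n) * av u n η = 1 := by
  have hη0 : η ≠ 0 := norm_ne_zero_iff.1 (by rw [hη]; exact one_ne_zero)
  set ζ := Complex.exp (2 * Real.pi * Complex.I / n) with hζ
  have hprim : IsPrimitiveRoot ζ n := Complex.isPrimitiveRoot_exp n hn.ne'
  have h1 : ∀ k < n, (algebraMap ℂ B (ζ ^ k) - η⁻¹ • u) *
      (η • Ring.inverse (algebraMap ℂ B (η * ζ ^ k) - u)) = 1 := by
    intro k _
    have h2 : IsUnit (algebraMap ℂ B (η * ζ ^ k) - u) := hu _ (by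
      rw [norm_mul, hη, hζ, norm_root, one_mul])
    have h3 : algebraMap ℂ B (ζ ^ k) - η⁻¹ • u = η⁻¹ • (algebraMap ℂ B (η * ζ ^ k) - u) := by
      rw [smul_sub, Algebra.algebraMap_eq_smul_one, Algebra.algebraMap_eq_smul_one, smul_smul,
        inv_mul_cancel_left₀ hη0]
    rw [h3, smul_mul_smul_comm, inv_mul_cancel₀ hη0, one_smul, Ring.mul_inverse_cancel _ h2]
  have h2 := sum_roots hn hprim (η⁻¹ • u) (fun k => η •
    Ring.inverse (algebraMap ℂ B (η * ζ ^ k) - u)) h1
  have h3 : ∀ k ∈ range n, ζ ^ k • (η • Ring.inverse (algebraMap ℂ B (η * ζ ^ k) - u)) =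
      Fr u (η * ζ ^ k) := by
    intro k _
    rw [smul_smul, mul_comm (ζ ^ k)]
    rfl
  rw [sum_congr rfl h3, smul_pow, inv_pow] at h2
  unfold av
  rw [mul_smul_comm, h2]
  have hn0 : (n : ℂ) ≠ 0 := Nat.cast_ne_zero.2 hn.ne'
  have h4 : (n : B) = (n : ℂ) • (1 : B) := by
    rw [← Algebra.algebraMap_eq_smul_one, map_natCast]
  rw [h4, smul_smul, inv_mul_cancel₀ hn0, one_smul]

/-- the difference of the two averages is small -/
theorem tendsto_av [CompleteSpace B] {u : B} (hu : ∀ w : ℂ, ‖w‖ = 1 → IsUnit (algebraMap ℂ B w - u)) :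
    Tendsto (fun n : ℕ => av u n 1 - av u n (Complex.exp (Real.pi * Complex.I / n))) atTop
      (𝓝 0) := by
  have hcomp : IsCompact (Metric.sphere (0 : ℂ) 1) := isCompact_sphere 0 1
  have huc := hcomp.uniformContinuousOn_of_continuous (continuousOn_Fr hu)
  rw [Metric.tendsto_atTop]
  intro ε hε
  obtain ⟨δ, hδ, h⟩ := Metric.uniformContinuousOn_iff.1 huc (ε / 2) (by positivity)
  have hlim : Tendsto (fun n : ℕ => Complex.exp (Real.pi * Complex.I / n)) atTop (𝓝 1) := by
    have h1 : Tendsto (fun n : ℕ => (Real.pi * Complex.I / n : ℂ)) atTop (𝓝 0) := by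
      have h2 : Tendsto (fun n : ℕ => (1 / (n : ℂ))) atTop (𝓝 0) := tendsto_one_div_atTop_nhds_zero_nat
      have h3 := h2.const_mul (Real.pi * Complex.I : ℂ)
      rw [mul_zero] at h3
      refine h3.congr fun n => ?_
      ring
    have h4 := (Complex.continuous_exp.tendsto 0).comp h1
    rwa [Complex.exp_zero] at h4
  obtain ⟨N, hN⟩ := (Metric.tendsto_atTop.1 hlim) δ hδ
  refine ⟨N + 1, fun n hn => ?_⟩
  have hn0 : 0 < n := by omega
  rw [dist_zero_right]
  set η := Complex.exp (Real.pi * Complex.I / n) with hη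
  have hηn : ‖η‖ = 1 := by
    have h1 : (Real.pi * Complex.I / n : ℂ) = ((Real.pi / n : ℝ) : ℂ) * Complex.I := by
      push_cast
      ring
    rw [hη, h1, Complex.norm_exp_ofReal_mul_I]
  unfold av
  rw [← smul_sub, ← sum_sub_distrib, norm_smul]
  have h1 : ‖∑ k ∈ range n, (Fr u (1 * Complex.exp (2 * Real.pi * Complex.I / n) ^ k) -
      Fr u (η * Complex.exp (2 * Real.pi * Complex.I / n) ^ k))‖ ≤ ∑ k ∈ range n, ε / 2 := by
    refine norm_sum_le_of_le _ fun k _ => ?_
    rw [← dist_eq_norm]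
    refine (h _ ?_ _ ?_ ?_).le
    · rw [mem_sphere_zero_iff_norm, one_mul, norm_root]
    · rw [mem_sphere_zero_iff_norm, norm_mul, hηn, norm_root, one_mul]
    · rw [dist_eq_norm, ← sub_mul, norm_mul, norm_root, mul_one, ← dist_eq_norm, dist_comm]
      exact hN n (by omega)
  rw [sum_const, card_range, nsmul_eq_mul] at h1
  have hn1 : (0 : ℝ) < n := Nat.cast_pos.2 hn0
  rw [norm_inv, RCLike.norm_natCast]
  calc (n : ℝ)⁻¹ * _ ≤ (n : ℝ)⁻¹ * (n * (ε / 2)) := mul_le_mul_of_nonneg_left h1 (by positivity)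
    _ = ε / 2 := by field_simp
    _ < ε := by linarith

theorem norm_av_le [CompleteSpace B] {u : B}
    (hu : ∀ w : ℂ, ‖w‖ = 1 → IsUnit (algebraMap ℂ B w - u)) :
    ∃ C : ℝ, ∀ (n : ℕ) (η : ℂ), ‖η‖ = 1 → ‖av u n η‖ ≤ C := by
  obtain ⟨C, hC⟩ := (isCompact_sphere (0 : ℂ) 1).exists_bound_of_continuousOn (continuousOn_Fr hu)
  have hC0 : 0 ≤ C := (norm_nonneg _).trans (hC 1 (by rw [mem_sphere_zero_iff_norm, norm_one]))
  refine ⟨C, fun n η hη => ?_⟩
  unfold av
  rw [norm_smul, norm_inv, RCLike.norm_natCast]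
  have h1 : ‖∑ k ∈ range n, Fr u (η * Complex.exp (2 * Real.pi * Complex.I / n) ^ k)‖ ≤
      ∑ _k ∈ range n, C := by
    refine norm_sum_le_of_le _ fun k _ => hC _ ?_
    rw [mem_sphere_zero_iff_norm, norm_mul, hη, norm_root, one_mul]
  rw [sum_const, card_range, nsmul_eq_mul] at h1
  rcases Nat.eq_zero_or_pos n with h | h
  · rw [h, Nat.cast_zero, inv_zero, zero_mul]
    exact hC0
  · have hn1 : (0 : ℝ) < n := Nat.cast_pos.2 h
    calc (n : ℝ)⁻¹ * _ ≤ (n : ℝ)⁻¹ * (n * C) := mul_le_mul_of_nonneg_left h1 (by positivity)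
      _ = C := by field_simp

theorem av_comm {u : B} (n : ℕ) (η : ℂ) : Commute u (av u n η) := by
  have h1 : ∀ w : ℂ, Commute u (Fr u w) := by
    intro w
    have h2 : Commute u (algebraMap ℂ B w - u) :=
      (show Commute u (algebraMap ℂ B w) from (Algebra.commutes w u).symm).sub_right (Commute.refl u)
    by_cases hw : IsUnit (algebraMap ℂ B w - u)
    · obtain ⟨v, hv⟩ := hw
      unfold Fr
      rw [← hv, Ring.inverse_unit]
      rw [← hv] at h2
      exact h2.units_inv_right.smul_right w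
    · unfold Fr
      rw [Ring.inverse_non_unit _ hw, smul_zero]
      exact Commute.zero_right u
  unfold av
  exact (Commute.sum_right _ _ _ fun k _ => h1 _).smul_right _

/-- the scalar case -/
theorem tendsto_av_zero {u : ℂ} (hu : 1 < ‖u‖) {η : ℕ → ℂ} (hη : ∀ n, ‖η n‖ = 1) :
    Tendsto (fun n : ℕ => av u n (η n)) atTop (𝓝 0) := by
  have hun : ∀ w : ℂ, ‖w‖ = 1 → IsUnit (algebraMap ℂ ℂ w - u) := by
    intro w hw
    refine isUnit_iff_ne_zero.2 fun h => ?_
    have h1 : w = u := sub_eq_zero.1 h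
    rw [← h1, hw] at hu
    exact lt_irrefl _ hu
  have h1 : ∀ n : ℕ, 0 < n → ‖av u n (η n)‖ ≤ (‖u‖ ^ n - 1)⁻¹ := by
    intro n hn
    have h2 := congrArg norm (mul_av hun hn (hη n))
    rw [norm_mul, norm_one] at h2
    have h3 : ‖u‖ ^ n - 1 ≤ ‖1 - ((η n) ^ n)⁻¹ • u ^ n‖ := by
      have h4 : ‖((η n) ^ n)⁻¹ • u ^ n‖ = ‖u‖ ^ n := by
        rw [norm_smul, norm_inv, norm_pow, hη, one_pow, inv_one, one_mul, norm_pow]
      have h5 := norm_sub_norm_le (((η n) ^ n)⁻¹ • u ^ n) 1
      rw [h4, norm_one, norm_sub_rev] at h5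
      exact h5
    have h4 : 0 < ‖u‖ ^ n - 1 := by
      have := one_lt_pow₀ hu hn.ne'
      linarith
    rw [← one_div, le_div_iff₀ h4, mul_comm]
    have h5 := mul_le_mul_of_nonneg_right h3 (norm_nonneg (av u n (η n)))
    rwa [h2] at h5
  rw [tendsto_zero_iff_norm_tendsto_zero]
  have h2 : Tendsto (fun n : ℕ => (‖u‖ ^ n - 1)⁻¹) atTop (𝓝 0) :=
    (tendsto_atTop_add_const_right _ (-1) (tendsto_pow_atTop_atTop_of_one_lt hu)).inv_tendsto_atTop
  refine squeeze_zero' (Eventually.of_forall fun _ => norm_nonneg _) ?_ h2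
  filter_upwards [eventually_gt_atTop 0] with n hn
  exact h1 n hn

end Circle

section Lift

variable {B : Type*} [NormedRing B] [NormedAlgebra ℂ B]

theorem half_two (X : B) : (2 : ℂ)⁻¹ • (2 * X) = X := by
  have h1 : (2 : B) * X = (2 : ℂ) • X := by rw [Algebra.smul_def, map_ofNat]
  rw [h1, smul_smul, inv_mul_cancel₀ two_ne_zero, one_smul]

/-- `2 A C = A + C` and the defect of the mean -/
theorem df_mean {A C : B} {v : B} (h1 : (1 - v) * A = 1) (h2 : (1 + v) * C = 1)
    (c1 : Commute v A) (c2 : Commute v C) :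
    df ((2 : ℂ)⁻¹ • (A + C)) = ((2 : ℂ)⁻¹ • (A - C)) * ((2 : ℂ)⁻¹ • (A - C)) := by
  have h1' : A * (1 - v) = 1 := by
    have h3 : A * (1 - v) = (1 - v) * A := by
      rw [mul_sub, sub_mul, mul_one, one_mul, c1.eq]
    rw [h3, h1]
  have h2' : C * (1 + v) = 1 := by
    have h3 : C * (1 + v) = (1 + v) * C := by
      rw [mul_add, add_mul, mul_one, one_mul, c2.eq]
    rw [h3, h2]
  have e1 : A + C = 2 * (A * C) := by
    calc A + C = A * ((1 + v) * C) + (A * (1 - v)) * C := by rw [h1', h2, mul_one, one_mul]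
      _ = 2 * (A * C) := by noncomm_ring
  have e2 : A + C = 2 * (C * A) := by
    calc A + C = (C * (1 + v)) * A + C * ((1 - v) * A) := by
          rw [h1, h2', mul_one, one_mul]
      _ = 2 * (C * A) := by noncomm_ring
  have e3 : (2 : ℂ)⁻¹ • (A + C) = A * C := by rw [e1, half_two]
  have e4 : A * C = C * A := by rw [← e3, e2, half_two]
  have e5 : ((2 : ℂ)⁻¹ • (A + C)) * ((2 : ℂ)⁻¹ • (A + C)) =
      ((2 : ℂ)⁻¹ * (2 : ℂ)⁻¹) • ((A + C) * (A + C)) := smul_mul_smul_comm _ _ _ _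
  have e6 : ((2 : ℂ)⁻¹ • (A - C)) * ((2 : ℂ)⁻¹ • (A - C)) =
      ((2 : ℂ)⁻¹ * (2 : ℂ)⁻¹) • ((A - C) * (A - C)) := smul_mul_smul_comm _ _ _ _
  have e7 : (A + C) * (A + C) - (A - C) * (A - C) = (4 : ℂ) • (A * C) := by
    have e8 : (4 : ℂ) • (A * C) = 2 * (A * C) + 2 * (C * A) := by
      rw [← e4, ← add_mul, Algebra.smul_def, map_ofNat]
      norm_num
    rw [e8]
    noncomm_ring
  have e9 : ((2 : ℂ)⁻¹ * (2 : ℂ)⁻¹) • ((A + C) * (A + C)) -
      ((2 : ℂ)⁻¹ * (2 : ℂ)⁻¹) • ((A - C) * (A - C)) = A * C := by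
    rw [← smul_sub, e7, smul_smul]
    norm_num
  unfold df
  rw [e5, e6, e3, ← e9]
  abel

end Lift

end Vale.Agent.P184.H788
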