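import Vale.Agent.P184.H788.Alg
import Vale.Agent.P184.H788.Rep
import Vale.Agent.P184.H788.Dec
import Vale.Agent.P184.H856.Cyc
import Vale.Agent.P184.H290.RowQ2

/-!
# P184: rows Q2 and P, from the trace formula
-/

noncomputable section

namespace Vale.Agent.P184.H788

open Filter Topology
open Vale.Agent.P184 (IsIdem tau toFn)
open Vale.Agent.P184.H13 (E dl co sm)
open Vale.Agent.P184.H847 (hasSum_clm)
open Vale.Agent.P184.H856
open Vale.Agent.P184.H290 (Spec RowQ2 RowP)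

universe u v w

/-- the nuclearity and the trace formula -/
def NucTr.{u', v', w'} : Prop :=
  ∀ {G : Type u'} {X : Type v'} {L : Type w'} [Group G] [MulAction G X] [Group L]
    (α : LC G X L) (S : G → Set X) {q : ℕ} (e : Matrix (Fin q) (Fin q) (G → ℂ)), IsIdem e →
    (∀ g, (S g).Finite) → (Summable fun g => sm (toFn e g) * ((S g).ncard : ℝ)) →
    NucL (lamS α S e) ∧ ∀ D : ConjClasses L, trD D (lamS α S e) =
      ∑' p : {p : G × X // (p.1 • p.2 = p.2 ∧ ConjClasses.mk (α.a p.1 p.2) = D) ∧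
        p.2 ∈ S p.1}, ∑ i, e i i p.1.1

section

variable {G : Type u} {X : Type v} {L : Type w} [Group G] [MulAction G X] [Group L]

omit [Group G] in
theorem sm_dec {q : ℕ} {e : Matrix (Fin q) (Fin q) (G → ℂ)} {len : G → ℕ}
    (h : ∀ i j, Summable fun g => ‖e i j g‖ * (1 + len g : ℝ)) :
    Summable fun g => sm (toFn e g) * (len g : ℝ) := by
  have h1 : Summable fun g => ∑ i, ∑ j, ‖e i j g‖ * (1 + len g : ℝ) :=
    summable_sum fun i _ => summable_sum fun j _ => h i j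
  refine Summable.of_nonneg_of_le
    (fun g => mul_nonneg (H13.sm_nonneg _) (Nat.cast_nonneg _)) (fun g => ?_) h1
  have h2 : sm (toFn e g) * (len g : ℝ) = ∑ i, ∑ j, ‖e i j g‖ * (len g : ℝ) := by
    unfold sm
    rw [Finset.sum_mul]
    refine Finset.sum_congr rfl fun i _ => ?_
    rw [Finset.sum_mul]
    rfl
  rw [h2]
  refine Finset.sum_le_sum fun i _ => Finset.sum_le_sum fun j _ => ?_
  refine mul_le_mul_of_nonneg_left ?_ (norm_nonneg _)
  linarith

theorem nuc_defect {Y L : Type*} [Group L] {P x K : E (Y × L) →L[ℂ] E (Y × L)} (hP : P * P = P)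
    (eP : Eqv P) (hK : NucL K) (h : P = x + K) : NucL (x * x - x) := by
  have h1 : x = P - K := by rw [h]; abel
  have h2 : x * x - x = K * K + K - P * K - K * P := by
    rw [h1]
    have h3 : (P - K) * (P - K) - (P - K) = (P * P - P) + (K * K + K - P * K - K * P) := by
      noncomm_ring
    rw [h3, hP, sub_self, zero_add]
  rw [h2]
  exact nucL_sub (nucL_sub (nucL_add (nucL_mul hK K) hK) (nucL_mul_left hK eP)) (nucL_mul hK P)

theorem blk_lamS (α : LC G X L) (A : X → Subgroup L) {q : ℕ}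
    {e : Matrix (Fin q) (Fin q) (G → ℂ)} (he : IsIdem e) :
    Blk (fun y : X × Fin q => A y.1) (lamS α (fun g => good α.a A g) e) := by
  intro y z l h
  by_contra h2
  obtain ⟨x, j⟩ := y
  obtain ⟨z, i⟩ := z
  obtain ⟨g, h3, rfl, rfl⟩ := lamS_entry α _ he h2
  exact h h3

theorem core (α : LC G X L) {A : X → Subgroup L} (hA : ∀ x, Finite (A x)) {q : ℕ}
    {e : Matrix (Fin q) (Fin q) (G → ℂ)} (he : IsIdem e)
    (hN : NucL (lamS α (fun g => bad α.a A g) e)) :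
    ∃ (m : ℕ) (f f' : Matrix (Fin m) (Fin m) (L → ℂ)), IsIdem f ∧ IsIdem f' ∧
      ∀ D : ConjClasses L, (∀ x, ∀ a ∈ A x, ConjClasses.mk a ≠ D) →
        tau D f' - tau D f = trD D (lamS α (fun g => bad α.a A g) e) := by
  have hP := lamS_idem α he
  have eP := eqv_lamS α (fun _ => Set.univ) he
  have hadd := lamS_add α (fun g => good α.a A g) he (fun g => bad α.a A g) (fun g => rfl)
  set P := lamS α (fun _ => Set.univ) e with hPdef
  set x := lamS α (fun g => good α.a A g) e with hx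
  set K := lamS α (fun g => bad α.a A g) e with hK
  have hAf : ∀ y : X × Fin q, Finite (A y.1) := fun y => hA y.1
  obtain ⟨f, hf, ef, bf, hfx⟩ := alg (A := fun y : X × Fin q => A y.1)
    (eqv_lamS α (fun g => good α.a A g) he) (blk_lamS α A he) (nuc_defect hP eP hN hadd)
  rw [← hx] at hfx
  have h1 : P - f = K - (f - x) := by rw [hadd]; abel
  obtain ⟨m, f₁, f₂, h2, h3, h4⟩ := pOp f P hf hP ef eP (h1 ▸ nucL_sub hN hfx)
  refine ⟨m, f₁, f₂, h2, h3, fun D hD => ?_⟩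
  rw [h4, h1, sub_eq_add_neg, trD_add hN (nucL_neg hfx), trD_neg]
  have h5 : trD D (f - x) = 0 := by
    refine trD_blk (A := fun y : X × Fin q => A y.1) (fun y z l h => ?_) fun y => hD y.1
    change f (dl (y, 1)) (z, l) - x (dl (y, 1)) (z, l) = 0
    rw [bf y z l h, hx, blk_lamS α A he y z l h, sub_zero]
  rw [h5, neg_zero, add_zero]

end

/-- Row Q2 -/
theorem rowQ2_of (hT : NucTr.{u, v, w}) : RowQ2.{u, v, w} := by
  intro G X L _ _ _ α hα A hA hfin q e he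
  obtain ⟨e₁, he₁, hdec, htau⟩ := exists_dec (fun g => (bad α A g).ncard)
    (fun g h => ncard_bad_mul hα hfin g h) e he
  let Z : LC G X L := ⟨α, hα⟩
  obtain ⟨hN, htr⟩ := hT Z (fun g => bad α A g) e₁ he₁ hfin (sm_dec hdec)
  obtain ⟨m, f, f', h1, h2, h3⟩ := core Z hA he₁ hN
  refine ⟨e₁, he₁, htau, m, f, f', h1, h2, fun D hD => ?_⟩
  rw [h3 D hD, htr D]
  have hiff : ∀ p : G × X, ((p.1 • p.2 = p.2 ∧ ConjClasses.mk (Z.a p.1 p.2) = D) ∧
      p.2 ∈ bad α A p.1) ↔ (p.1 • p.2 = p.2 ∧ ConjClasses.mk (α p.1 p.2) = D) := by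
    intro p
    refine ⟨fun h => h.1, fun h => ⟨h, fun h4 => ?_⟩⟩
    exact hD p.2 _ h4.2 h.2
  exact (Equiv.subtypeEquivRight hiff).tsum_eq
    (fun p : {p : G × X // p.1 • p.2 = p.2 ∧ ConjClasses.mk (α p.1 p.2) = D} =>
      ∑ i, e₁ i i p.1.1)

/-- Row P -/
theorem rowP_of (hT : NucTr.{u, v, w}) : RowP.{u, v, w} := by
  classical
  intro G X L _ _ _ α α' hα hα' hfin q e he
  have hlen : ∀ g h : G, ({x | α (g * h) x ≠ α' (g * h) x} : Set X).ncard ≤
      ({x | α g x ≠ α' g x} : Set X).ncard + ({x | α h x ≠ α' h x} : Set X).ncard := by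
    intro g h
    have hsub : ({x | α (g * h) x ≠ α' (g * h) x} : Set X) ⊆
        (fun x => h⁻¹ • x) '' {x | α g x ≠ α' g x} ∪ {x | α h x ≠ α' h x} := by
      intro x hx
      by_cases h1 : α h x = α' h x
      · refine Or.inl ⟨h • x, ?_, inv_smul_smul h x⟩
        intro h2
        refine hx ?_
        rw [hα, hα', h1, h2]
      · exact Or.inr h1
    refine (Set.ncard_le_ncard hsub (((hfin g).image _).union (hfin h))).trans ?_
    refine (Set.ncard_union_le _ _).trans (Nat.add_le_add_right ?_ _)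
    exact Set.ncard_image_le (hfin g)
  obtain ⟨e₁, he₁, hdec, htau⟩ := exists_dec (fun g => ({x | α g x ≠ α' g x} : Set X).ncard)
    hlen e he
  let Z : LC G X L := ⟨α, hα⟩
  let Z' : LC G X L := ⟨α', hα'⟩
  let c : G → Set X := fun g => {x | α g x ≠ α' g x}
  obtain ⟨hN, htr⟩ := hT Z c e₁ he₁ hfin (sm_dec hdec)
  obtain ⟨hN', htr'⟩ := hT Z' c e₁ he₁ hfin (sm_dec hdec)
  have hadd := lamS_add Z (fun g => (c g)ᶜ) he₁ c (fun g => (compl_compl (c g)).symm)
  have hadd' := lamS_add Z' (fun g => (c g)ᶜ) he₁ c (fun g => (compl_compl (c g)).symm)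
  have heq : lamS Z (fun g => (c g)ᶜ) e₁ = lamS Z' (fun g => (c g)ᶜ) e₁ := by
    refine eqv_ext (eqv_lamS Z _ he₁) (eqv_lamS Z' _ he₁) fun y z l => ?_
    rw [lamS_dl Z _ he₁, lamS_dl Z' _ he₁]
    refine tsum_congr fun g => ?_
    obtain ⟨x, j⟩ := y
    obtain ⟨z, i⟩ := z
    rw [Tm_dl, Tm_dl]
    by_cases hx : x ∈ (c g)ᶜ
    · have h1 : Z.a g x = Z'.a g x := not_not.1 hx
      rw [h1]
    · rw [if_neg fun h => hx h.1, if_neg fun h => hx h.1]
  have h1 : lamS Z (fun _ => Set.univ) e₁ - lamS Z' (fun _ => Set.univ) e₁ =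
      lamS Z c e₁ + -lamS Z' c e₁ := by
    rw [hadd, hadd', heq]; abel
  obtain ⟨m, f, f', h2, h3, h4⟩ := pOp (lamS Z' (fun _ => Set.univ) e₁)
    (lamS Z (fun _ => Set.univ) e₁) (lamS_idem Z' he₁) (lamS_idem Z he₁)
    (eqv_lamS Z' _ he₁) (eqv_lamS Z _ he₁) (h1 ▸ nucL_add hN (nucL_neg hN'))
  refine ⟨e₁, he₁, htau, m, f, f', h2, h3, fun D hD => ?_⟩
  rw [h4, h1, trD_add hN (nucL_neg hN'), trD_neg, htr D, htr' D]
  have hz : ∑' p : {p : G × X // (p.1 • p.2 = p.2 ∧ ConjClasses.mk (Z'.a p.1 p.2) = D) ∧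
      p.2 ∈ c p.1}, ∑ i, e₁ i i p.1.1 = 0 := by
    have : IsEmpty {p : G × X // (p.1 • p.2 = p.2 ∧ ConjClasses.mk (Z'.a p.1 p.2) = D) ∧
      p.2 ∈ c p.1} := ⟨fun p => hD _ _ p.2.1.2⟩
    exact tsum_empty
  rw [hz, neg_zero, add_zero]
  have hiff : ∀ p : G × X, ((p.1 • p.2 = p.2 ∧ ConjClasses.mk (Z.a p.1 p.2) = D) ∧
      p.2 ∈ c p.1) ↔ (p.1 • p.2 = p.2 ∧ ConjClasses.mk (α p.1 p.2) = D) := by
    intro p
    refine ⟨fun h => h.1, fun h => ⟨h, fun h4 => ?_⟩⟩
    refine hD p.1 p.2 ?_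
    rw [← h4]
    exact h.2
  exact (Equiv.subtypeEquivRight hiff).tsum_eq
    (fun p : {p : G × X // p.1 • p.2 = p.2 ∧ ConjClasses.mk (α p.1 p.2) = D} =>
      ∑ i, e₁ i i p.1.1)

end Vale.Agent.P184.H788
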