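import Vale.Agent.P184.H11.Free
import Vale.Agent.P184.H977.Prod

/-!
# P184: restriction of idempotents to subgroups of finite index

If finitely many subgroups of finite index whose conjugates cover the group satisfy the
`ℓ¹`-Bass conjecture, then so does the group.
-/

namespace Vale.Agent.P184.H788

open Vale.Agent.P184

universe u v

section Res

variable {K : Type u} [Group K] (H : Subgroup K)

/-- a representative of a coset -/
noncomputable def rp (a : K ⧸ H) : K := a.out

theorem rp_mk (a : K ⧸ H) : ((rp H a : K) : K ⧸ H) = a := QuotientGroup.out_eq' a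

theorem bij (a : K ⧸ H) :
    Function.Bijective fun p : (K ⧸ H) × H => rp H a * p.2 * (rp H p.1)⁻¹ := by
  constructor
  · rintro ⟨c, h⟩ ⟨c', h'⟩ heq
    have h1 : (h : K) * (rp H c)⁻¹ = h' * (rp H c')⁻¹ := by
      have h2 : rp H a * h * (rp H c)⁻¹ = rp H a * h' * (rp H c')⁻¹ := heq
      rw [mul_assoc, mul_assoc] at h2
      exact mul_left_cancel h2
    have h2 : rp H c = rp H c' * ((h' : K)⁻¹ * h) := by
      have h3 : rp H c * (h : K)⁻¹ = rp H c' * (h' : K)⁻¹ := by
        have h4 := congrArg (fun z => z⁻¹) h1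
        simp only [mul_inv_rev, inv_inv] at h4
        exact h4
      rw [← mul_assoc, ← h3, inv_mul_cancel_right]
    have h3 : c = c' := by
      rw [← rp_mk H c, h2, QuotientGroup.mk_mul_of_mem _ (H.mul_mem (H.inv_mem h'.2) h.2), rp_mk]
    subst h3
    exact Prod.ext rfl (Subtype.ext (mul_right_cancel h1))
  · intro g
    have h1 : (rp H a)⁻¹ * g * rp H ((g⁻¹ * rp H a : K) : K ⧸ H) ∈ H := by
      have h2 : ((g⁻¹ * rp H a : K) : K ⧸ H) =
          ((rp H ((g⁻¹ * rp H a : K) : K ⧸ H) : K) : K ⧸ H) := (rp_mk H _).symm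
      have h3 := QuotientGroup.eq.1 h2
      rwa [mul_inv_rev, inv_inv] at h3
    refine ⟨(((g⁻¹ * rp H a : K) : K ⧸ H), ⟨_, h1⟩), ?_⟩
    dsimp only
    group

theorem tsum_cosets [Fintype (K ⧸ H)] (a : K ⧸ H) {F : K → ℂ} (hF : Summable F) :
    ∑' g, F g = ∑ c : K ⧸ H, ∑' h : H, F (rp H a * h * (rp H c)⁻¹) := by
  let E := Equiv.ofBijective _ (bij H a)
  have h1 : Summable fun p : (K ⧸ H) × H => F (E p) := E.summable_iff.2 hF
  rw [← E.tsum_eq, h1.tsum_prod, tsum_fintype]
  rfl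

/-- restriction of matrices -/
noncomputable def res [Fintype (K ⧸ H)] {q : ℕ} (e : Matrix (Fin q) (Fin q) (K → ℂ)) :
    Matrix (Fin (Fintype.card (Fin q × (K ⧸ H)))) (Fin (Fintype.card (Fin q × (K ⧸ H))))
      (H → ℂ) :=
  Matrix.of fun i j h => e ((Fintype.equivFin _).symm i).1 ((Fintype.equivFin _).symm j).1
    (rp H ((Fintype.equivFin _).symm i).2 * h * (rp H ((Fintype.equivFin _).symm j).2)⁻¹)

theorem res_idem [Fintype (K ⧸ H)] {q : ℕ} {e : Matrix (Fin q) (Fin q) (K → ℂ)}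
    (he : IsIdem e) : IsIdem (res H e) := by
  refine ⟨fun i j => ?_, fun i j h => ?_⟩
  · refine (he.1 ((Fintype.equivFin _).symm i).1 ((Fintype.equivFin _).symm j).1).comp_injective
      (i := fun h : H => rp H ((Fintype.equivFin _).symm i).2 * h *
        (rp H ((Fintype.equivFin _).symm j).2)⁻¹) ?_
    intro h h' hh
    exact Subtype.ext (mul_left_cancel (mul_right_cancel hh))
  · obtain ⟨⟨i, a⟩, rfl⟩ := (Fintype.equivFin _).surjective i
    obtain ⟨⟨j, b⟩, rfl⟩ := (Fintype.equivFin _).surjective j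
    have h0 : ∀ k : Fin q × (K ⧸ H), ∑' h' : H, res H e (Fintype.equivFin _ (i, a))
        (Fintype.equivFin _ k) h' * res H e (Fintype.equivFin _ k) (Fintype.equivFin _ (j, b))
          (h'⁻¹ * h) = ∑' h' : H, (fun g : K => e i k.1 g * e k.1 j (g⁻¹ *
            (rp H a * h * (rp H b)⁻¹))) (rp H a * h' * (rp H k.2)⁻¹) := by
      intro k
      refine tsum_congr fun h' => ?_
      have h1 : (rp H a * (h' : K) * (rp H k.2)⁻¹)⁻¹ * (rp H a * h * (rp H b)⁻¹) =
          rp H k.2 * ((h'⁻¹ * h : H) : K) * (rp H b)⁻¹ := by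
        rw [Subgroup.coe_mul, Subgroup.coe_inv]
        group
      dsimp only [res, Matrix.of_apply]
      rw [h1, Equiv.symm_apply_apply, Equiv.symm_apply_apply, Equiv.symm_apply_apply]
    rw [← (Fintype.equivFin (Fin q × (K ⧸ H))).sum_comp, Finset.sum_congr rfl fun k _ => h0 k,
      Fintype.sum_prod_type]
    have h2 : ∀ k : Fin q, Summable fun g : K => e i k g * e k j (g⁻¹ *
        (rp H a * h * (rp H b)⁻¹)) := by
      intro k
      refine Summable.of_norm_bounded ((he.1 i k).mul_right (∑' g, ‖e k j g‖)) fun g => ?_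
      rw [norm_mul]
      refine mul_le_mul_of_nonneg_left ?_ (norm_nonneg _)
      exact (he.1 k j).le_tsum _ fun _ _ => norm_nonneg _
    rw [Finset.sum_congr rfl fun k _ => (tsum_cosets H a (h2 k)).symm, he.2 i j]
    dsimp only [res, Matrix.of_apply]
    rw [Equiv.symm_apply_apply, Equiv.symm_apply_apply]

/-- the conjugates `t x t⁻¹` with `t` in a given coset -/
def X (x : K) (a : K ⧸ H) : Set K := {z | ∃ t : K, (t : K ⧸ H) = a ∧ t * x * t⁻¹ = z}

theorem tsum_X {x : H} {f : K → ℂ} (a : K ⧸ H) :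
    ∑' y : {y : H // ConjClasses.mk y = ConjClasses.mk x}, f (rp H a * (y : H) * (rp H a)⁻¹) =
      ∑' z : K, (X H x a).indicator f z := by
  have hinj : Function.Injective fun y : {y : H // ConjClasses.mk y = ConjClasses.mk x} =>
      rp H a * ((y : H) : K) * (rp H a)⁻¹ := by
    intro y y' hy
    exact Subtype.ext (Subtype.ext (mul_left_cancel (mul_right_cancel hy)))
  have hmem : ∀ y : {y : H // ConjClasses.mk y = ConjClasses.mk x},
      rp H a * ((y : H) : K) * (rp H a)⁻¹ ∈ X H x a := by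
    rintro ⟨y, hy⟩
    obtain ⟨c, hc⟩ := isConj_iff.1 (ConjClasses.mk_eq_mk_iff_isConj.1 hy.symm)
    refine ⟨rp H a * c, ?_, ?_⟩
    · rw [QuotientGroup.mk_mul_of_mem _ c.2, rp_mk]
    · change rp H a * (c : K) * x * (rp H a * c)⁻¹ = rp H a * (y : K) * (rp H a)⁻¹
      rw [← hc, Subgroup.coe_mul, Subgroup.coe_mul, Subgroup.coe_inv]
      group
  have hsupp : Function.support ((X H x a).indicator f) ⊆
      Set.range fun y : {y : H // ConjClasses.mk y = ConjClasses.mk x} =>
        rp H a * ((y : H) : K) * (rp H a)⁻¹ := by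
    intro z hz
    obtain ⟨t, ht, rfl⟩ := Set.mem_of_indicator_ne_zero hz
    have h1 : (rp H a)⁻¹ * t ∈ H := by
      rw [← QuotientGroup.eq, rp_mk, ht]
    refine ⟨⟨⟨(rp H a)⁻¹ * t, h1⟩ * x * ⟨(rp H a)⁻¹ * t, h1⟩⁻¹, ?_⟩, ?_⟩
    · exact ConjClasses.mk_eq_mk_iff_isConj.2 (isConj_iff.2 ⟨_, rfl⟩).symm
    · dsimp only
      rw [Subgroup.coe_mul, Subgroup.coe_mul, Subgroup.coe_inv]
      dsimp only
      group
  rw [← hinj.tsum_eq hsupp]
  exact tsum_congr fun y => (Set.indicator_of_mem (hmem y) f).symm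

open Classical in
/-- the number of cosets containing a conjugating element -/
noncomputable def nb [Fintype (K ⧸ H)] (x z : K) : ℕ :=
  (Finset.univ.filter fun a : K ⧸ H => z ∈ X H x a).card

theorem nb_conj [Fintype (K ⧸ H)] (x g : K) : nb H x (g * x * g⁻¹) = nb H x x := by
  classical
  unfold nb
  refine Finset.card_bij (fun a _ => g⁻¹ • a) ?_ ?_ ?_
  · intro a ha
    obtain ⟨t, rfl, ht⟩ := (Finset.mem_filter.1 ha).2
    refine Finset.mem_filter.2 ⟨Finset.mem_univ _, g⁻¹ * t, rfl, ?_⟩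
    calc g⁻¹ * t * x * (g⁻¹ * t)⁻¹ = g⁻¹ * (t * x * t⁻¹) * g := by group
      _ = x := by rw [ht]; group
  · intro a _ b _ h
    exact MulAction.injective g⁻¹ h
  · intro a ha
    obtain ⟨t, rfl, ht⟩ := (Finset.mem_filter.1 ha).2
    refine ⟨((g * t : K) : K ⧸ H), Finset.mem_filter.2 ⟨Finset.mem_univ _, g * t, rfl, ?_⟩, ?_⟩
    · calc g * t * x * (g * t)⁻¹ = g * (t * x * t⁻¹) * g⁻¹ := by group
        _ = g * x * g⁻¹ := by rw [ht]
    · change ((g⁻¹ * (g * t) : K) : K ⧸ H) = (t : K ⧸ H)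
      rw [inv_mul_cancel_left]

theorem nb_pos [Fintype (K ⧸ H)] (x : K) : nb H x x ≠ 0 := by
  classical
  refine Finset.card_ne_zero.2 ⟨((1 : K) : K ⧸ H), Finset.mem_filter.2 ⟨Finset.mem_univ _, 1, rfl, ?_⟩⟩
  group

theorem tau_res [Fintype (K ⧸ H)] {q : ℕ} {e : Matrix (Fin q) (Fin q) (K → ℂ)}
    (he : IsIdem e) (x : H) : tau (ConjClasses.mk x) (res H e) =
      nb H x x * tau (ConjClasses.mk (x : K)) e := by
  classical
  set f : K → ℂ := fun g => ∑ i, e i i g with hf
  have hfs : Summable f := summable_sum fun i _ => (he.1 i i).of_norm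
  have h1 : ∀ y : H, ∑ i, res H e i i y = ∑ a : K ⧸ H, f (rp H a * y * (rp H a)⁻¹) := by
    intro y
    rw [← (Fintype.equivFin (Fin q × (K ⧸ H))).sum_comp, Fintype.sum_prod_type,
      Finset.sum_comm]
    refine Finset.sum_congr rfl fun a _ => Finset.sum_congr rfl fun i _ => ?_
    dsimp only [res, Matrix.of_apply]
    rw [Equiv.symm_apply_apply]
  have h2 : ∀ a : K ⧸ H, Summable fun y : {y : H // ConjClasses.mk y = ConjClasses.mk x} =>
      f (rp H a * (y : H) * (rp H a)⁻¹) := by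
    intro a
    refine hfs.comp_injective (i := fun y : {y : H // ConjClasses.mk y = ConjClasses.mk x} =>
      rp H a * ((y : H) : K) * (rp H a)⁻¹) ?_
    intro y y' hy
    exact Subtype.ext (Subtype.ext (mul_left_cancel (mul_right_cancel hy)))
  have h3 : ∀ a : K ⧸ H, Summable ((X H x a).indicator f) := fun a => hfs.indicator _
  have h4 : ∀ z : K, ∑ a : K ⧸ H, (X H x a).indicator f z =
      nb H x x * ({z | ConjClasses.mk z = ConjClasses.mk (x : K)}.indicator f z) := by
    intro z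
    have h5 : ∑ a : K ⧸ H, (X H x a).indicator f z = nb H x z * f z := by
      simp only [Set.indicator_apply]
      rw [← Finset.sum_filter, Finset.sum_const, nsmul_eq_mul]
      rfl
    rw [h5]
    by_cases hz : ConjClasses.mk z = ConjClasses.mk (x : K)
    · rw [Set.indicator_of_mem (by exact hz)]
      obtain ⟨g, hg⟩ := isConj_iff.1 (ConjClasses.mk_eq_mk_iff_isConj.1 hz.symm)
      rw [← hg, nb_conj]
    · rw [Set.indicator_of_notMem (by exact hz), mul_zero]
      have h6 : nb H x z = 0 := by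
        unfold nb
        rw [Finset.card_eq_zero, Finset.filter_eq_empty_iff]
        rintro a - ⟨t, -, ht⟩
        exact hz (ConjClasses.mk_eq_mk_iff_isConj.2 (isConj_iff.2 ⟨t, ht⟩).symm)
      rw [h6, Nat.cast_zero, zero_mul]
  rw [tau_eq, tau_eq, tsum_congr fun y => h1 _, Summable.tsum_finsetSum fun a _ => h2 a,
    Finset.sum_congr rfl fun a _ => tsum_X H a, ← Summable.tsum_finsetSum fun a _ => h3 a,
    tsum_congr h4, tsum_mul_left]
  congr 1
  exact (tsum_subtype {z | ConjClasses.mk z = ConjClasses.mk (x : K)} f).symm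

/-- **Restriction** to a subgroup of finite index: the traces of the restriction are nonzero
multiples of the traces. -/
theorem exists_res [H.FiniteIndex] {q : ℕ} {e : Matrix (Fin q) (Fin q) (K → ℂ)}
    (he : IsIdem e) : ∃ (r : ℕ) (b : Matrix (Fin r) (Fin r) (H → ℂ)), IsIdem b ∧
      ∀ x : H, ∃ m : ℕ, m ≠ 0 ∧
        tau (ConjClasses.mk x) b = m * tau (ConjClasses.mk (x : K)) e := by
  have : Fintype (K ⧸ H) := Fintype.ofFinite _
  exact ⟨_, res H e, res_idem H he, fun x => ⟨_, nb_pos H x, tau_res H he x⟩⟩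

theorem vanishesAt_of_subgroup [H.FiniteIndex] {x : H} (h : VanishesAt x) :
    VanishesAt (x : K) := by
  intro q e he
  obtain ⟨r, b, hb, hx⟩ := exists_res H he
  obtain ⟨m, hm, h1⟩ := hx x
  rw [h r b hb] at h1
  exact (mul_eq_zero.1 h1.symm).resolve_left (Nat.cast_ne_zero.2 hm)

end Res

/-- **Covering theorem.** If the conjugates of finitely many subgroups of finite index cover the
group and these subgroups satisfy the `ℓ¹`-Bass conjecture, then so does the group. -/
theorem bass_of_cover {K : Type u} [Group K] {ι : Type v} [Finite ι] (H : ι → Subgroup K)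
    (hfi : ∀ i, (H i).FiniteIndex) (hcov : ∀ x : K, ∃ i, ∃ g : K, g * x * g⁻¹ ∈ H i)
    (hb : ∀ i, L1Bass (H i)) : L1Bass K := by
  classical
  have : Fintype ι := Fintype.ofFinite _
  intro q e he
  have h1 : ∀ i, ∃ F : Finset (ConjClasses K), (∀ C ∈ F, IsTorsionClass C) ∧
      ∀ x : K, x ∈ H i → ConjClasses.mk x ∉ F → tau (ConjClasses.mk x) e = 0 := by
    intro i
    have := hfi i
    obtain ⟨r, b, hbi, hx⟩ := exists_res (H i) he
    obtain ⟨F, hF1, hF2⟩ := hb i r b hbi
    refine ⟨F.image (ConjClasses.map (H i).subtype), ?_, ?_⟩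
    · intro C hC
      obtain ⟨D, hD, rfl⟩ := Finset.mem_image.1 hC
      obtain ⟨y, rfl⟩ := ConjClasses.mk_surjective D
      exact isTorsionClass_mk.2 ((H i).subtype.isOfFinOrder (isTorsionClass_mk.1 (hF1 _ hD)))
    · intro x hxi hxF
      obtain ⟨m, hm, h2⟩ := hx ⟨x, hxi⟩
      rw [hF2 _ fun h3 => hxF (Finset.mem_image.2 ⟨_, h3, rfl⟩)] at h2
      exact (mul_eq_zero.1 h2.symm).resolve_left (Nat.cast_ne_zero.2 hm)
  choose F hF1 hF2 using h1
  refine ⟨Finset.univ.biUnion F, fun C hC => ?_, fun C hC => ?_⟩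
  · obtain ⟨i, -, hi⟩ := Finset.mem_biUnion.1 hC
    exact hF1 i C hi
  · obtain ⟨x, rfl⟩ := ConjClasses.mk_surjective C
    obtain ⟨i, g, hg⟩ := hcov x
    have h2 : ConjClasses.mk (g * x * g⁻¹) = ConjClasses.mk x :=
      ConjClasses.mk_eq_mk_iff_isConj.2 (isConj_iff.2 ⟨g, rfl⟩).symm
    have h3 := hF2 i _ hg
    rw [h2] at h3
    exact h3 fun h4 => hC (Finset.mem_biUnion.2 ⟨i, Finset.mem_univ _, h4⟩)

end Vale.Agent.P184.H788
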