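import Vale.Agent.P184.H788.VSpec
import Vale.Agent.P184.H290.Fin

/-!
# P184: amalgams over virtual retracts, the converse
-/

namespace Vale.Agent.P184.H788

open Vale.Agent.P184 Vale.Agent.P184.H856 Vale.Agent.P184.H290 Monoid Monoid.PushoutI

universe u v w x

theorem mon_virt {I : Type u} {G : I → Type v} {H : Type w} [∀ i, Group (G i)] [Group H]
    (φ : ∀ i, H →* G i) (j : I) (hV : ∀ i, i ≠ j → VirtRetract (φ i)) :
    ∃ (F : Type (max u v)) (_ : Nonempty F) (ρ : PushoutI φ →* Mon F (G j)),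
      ∀ b : G j, ρ (of j b) = ⟨1, fun _ => b⟩ := by
  have hV' : ∀ i, ∃ (F : Type v) (_ : Nonempty F) (_ : MulAction (G i) F)
      (c : G i → F → H), (∀ a b u, c (a * b) u = c a (b • u) * c b u) ∧
        (i ≠ j → ∀ y u, φ i y • u = u ∧ c (φ i y) u = y) := by
    intro i
    by_cases hi : i = j
    · refine ⟨PUnit, inferInstance,
        { smul := fun _ u => u, one_smul := fun _ => rfl, mul_smul := fun _ _ _ => rfl },
        fun _ _ => 1, fun a b u => (mul_one 1).symm, fun h => absurd hi h⟩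
    · obtain ⟨F, _, h2, h3, c, h4, h5⟩ := (hV i hi).system
      exact ⟨F, h2, h3, c, h4, fun _ => h5⟩
  choose F hF2 hF3 c hc ht using hV'
  obtain ⟨ρ, hρ⟩ := exists_mon (φ := φ) (F := F) j c hc ht
  exact ⟨∀ i, F i, inferInstance, ρ, hρ⟩

/-- the converse: `G j` satisfies the conjecture if all the other factors are virtual retracts -/
theorem virt_conv {I : Type u} {G : I → Type v} {H : Type w} [∀ i, Group (G i)] [Group H]
    (φ : ∀ i, H →* G i) (j : I) (hV : ∀ i, i ≠ j → VirtRetract (φ i))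
    (h : L1Bass (PushoutI φ)) : L1Bass (G j) := by
  obtain ⟨F, ⟨u⟩, ρ, hρ⟩ := mon_virt φ j hV
  refine l1Bass_of_inj (of (φ := φ) j) (fun a b hab => ?_) ∅ Set.finite_empty
    (fun _ hC => absurd hC (Set.notMem_empty _)) (fun a b _ hab => ?_) h
  · have h1 := congrArg ρ hab
    rw [hρ, hρ] at h1
    exact congrFun (congrArg Mon.k h1) u
  · obtain ⟨p, hp⟩ := isConj_iff.1 hab
    have h1 : ρ p * ρ (of j a) = ρ (of j b) * ρ p := by
      rw [← map_mul, ← map_mul, ← hp, inv_mul_cancel_right]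
    rw [hρ, hρ] at h1
    have h2 : (ρ p).k u * a = b * (ρ p).k u := congrFun (congrArg Mon.k h1) u
    refine isConj_iff.2 ⟨(ρ p).k u, ?_⟩
    rw [h2, mul_inv_cancel_right]

/-- **Amalgams over virtual retracts, with a spectator.** -/
theorem amalgam_virt_iff {I : Type u} [Nonempty I] {G : I → Type v} {H : Type w} (S : Type x)
    [∀ i, Group (G i)] [Group H] [Group S] (φ : ∀ i, H →* G i)
    (hV : ∀ i, VirtRetract (φ i)) :
    L1Bass (S × PushoutI φ) ↔ ∀ i, L1Bass (S × G i) := by
  refine ⟨fun h i => ?_, fun h => ?_⟩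
  · refine virt_conv (psi S φ) i (fun k _ => virtRetract_prod S (hV k)) ?_
    exact l1Bass_retract (toProd S φ) (fromProd S φ) from_to h
  · obtain ⟨j⟩ := ‹Nonempty I›
    exact amalgam_virt_spec S φ j (hV j).injective (fun i _ => hV i) h

end Vale.Agent.P184.H788
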