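import Vale.Agent.P184.H788.VR

/-!
# P184: HNN extensions, one virtual retract
-/

noncomputable section

namespace Vale.Agent.P184.H788

open Vale.Agent.P184 (IsIdem tau toFn L1Bass IsTorsionClass)
open Vale.Agent.P184.H13 (sm sm_nonneg)

universe u v w x

/-! ### sums and transports of systems -/

section

variable {G : Type u} {Y : Type v} {L : Type w} {K : Type x} [Group G] [Group L] [Group K] {q : ℕ}

/-- the sum of two systems -/
def Sys.sum (Z Z' : Sys G Y L) : Sys G (Y ⊕ Y) L where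
  act := permHom (fun g y => Sum.map (Z.act g) (Z'.act g) y)
    (fun y => by
      rcases y with y | y
      · change Sum.inl (Z.act 1 y) = Sum.inl y
        rw [map_one]
        rfl
      · change Sum.inr (Z'.act 1 y) = Sum.inr y
        rw [map_one]
        rfl)
    (fun g h y => by
      rcases y with y | y
      · change Sum.inl (Z.act (g * h) y) = Sum.inl (Z.act g (Z.act h y))
        rw [map_mul]
        rfl
      · change Sum.inr (Z'.act (g * h) y) = Sum.inr (Z'.act g (Z'.act h y))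
        rw [map_mul]
        rfl)
  a g y := Sum.elim (Z.a g) (Z'.a g) y
  mul g h y := by
    rcases y with y | y
    · exact Z.mul g h y
    · exact Z'.mul g h y

/-- the transport of a system -/
def Sys.map (Z : Sys G Y L) (Φ : Equiv.Perm Y) : Sys G Y L where
  act := permHom (fun g y => Φ.symm (Z.act g (Φ y)))
    (fun y => by
      rw [map_one]
      exact Φ.symm_apply_apply y)
    (fun g h y => by
      rw [map_mul, Φ.apply_symm_apply]
      rfl)
  a g y := Z.a g (Φ y)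
  mul g h y := by
    change Z.a (g * h) (Φ y) = Z.a g (Φ (Φ.symm (Z.act h (Φ y)))) * Z.a h (Φ y)
    rw [Φ.apply_symm_apply]
    exact Z.mul g h (Φ y)

/-- the bad points of the sum -/
def dbl (bad : G → Set Y) (g : G) : Set (Y ⊕ Y) := {y | Sum.elim (· ∈ bad g) (· ∈ bad g) y}

theorem ncard_sum {A : Type*} {P : A ⊕ A → Prop} (hf : {y | P y}.Finite) :
    {y | P y}.ncard = {a | P (Sum.inl a)}.ncard + {b | P (Sum.inr b)}.ncard := by
  have h1 : {y | P y} = Sum.inl '' {a | P (Sum.inl a)} ∪ Sum.inr '' {b | P (Sum.inr b)} := by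
    ext y
    rcases y with y | y
    · constructor
      · intro h
        exact Or.inl ⟨y, h, rfl⟩
      · rintro (⟨z, hz, h⟩ | ⟨z, hz, h⟩)
        · rw [← h]; exact hz
        · cases h
    · constructor
      · intro h
        exact Or.inr ⟨y, h, rfl⟩
      · rintro (⟨z, hz, h⟩ | ⟨z, hz, h⟩)
        · cases h
        · rw [← h]; exact hz
  have h2 : Disjoint (Sum.inl '' {a | P (Sum.inl a)}) (Sum.inr '' {b | P (Sum.inr b)}) := by
    refine Set.disjoint_left.2 ?_
    rintro _ ⟨z, _, rfl⟩ ⟨w, _, h⟩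
    cases h
  rw [h1] at hf
  rw [h1, Set.ncard_union_eq h2 (hf.subset Set.subset_union_left)
    (hf.subset Set.subset_union_right), Set.ncard_image_of_injective _ Sum.inl_injective,
    Set.ncard_image_of_injective _ Sum.inr_injective]

omit [Group G] in
theorem dbl_finite {bad : G → Set Y} (hfin : ∀ g, (bad g).Finite) (g : G) :
    (dbl bad g).Finite := by
  refine (((hfin g).image Sum.inl).union ((hfin g).image Sum.inr)).subset ?_
  rintro (y | y) hy
  · exact Or.inl ⟨y, hy, rfl⟩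
  · exact Or.inr ⟨y, hy, rfl⟩

omit [Group G] in
theorem dbl_ncard {bad : G → Set Y} (hfin : ∀ g, (bad g).Finite) (g : G) :
    (dbl bad g).ncard = (bad g).ncard + (bad g).ncard :=
  ncard_sum (P := fun y => Sum.elim (· ∈ bad g) (· ∈ bad g) y) (dbl_finite hfin g)

omit [Group G] in
theorem summable_w {bad : G → Set Y} {e : Matrix (Fin q) (Fin q) (G → ℂ)}
    (hs : Summable fun g => sm (toFn e g) * ((bad g).ncard : ℝ)) {N : G → ℕ}
    (hN : ∀ g, N g ≤ (bad g).ncard) : Summable fun g => (∑ i, e i i g) * (N g : ℂ) := by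
  refine Summable.of_norm_bounded hs fun g => ?_
  rw [norm_mul, Complex.norm_natCast]
  exact mul_le_mul (norm_tr_le (toFn e g)) (Nat.cast_le.2 (hN g)) (Nat.cast_nonneg _)
    (sm_nonneg _)

theorem big_sum (Z Z' : Sys G Y L) (ι : L →* K) {bad : G → Set Y} (hfin : ∀ g, (bad g).Finite)
    {e : Matrix (Fin q) (Fin q) (G → ℂ)}
    (hs : Summable fun g => sm (toFn e g) * ((bad g).ncard : ℝ)) (C : ConjClasses K) :
    (Z.sum Z').big ι (dbl bad) e C = Z.big ι bad e C + Z'.big ι bad e C := by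
  have h1 := summable_w hs (N := fun g => ({y | (Z.act g y = y ∧
    ConjClasses.mk (ι (Z.a g y)) = C) ∧ y ∈ bad g} : Set Y).ncard) fun g =>
      Set.ncard_le_ncard (fun y hy => hy.2) (hfin g)
  have h2 := summable_w hs (N := fun g => ({y | (Z'.act g y = y ∧
    ConjClasses.mk (ι (Z'.a g y)) = C) ∧ y ∈ bad g} : Set Y).ncard) fun g =>
      Set.ncard_le_ncard (fun y hy => hy.2) (hfin g)
  refine Eq.trans (tsum_congr fun g => ?_) (h1.tsum_add h2)
  rw [← mul_add, ← Nat.cast_add]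
  have hf : {y | ((Z.sum Z').act g y = y ∧
      ConjClasses.mk (ι ((Z.sum Z').a g y)) = C) ∧ y ∈ dbl bad g}.Finite :=
    (dbl_finite hfin g).subset fun y hy => hy.2
  rw [ncard_sum hf]
  have h3 : ∀ y, (((Z.sum Z').act g (Sum.inl y) = Sum.inl y ∧
      ConjClasses.mk (ι ((Z.sum Z').a g (Sum.inl y))) = C) ∧ Sum.inl y ∈ dbl bad g) ↔
      (Z.act g y = y ∧ ConjClasses.mk (ι (Z.a g y)) = C) ∧ y ∈ bad g := fun y => by
    refine and_congr_left fun _ => and_congr_left fun _ => ?_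
    change Sum.inl (Z.act g y) = Sum.inl y ↔ _
    exact Sum.inl_injective.eq_iff
  have h4 : ∀ y, (((Z.sum Z').act g (Sum.inr y) = Sum.inr y ∧
      ConjClasses.mk (ι ((Z.sum Z').a g (Sum.inr y))) = C) ∧ Sum.inr y ∈ dbl bad g) ↔
      (Z'.act g y = y ∧ ConjClasses.mk (ι (Z'.a g y)) = C) ∧ y ∈ bad g := fun y => by
    refine and_congr_left fun _ => and_congr_left fun _ => ?_
    change Sum.inr (Z'.act g y) = Sum.inr y ↔ _
    exact Sum.inr_injective.eq_iff
  rw [show {a | ((Z.sum Z').act g (Sum.inl a) = Sum.inl a ∧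
      ConjClasses.mk (ι ((Z.sum Z').a g (Sum.inl a))) = C) ∧ Sum.inl a ∈ dbl bad g} =
      {y | (Z.act g y = y ∧ ConjClasses.mk (ι (Z.a g y)) = C) ∧ y ∈ bad g} from
        Set.ext h3,
    show {a | ((Z.sum Z').act g (Sum.inr a) = Sum.inr a ∧
      ConjClasses.mk (ι ((Z.sum Z').a g (Sum.inr a))) = C) ∧ Sum.inr a ∈ dbl bad g} =
      {y | (Z'.act g y = y ∧ ConjClasses.mk (ι (Z'.a g y)) = C) ∧ y ∈ bad g} from
        Set.ext h4]

theorem big_map (Z : Sys G Y L) (Φ : Equiv.Perm Y) (ι : L →* K) {bad : G → Set Y}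
    (hb : ∀ g y, Φ y ∈ bad g ↔ y ∈ bad g) (e : Matrix (Fin q) (Fin q) (G → ℂ))
    (C : ConjClasses K) : (Z.map Φ).big ι bad e C = Z.big ι bad e C := by
  refine tsum_congr fun g => ?_
  refine congrArg (fun n : ℕ => (∑ i, e i i g) * (n : ℂ)) ?_
  have h1 : {y | ((Z.map Φ).act g y = y ∧ ConjClasses.mk (ι ((Z.map Φ).a g y)) = C) ∧
      y ∈ bad g} = Φ.symm '' {y | (Z.act g y = y ∧ ConjClasses.mk (ι (Z.a g y)) = C) ∧
        y ∈ bad g} := by
    rw [Equiv.image_symm_eq_preimage]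
    ext y
    change ((Φ.symm (Z.act g (Φ y)) = y ∧ _) ∧ _) ↔ ((Z.act g (Φ y) = Φ y ∧ _) ∧ Φ y ∈ bad g)
    rw [hb, Equiv.symm_apply_eq]
    exact Iff.rfl
  rw [h1, Set.ncard_image_of_injective _ Φ.symm.injective]

end

/-- the tree data of an HNN extension -/
structure Pn (G : Type u) (V : Type v) [Group G] [MulAction G V] where
  /-- the negative vertices -/
  neg : V → Prop
  /-- the stabilizer -/
  M : Subgroup G
  /-- the other stabilizer -/
  N : Subgroup G
  /-- the stable letter -/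
  t : G
  /-- the bad vertices -/
  B : G → Set V
  /-- the cocycle -/
  α : G → V → G
  /-- the action of the edges -/
  st : G →* Equiv.Perm V
  /-- the cocycle of the edges -/
  κ : G → V → G
  mul : ∀ g h v, α (g * h) v = α g (h • v) * α h v
  mem : ∀ g v, α g v ∈ M
  cls : ∀ (g : G) v, g • v = v → ConjClasses.mk (α g v) = ConjClasses.mk g
  κmul : ∀ g h v, κ (g * h) v = κ g (st h v) * κ h v
  κmemM : ∀ g v, κ g v ∈ M
  κmemN : ∀ g v, κ g v ∈ N
  conjN : ∀ x ∈ N, t⁻¹ * x * t ∈ M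
  agree : ∀ (g : G) v, v ∉ B g → st g v = g • v ∧ (neg (g • v) ↔ neg v) ∧
    (¬ neg v → κ g v = α g v) ∧ (neg v → t⁻¹ * κ g v * t = α g v)
  triv : ∀ g v, st g v = v → v ∈ B g → κ g v = 1
  fin : ∀ g, (B g).Finite
  cnt : ∀ g : G, (∃ v : V, g • v = v) → ({v | g • v = v ∧ v ∈ B g} : Set V).ncard = 1

/-- a virtual retraction of `M` to its intersection with `N` which kills the conjugate -/
structure Vh {G : Type u} [Group G] (M N : Subgroup G) (t : G) (F : Type w) where
  /-- the action -/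
  m : M →* Equiv.Perm F
  /-- the cocycle -/
  β : M → F → G
  mul : ∀ l k u, β (l * k) u = β l (m k u) * β k u
  memM : ∀ l u, β l u ∈ M
  memN : ∀ l u, β l u ∈ N
  fix : ∀ l : M, (l : G) ∈ N → ∀ u, m l u = u ∧ β l u = l
  kill : ∀ l : M, t * l * t⁻¹ ∈ M → ∀ u, m l u = u ∧ β l u = 1

section

variable {G : Type u} {V : Type v} {F : Type w} [Group G] [MulAction G V] (D : Pn G V)
  (R : Vh D.M D.N D.t F)

theorem Pn.one (v : V) : D.α 1 v = 1 := by
  have h := D.mul 1 1 v
  rw [mul_one, one_smul] at h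
  exact (left_eq_mul.1 h)

/-- the action on the fibre -/
def tB (g : G) (v : V) (u : F) : F := R.m ⟨D.α g v, D.mem g v⟩ u

/-- the value -/
def cB (g : G) (v : V) (u : F) : G := R.β ⟨D.α g v, D.mem g v⟩ u

theorem tB_one (v : V) (u : F) : tB D R 1 v u = u := by
  unfold tB
  have h1 : (⟨D.α 1 v, D.mem 1 v⟩ : D.M) = 1 := Subtype.ext (D.one v)
  rw [h1, map_one]
  rfl

theorem aB_mul (g h : G) (v : V) : (⟨D.α (g * h) v, D.mem (g * h) v⟩ : D.M) =
    ⟨D.α g (h • v), D.mem g (h • v)⟩ * ⟨D.α h v, D.mem h v⟩ := Subtype.ext (D.mul g h v)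

theorem tB_mul (g h : G) (v : V) (u : F) :
    tB D R (g * h) v u = tB D R g (MulAction.toPermHom G V h v) (tB D R h v u) := by
  change _ = tB D R g (h • v) _
  unfold tB
  rw [aB_mul, map_mul]
  rfl

theorem cB_mul (g h : G) (v : V) (u : F) : cB D R (g * h) v u =
    cB D R g (MulAction.toPermHom G V h v) (tB D R h v u) * cB D R h v u := by
  change _ = cB D R g (h • v) _ * _
  unfold cB tB
  rw [aB_mul, R.mul]

/-- the vertices -/
def Q1 : Sys G (V × F) D.M :=
  mkS D.M (MulAction.toPermHom G V) (fun _ _ u => u) (fun g v _ => D.α g v)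
    (fun _ _ => rfl) (fun _ _ _ _ => rfl) (fun g v _ => D.mem g v)
    (fun g h v _ => D.mul g h v)

/-- the conjugate of the transfer -/
def Q2 : Sys G (V × F) D.M :=
  mkS D.M (MulAction.toPermHom G V) (tB D R) (fun g v u => D.t⁻¹ * cB D R g v u * D.t)
    (tB_one D R) (tB_mul D R) (fun _ _ _ => D.conjN _ (R.memN _ _))
    (fun g h v u => by
      rw [cB_mul]
      group)

/-- the transfer -/
def Q3 : Sys G (V × F) D.M :=
  mkS D.M (MulAction.toPermHom G V) (tB D R) (cB D R)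
    (tB_one D R) (tB_mul D R) (fun _ _ _ => R.memM _ _) (cB_mul D R)

/-- the edges -/
def Q4 : Sys G (V × F) D.M :=
  mkS D.M D.st (fun _ _ u => u) (fun g v _ => D.t⁻¹ * D.κ g v * D.t)
    (fun _ _ => rfl) (fun _ _ _ _ => rfl) (fun g v _ => D.conjN _ (D.κmemN g v))
    (fun g h v _ => by
      rw [D.κmul]
      group)

open Classical in
/-- the exchange of the copies over the negative vertices -/
def sw (y : (V × F) ⊕ (V × F)) : (V × F) ⊕ (V × F) :=
  match y with
  | Sum.inl y => if D.neg y.1 then Sum.inr y else Sum.inl y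
  | Sum.inr y => if D.neg y.1 then Sum.inl y else Sum.inr y

variable {D} in
theorem sw_pos {y : V × F} (h : ¬ D.neg y.1) :
    sw D (Sum.inl y) = Sum.inl y ∧ sw D (Sum.inr y) = Sum.inr y := ⟨if_neg h, if_neg h⟩

variable {D} in
theorem sw_neg {y : V × F} (h : D.neg y.1) :
    sw D (Sum.inl y) = Sum.inr y ∧ sw D (Sum.inr y) = Sum.inl y := ⟨if_pos h, if_pos h⟩

theorem sw_sw (y : (V × F) ⊕ (V × F)) : sw D (sw D y) = y := by
  rcases y with y | y
  · by_cases h : D.neg y.1
    · rw [(sw_neg h).1, (sw_neg h).2]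
    · rw [(sw_pos h).1, (sw_pos h).1]
  · by_cases h : D.neg y.1
    · rw [(sw_neg h).2, (sw_neg h).1]
    · rw [(sw_pos h).2, (sw_pos h).2]

variable (F) in
/-- the exchange of the copies over the negative vertices -/
def SW : Equiv.Perm ((V × F) ⊕ (V × F)) := ⟨sw D, sw D, sw_sw D, sw_sw D⟩

/-- the first system of the pair -/
def W1 : Sys G ((V × F) ⊕ (V × F)) D.M := (Q1 D).sum (Q2 D R)

/-- the second system of the pair -/
def W2 : Sys G ((V × F) ⊕ (V × F)) D.M := ((Q3 D R).sum (Q4 D)).map (SW F D)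

/-- the bad points -/
def bd (F : Type w) (g : G) : Set (V × F) := {y | y.1 ∈ D.B g}

theorem sw_bad (g : G) (y : (V × F) ⊕ (V × F)) :
    SW F D y ∈ dbl (bd D F) g ↔ y ∈ dbl (bd D F) g := by
  change sw D y ∈ dbl (bd D F) g ↔ _
  rcases y with y | y
  · by_cases h : D.neg y.1
    · rw [(sw_neg h).1]
      exact Iff.rfl
    · rw [(sw_pos h).1]
  · by_cases h : D.neg y.1
    · rw [(sw_neg h).2]
      exact Iff.rfl
    · rw [(sw_pos h).2]

variable {D R}

theorem w_agree (g : G) (y : (V × F) ⊕ (V × F)) (hy : y ∉ dbl (bd D F) g) :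
    (W1 D R).act g y = (W2 D R).act g y ∧ (W1 D R).a g y = (W2 D R).a g y := by
  rcases y with ⟨v, u⟩ | ⟨v, u⟩
  · have hv : v ∉ D.B g := hy
    obtain ⟨h1, h2, h3, h4⟩ := D.agree g v hv
    by_cases h : D.neg v
    · have h5 : sw D (Sum.inl (v, u)) = Sum.inr (v, u) := (sw_neg h).1
      refine ⟨?_, Subtype.ext ?_⟩
      · change Sum.inl (g • v, u) = sw D (((Q3 D R).sum (Q4 D)).act g (sw D (Sum.inl (v, u))))
        rw [h5]
        change Sum.inl (g • v, u) = sw D (Sum.inr (D.st g v, u))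
        rw [h1]
        exact (sw_neg (y := (g • v, u)) (h2.2 h)).2.symm
      · change D.α g v = ((((Q3 D R).sum (Q4 D)).a g (sw D (Sum.inl (v, u))) : D.M) : G)
        rw [h5]
        exact (h4 h).symm
    · have h5 : sw D (Sum.inl (v, u)) = Sum.inl (v, u) := (sw_pos h).1
      have h6 : D.α g v ∈ D.N := by
        rw [← h3 h]
        exact D.κmemN g v
      obtain ⟨h7, h8⟩ := R.fix ⟨D.α g v, D.mem g v⟩ h6 u
      refine ⟨?_, Subtype.ext ?_⟩
      · change Sum.inl (g • v, u) = sw D (((Q3 D R).sum (Q4 D)).act g (sw D (Sum.inl (v, u))))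
        rw [h5]
        change Sum.inl (g • v, u) = sw D (Sum.inl (g • v, tB D R g v u))
        rw [show tB D R g v u = u from h7]
        exact (sw_pos (y := (g • v, u)) fun h9 => h (h2.1 h9)).1.symm
      · change D.α g v = ((((Q3 D R).sum (Q4 D)).a g (sw D (Sum.inl (v, u))) : D.M) : G)
        rw [h5]
        exact h8.symm
  · have hv : v ∉ D.B g := hy
    obtain ⟨h1, h2, h3, h4⟩ := D.agree g v hv
    by_cases h : D.neg v
    · have h5 : sw D (Sum.inr (v, u)) = Sum.inl (v, u) := (sw_neg h).2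
      have h6 : D.t * D.α g v * D.t⁻¹ ∈ D.M := by
        rw [← h4 h]
        have h7 : D.t * (D.t⁻¹ * D.κ g v * D.t) * D.t⁻¹ = D.κ g v := by group
        rw [h7]
        exact D.κmemM g v
      obtain ⟨h7, h8⟩ := R.kill ⟨D.α g v, D.mem g v⟩ h6 u
      have h9 : tB D R g v u = u := h7
      refine ⟨?_, Subtype.ext ?_⟩
      · change Sum.inr (g • v, tB D R g v u) =
          sw D (((Q3 D R).sum (Q4 D)).act g (sw D (Sum.inr (v, u))))
        rw [h5]
        change Sum.inr (g • v, tB D R g v u) = sw D (Sum.inl (g • v, tB D R g v u))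
        rw [h9]
        exact (sw_neg (y := (g • v, u)) (h2.2 h)).1.symm
      · change D.t⁻¹ * cB D R g v u * D.t =
          ((((Q3 D R).sum (Q4 D)).a g (sw D (Sum.inr (v, u))) : D.M) : G)
        rw [h5]
        change D.t⁻¹ * cB D R g v u * D.t = cB D R g v u
        rw [show cB D R g v u = 1 from h8]
        group
    · have h5 : sw D (Sum.inr (v, u)) = Sum.inr (v, u) := (sw_pos h).2
      have h6 : D.α g v ∈ D.N := by
        rw [← h3 h]
        exact D.κmemN g v
      obtain ⟨h7, h8⟩ := R.fix ⟨D.α g v, D.mem g v⟩ h6 u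
      have h9 : tB D R g v u = u := h7
      refine ⟨?_, Subtype.ext ?_⟩
      · change Sum.inr (g • v, tB D R g v u) =
          sw D (((Q3 D R).sum (Q4 D)).act g (sw D (Sum.inr (v, u))))
        rw [h5]
        change Sum.inr (g • v, tB D R g v u) = sw D (Sum.inr (D.st g v, u))
        rw [h9, h1]
        exact (sw_pos (y := (g • v, u)) fun h10 => h (h2.1 h10)).2.symm
      · change D.t⁻¹ * cB D R g v u * D.t =
          ((((Q3 D R).sum (Q4 D)).a g (sw D (Sum.inr (v, u))) : D.M) : G)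
        rw [h5]
        change D.t⁻¹ * cB D R g v u * D.t = D.t⁻¹ * D.κ g v * D.t
        rw [show cB D R g v u = D.α g v from h8, h3 h]

theorem mk_conj_inv (t c : G) : ConjClasses.mk (t⁻¹ * c * t) = ConjClasses.mk c := by
  rw [ConjClasses.mk_eq_mk_iff_isConj]
  exact isConj_iff.2 ⟨t, by group⟩

open Classical in
theorem setQ1 [Finite F] (C : ConjClasses G)
    (hV : ∀ g, ConjClasses.mk g = C → ∃ v : V, g • v = v) (g : G) :
    (({y | ((g • y.1 = y.1 ∧ y.2 = y.2) ∧ ConjClasses.mk (D.α g y.1) = C) ∧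
      y ∈ bd D F g} : Set (V × F)).ncard : ℂ) =
        if ConjClasses.mk g = C then (Nat.card F : ℂ) else 0 := by
  by_cases hg : ConjClasses.mk g = C
  · rw [if_pos hg]
    have h3 : ({y | ((g • y.1 = y.1 ∧ y.2 = y.2) ∧ ConjClasses.mk (D.α g y.1) = C) ∧
        y ∈ bd D F g} : Set (V × F)) =
        ({v | g • v = v ∧ v ∈ D.B g} : Set V) ×ˢ (Set.univ : Set F) := by
      ext y
      constructor
      · rintro ⟨⟨⟨h1, _⟩, _⟩, h2⟩
        exact ⟨⟨h1, h2⟩, Set.mem_univ _⟩
      · rintro ⟨⟨h1, h2⟩, _⟩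
        exact ⟨⟨⟨h1, rfl⟩, (D.cls g _ h1).trans hg⟩, h2⟩
    rw [h3, Set.ncard_prod, Set.ncard_univ, D.cnt g (hV g hg), one_mul]
  · rw [if_neg hg]
    have h3 : ({y | ((g • y.1 = y.1 ∧ y.2 = y.2) ∧ ConjClasses.mk (D.α g y.1) = C) ∧
        y ∈ bd D F g} : Set (V × F)) = ∅ := by
      refine Set.eq_empty_of_forall_notMem ?_
      rintro y ⟨⟨⟨h1, _⟩, h2⟩, _⟩
      exact hg ((D.cls g _ h1).symm.trans h2)
    rw [h3, Set.ncard_empty, Nat.cast_zero]

variable (D F) in
/-- the count of the first system -/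
def NQ1 (C : ConjClasses G) (g : G) : ℕ :=
  ({y | ((g • y.1 = y.1 ∧ y.2 = y.2) ∧ ConjClasses.mk (D.α g y.1) = C) ∧
    y ∈ bd D F g} : Set (V × F)).ncard

variable (D R) in
/-- the count of the third system -/
def NQ3 (C : ConjClasses G) (g : G) : ℕ :=
  ({y | ((g • y.1 = y.1 ∧ tB D R g y.1 y.2 = y.2) ∧
    ConjClasses.mk (cB D R g y.1 y.2) = C) ∧ y ∈ bd D F g} : Set (V × F)).ncard

theorem setQ2 (C : ConjClasses G) (g : G) :
    ({y | ((g • y.1 = y.1 ∧ tB D R g y.1 y.2 = y.2) ∧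
      ConjClasses.mk (D.t⁻¹ * cB D R g y.1 y.2 * D.t) = C) ∧ y ∈ bd D F g} : Set (V × F)) =
    {y | ((g • y.1 = y.1 ∧ tB D R g y.1 y.2 = y.2) ∧
      ConjClasses.mk (cB D R g y.1 y.2) = C) ∧ y ∈ bd D F g} := by
  refine Set.ext fun y => ?_
  refine and_congr_left fun _ => and_congr_right fun _ => ?_
  rw [mk_conj_inv]

theorem setQ4 {C : ConjClasses G} (hC1 : C ≠ ConjClasses.mk 1) (g : G) :
    ({y | ((D.st g y.1 = y.1 ∧ y.2 = y.2) ∧
      ConjClasses.mk (D.t⁻¹ * D.κ g y.1 * D.t) = C) ∧ y ∈ bd D F g} : Set (V × F)) = ∅ := by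
  refine Set.eq_empty_of_forall_notMem ?_
  rintro y ⟨⟨⟨h1, _⟩, h2⟩, h3⟩
  rw [mk_conj_inv, D.triv g y.1 h1 h3] at h2
  exact hC1 h2.symm

/-- **The elliptic classes.** -/
theorem hnn_classes [Finite F] [Nonempty F] (ν : G → ℕ) (hν : ∀ g h, ν (g * h) ≤ ν g + ν h)
    (hB : ∀ g, (D.B g).ncard ≤ ν g + 1) (R : Vh D.M D.N D.t F) (hM : L1Bass D.M)
    {q : ℕ} (e : Matrix (Fin q) (Fin q) (G → ℂ)) (he : IsIdem e) :
    ∃ S : Finset (ConjClasses G), (∀ C ∈ S, IsTorsionClass C) ∧
      ∀ C ∉ S, (∀ g, ConjClasses.mk g = C → ∃ v : V, g • v = v) → tau C e = 0 := by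
  classical
  obtain ⟨e₁, he₁, hdec, htau⟩ := exists_dec (fun g => Nat.card F * (ν g + 1)) (fun g h => by
    have h1 := hν g h
    have h2 : ν (g * h) + 1 ≤ (ν g + 1) + (ν h + 1) := by omega
    exact (Nat.mul_le_mul_left _ h2).trans (Nat.mul_add _ _ _).le) e he
  have hfin : ∀ g, (bd D F g).Finite := fun g => by
    refine ((D.fin g).prod (Set.finite_univ (α := F))).subset fun y hy => ?_
    exact ⟨hy, Set.mem_univ _⟩
  have hcard : ∀ g, (bd D F g).ncard = (D.B g).ncard * Nat.card F := fun g => by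
    have h : (bd D F g : Set (V × F)) = D.B g ×ˢ (Set.univ : Set F) := by
      ext y
      exact ⟨fun h => ⟨h, Set.mem_univ _⟩, fun h => h.1⟩
    rw [h, Set.ncard_prod, Set.ncard_univ]
  have hle : ∀ g, (bd D F g).ncard ≤ Nat.card F * (ν g + 1) := fun g => by
    refine (hcard g).le.trans ?_
    rw [mul_comm]
    exact Nat.mul_le_mul_left _ (hB g)
  have hs : Summable fun g => sm (toFn e₁ g) * ((bd D F g).ncard : ℝ) := by
    refine Summable.of_nonneg_of_le (fun g => mul_nonneg (sm_nonneg _) (Nat.cast_nonneg _))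
      (fun g => ?_) (sm_dec hdec)
    exact mul_le_mul_of_nonneg_left (Nat.cast_le.2 (hle g)) (sm_nonneg _)
  have hs2 : Summable fun g => sm (toFn e₁ g) * ((dbl (bd D F) g).ncard : ℝ) := by
    refine (hs.add hs).congr fun g => ?_
    rw [dbl_ncard hfin, Nat.cast_add, mul_add]
  obtain ⟨S₁, h1, h2⟩ := pair_big hM D.M.subtype (W1 D R) (W2 D R) (dbl_finite hfin) w_agree
    he₁ hs2
  refine ⟨insert (ConjClasses.mk 1) S₁, fun C hC => ?_, fun C hC hV => ?_⟩
  · rcases Finset.mem_insert.1 hC with rfl | hC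
    · intro g hg
      have h5 := ConjClasses.mem_carrier_iff_mk_eq.1 hg
      have h6 : IsConj 1 g := ConjClasses.mk_eq_mk_iff_isConj.1 h5.symm
      rw [isConj_one_right.1 h6]
      exact IsOfFinOrder.one
    · exact h1 C hC
  have hC1 : C ≠ ConjClasses.mk 1 := fun h => hC (h ▸ Finset.mem_insert_self _ _)
  have e12 := h2 C fun h => hC (Finset.mem_insert_of_mem h)
  have b1 : (Q1 D (F := F)).big D.M.subtype (bd D F) e₁ C =
      ∑' g, (∑ i, e₁ i i g) * ((NQ1 F D C g : ℕ) : ℂ) :=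
    mkS_big (bd D F) e₁ C (NQ1 F D C) fun _ => rfl
  have b1' : ∑' g, (∑ i, e₁ i i g) * ((NQ1 F D C g : ℕ) : ℂ) = (Nat.card F : ℂ) * tau C e₁ := by
    unfold tau
    rw [tsum_subtype C.carrier fun g => ∑ i, e₁ i i g, ← tsum_mul_left]
    refine tsum_congr fun g => ?_
    refine (congrArg (fun z : ℂ => (∑ i, e₁ i i g) * z) (setQ1 (F := F) C hV g)).trans ?_
    by_cases hg : ConjClasses.mk g = C
    · rw [if_pos hg, Set.indicator_of_mem (ConjClasses.mem_carrier_iff_mk_eq.2 hg)]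
      ring
    · rw [if_neg hg, mul_zero,
        Set.indicator_of_notMem fun h => hg (ConjClasses.mem_carrier_iff_mk_eq.1 h), mul_zero]
  have b2 : (Q2 D R).big D.M.subtype (bd D F) e₁ C =
      ∑' g, (∑ i, e₁ i i g) * ((NQ3 D R C g : ℕ) : ℂ) :=
    mkS_big (bd D F) e₁ C (NQ3 D R C) fun g => congrArg Set.ncard (setQ2 C g)
  have b3 : (Q3 D R).big D.M.subtype (bd D F) e₁ C =
      ∑' g, (∑ i, e₁ i i g) * ((NQ3 D R C g : ℕ) : ℂ) :=
    mkS_big (bd D F) e₁ C (NQ3 D R C) fun _ => rfl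
  have b23 := b2.trans b3.symm
  have b4 : (Q4 D (F := F)).big D.M.subtype (bd D F) e₁ C = 0 := by
    have b5 : (Q4 D (F := F)).big D.M.subtype (bd D F) e₁ C =
        ∑' g, (∑ i, e₁ i i g) * ((0 : ℕ) : ℂ) :=
      mkS_big (bd D F) e₁ C (fun _ => 0) fun g =>
        (congrArg Set.ncard (setQ4 (D := D) (F := F) hC1 g)).trans (Set.ncard_empty _)
    rw [b5]
    refine (tsum_congr fun g => ?_).trans tsum_zero
    rw [Nat.cast_zero, mul_zero]
  have w1 : (W1 D R).big D.M.subtype (dbl (bd D F)) e₁ C =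
      (Q1 D (F := F)).big D.M.subtype (bd D F) e₁ C +
        (Q2 D R).big D.M.subtype (bd D F) e₁ C := big_sum _ _ _ hfin hs C
  have w2 : (W2 D R).big D.M.subtype (dbl (bd D F)) e₁ C =
      (Q3 D R).big D.M.subtype (bd D F) e₁ C +
        (Q4 D (F := F)).big D.M.subtype (bd D F) e₁ C :=
    (big_map _ _ _ (sw_bad D) e₁ C).trans (big_sum _ _ _ hfin hs C)
  rw [w1, w2, b23, b4, add_zero] at e12
  have e3 : (Nat.card F : ℂ) * tau C e₁ = 0 := by
    rw [← b1', ← b1]
    exact add_eq_right.1 e12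
  rw [← htau C]
  rcases mul_eq_zero.1 e3 with h | h
  · exact absurd (Nat.cast_eq_zero.1 h) (Nat.card_pos (α := F)).ne'
  · exact h

end

end Vale.Agent.P184.H788
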