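import Vale.Agent.P184.H788.VR
import Vale.Agent.P184.H290.Tree2

/-!
# P184: the Bass conjecture for actions on trees with one virtual retract
-/

noncomputable section

namespace Vale.Agent.P184.H788

open Vale.Agent.P184 (IsIdem tau toFn L1Bass IsTorsionClass vanishesAt_of_charged)
open Vale.Agent.P184.H290.Tree
open MulAction (orbit stabilizer)

universe u v w

section

variable {G : Type u} {V : Type v} [Group G] [MulAction G V] {T : SimpleGraph V}

/-- the bad vertices -/
def Bd (T : SimpleGraph V) (a : V) (g : G) : Set V :=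
  {v | v = a ∨ par T a (g • v) ≠ g • par T a v}

/-- the tree package -/
def TreePack (G : Type u) {V : Type v} [Group G] [MulAction G V] (T : SimpleGraph V)
    (a b : V) : Prop :=
  (∃ (s : V → G) (star : G →* Equiv.Perm V) (κ : G → V → G),
    (∀ (g : G) v, v ∈ orbit G a → (s (g • v))⁻¹ * g * s v ∈ stabilizer G a) ∧
    (∀ (g : G) v, v ∈ orbit G b → (s (g • v))⁻¹ * g * s v ∈ stabilizer G b) ∧
    (∀ g h v, κ (g * h) v = κ g (star h v) * κ h v) ∧
    (∀ g v, κ g v ∈ stabilizer G a ⊓ stabilizer G b) ∧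
    (∀ (g : G) v, v ∉ Bd T a g → star g v = g • v ∧ κ g v = (s (g • v))⁻¹ * g * s v) ∧
    (∀ g v, star g v = v → v ∈ Bd T a g → κ g v = 1)) ∧
  (∀ g : G, (Bd T a g).Finite) ∧
  (∃ ν : G → ℕ, (∀ g h, ν (g * h) ≤ ν g + ν h) ∧ ∀ g, (Bd T a g).ncard ≤ ν g + 1) ∧
  ∀ g : G, (∃ v : V, g • v = v) → ({v | g • v = v ∧ v ∈ Bd T a g} : Set V).ncard = 1

theorem vr1_of (hT : T.IsTree) (hadj : ∀ (g : G) u v, T.Adj u v → T.Adj (g • u) (g • v))
    (a b : V) (hV : ∀ v, (∃ g : G, g • a = v) ∨ ∃ g : G, g • b = v) (hne : ∀ g : G, g • a ≠ b)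
    (hE : ∀ u v, T.Adj u v → (∃ g : G, g • a = u ∧ g • b = v) ∨ ∃ g : G, g • a = v ∧ g • b = u)
    (hp : TreePack G T a b)
    (F : Type w) [Finite F] [Nonempty F] [MulAction (stabilizer G a) F]
    (β : stabilizer G a → F → G) (hβ : ∀ l u, β l u ∈ stabilizer G a ⊓ stabilizer G b)
    (hmul : ∀ l m u, β (l * m) u = β l (m • u) * β m u)
    (hA : ∀ l : stabilizer G a, (l : G) • b = b → ∀ u, l • u = u ∧ β l u = l)
    (h1 : L1Bass (stabilizer G a)) (h2 : L1Bass (stabilizer G b)) : L1Bass G := by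
  classical
  obtain ⟨⟨s, star, κ, p1, p2, p3, p4, p5, p6⟩, p7, ⟨ν, p8, p9⟩, p10⟩ := hp
  have hor : ∀ (g : G) v, g • v ∈ orbit G a ↔ v ∈ orbit G a := fun g v =>
    ⟨fun ⟨k, hk⟩ => ⟨g⁻¹ * k, by
      change (g⁻¹ * k) • a = v
      rw [mul_smul, show k • a = g • v from hk, inv_smul_smul]⟩,
    fun ⟨k, hk⟩ => ⟨g * k, by
      change (g * k) • a = g • v
      rw [mul_smul, show k • a = v from hk]⟩⟩
  have hob : ∀ v, v ∉ orbit G a → v ∈ orbit G b := fun v hv => by
    rcases hV v with h | h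
    · exact absurd h hv
    · exact h
  let D : Pk G V :=
    { P := fun v => v ∈ orbit G a
      La := stabilizer G a
      Lb := stabilizer G b
      B := Bd T a
      α := fun g v => (s (g • v))⁻¹ * g * s v
      st := star
      κ := κ
      P_iff := hor
      mul := fun g h v => by
        rw [mul_smul]
        group
      memA := p1
      memB := fun g v h => p2 g v (hob v h)
      cls := fun g v h => by
        rw [h, ConjClasses.mk_eq_mk_iff_isConj, isConj_comm]
        exact isConj_iff.2 ⟨(s v)⁻¹, by group⟩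
      κmul := p3
      κmemA := fun g v => (p4 g v).1
      κmemB := fun g v => (p4 g v).2
      agree := p5
      triv := p6
      fin := p7
      cnt := p10 }
  let R : Vr D.La D.Lb F :=
    { m := MulAction.toPermHom (stabilizer G a) F
      β := β
      mul := hmul
      memA := fun l u => (hβ l u).1
      memB := fun l u => (hβ l u).2
      fix := fun l hl u => hA l hl u }
  intro q e he
  obtain ⟨S, hS, hS2⟩ := elliptic_classes (D := D) ν p8 p9 R h1 h2 e he
  refine ⟨S, hS, fun C hC => ?_⟩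
  obtain ⟨t, rfl⟩ := ConjClasses.exists_rep C
  by_cases ht : ∃ v : V, t • v = v
  · refine hS2 _ hC fun g hg => ?_
    obtain ⟨v, hv⟩ := ht
    obtain ⟨c, hc⟩ := isConj_iff.1 (ConjClasses.mk_eq_mk_iff_isConj.1 hg)
    refine ⟨c⁻¹ • v, ?_⟩
    have h3 : g = c⁻¹ * t * c := by
      rw [← hc]
      group
    rw [h3, mul_smul, mul_smul, smul_inv_smul, hv]
  · have ht' : ∀ v : V, t • v ≠ v := fun v hv => ht ⟨v, hv⟩
    refine vanishesAt_of_charged (charged_of_free hT hadj t ht' fun v hv => ?_) q e he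
    exfalso
    have key : ∀ g : G, g • b ∉ orbit G a := fun g hg => by
      obtain ⟨k, hk⟩ := (hor g b).1 hg
      exact hne k hk
    rcases hE v (t • v) hv with ⟨g, h3, h4⟩ | ⟨g, h3, h4⟩
    · refine key g ?_
      rw [h4]
      exact (hor t v).2 ⟨g, h3⟩
    · refine key g ?_
      rw [h4]
      exact (hor t v).1 ⟨g, h3⟩

end

end Vale.Agent.P184.H788
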