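import Vale.Agent.P184.H788.VH
import Vale.Agent.P184.H788.VR1

/-!
# P184: HNN extensions, one virtual retract, the tree form
-/

noncomputable section

namespace Vale.Agent.P184.H788

open Vale.Agent.P184 (IsIdem tau toFn L1Bass IsTorsionClass vanishesAt_of_charged)
open Vale.Agent.P184.H290.Tree
open MulAction (orbit stabilizer)

universe u v w

/-- the tree package -/
def TreePackH (G : Type u) {V : Type v} [Group G] [MulAction G V] (T : SimpleGraph V)
    (a : V) (t : G) : Prop :=
  ∃ (neg : V → Prop) (s : V → G) (star : G →* Equiv.Perm V) (κ : G → V → G) (ν : G → ℕ),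
    (∀ v, s v • a = v) ∧
    (∀ g h v, κ (g * h) v = κ g (star h v) * κ h v) ∧
    (∀ g v, κ g v ∈ stabilizer G a ⊓ stabilizer G (t • a)) ∧
    (∀ (g : G) v, v ∉ Bd T a g → star g v = g • v ∧ (neg (g • v) ↔ neg v) ∧
      (¬ neg v → κ g v = (s (g • v))⁻¹ * g * s v) ∧
      (neg v → t⁻¹ * κ g v * t = (s (g • v))⁻¹ * g * s v)) ∧
    (∀ g v, star g v = v → v ∈ Bd T a g → κ g v = 1) ∧
    (∀ g : G, (Bd T a g).Finite) ∧ (∀ g h, ν (g * h) ≤ ν g + ν h) ∧
    (∀ g, (Bd T a g).ncard ≤ ν g + 1) ∧
    (∀ g : G, (∃ v : V, g • v = v) → ({v | g • v = v ∧ v ∈ Bd T a g} : Set V).ncard = 1)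

variable {G : Type u} {V : Type v} [Group G] [MulAction G V] {T : SimpleGraph V}

theorem vh_of (hT : T.IsTree) (hadj : ∀ (g : G) u v, T.Adj u v → T.Adj (g • u) (g • v))
    (a : V) (t : G)
    (hinv : ∀ (g : G) v, T.Adj v (g • v) → g • g • v ≠ v)
    (hp : TreePackH G T a t)
    (F : Type w) [Finite F] [Nonempty F]
    (R : Vh (stabilizer G a) (stabilizer G (t • a)) t F)
    (h1 : L1Bass (stabilizer G a)) : L1Bass G := by
  classical
  obtain ⟨neg, s, star, κ, ν, p0, p3, p4, p5, p6, p7, p8, p9, p10⟩ := hp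
  have hconj : ∀ x ∈ stabilizer G (t • a), t⁻¹ * x * t ∈ stabilizer G a := fun x hx => by
    rw [MulAction.mem_stabilizer_iff] at hx ⊢
    rw [mul_smul, mul_smul, hx, inv_smul_smul]
  let D : Pn G V :=
    { neg := neg
      M := stabilizer G a
      N := stabilizer G (t • a)
      t := t
      B := Bd T a
      α := fun g v => (s (g • v))⁻¹ * g * s v
      st := star
      κ := κ
      mul := fun g h v => by
        rw [mul_smul]
        group
      mem := fun g v => by
        rw [MulAction.mem_stabilizer_iff, mul_smul, mul_smul, p0, inv_smul_eq_iff, p0]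
      cls := fun g v h => by
        rw [h, ConjClasses.mk_eq_mk_iff_isConj, isConj_comm]
        exact isConj_iff.2 ⟨(s v)⁻¹, by group⟩
      κmul := p3
      κmemM := fun g v => (p4 g v).1
      κmemN := fun g v => (p4 g v).2
      conjN := hconj
      agree := p5
      triv := p6
      fin := p7
      cnt := p10 }
  intro q e he
  obtain ⟨S, hS, hS2⟩ := hnn_classes (D := D) ν p8 p9 R h1 e he
  refine ⟨S, hS, fun C hC => ?_⟩
  obtain ⟨x, rfl⟩ := ConjClasses.exists_rep C
  by_cases hx : ∃ v : V, x • v = v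
  · refine hS2 _ hC fun g hg => ?_
    obtain ⟨v, hv⟩ := hx
    obtain ⟨c, hc⟩ := isConj_iff.1 (ConjClasses.mk_eq_mk_iff_isConj.1 hg)
    refine ⟨c⁻¹ • v, ?_⟩
    have h3 : g = c⁻¹ * x * c := by
      rw [← hc]
      group
    rw [h3, mul_smul, mul_smul, smul_inv_smul, hv]
  · exact vanishesAt_of_charged
      (charged_of_free hT hadj x (fun v hv => hx ⟨v, hv⟩) (hinv x)) q e he

end Vale.Agent.P184.H788
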