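import Vale.Agent.P184.H788.VH1
import Vale.Agent.P184.H11.Hnn
import Vale.Agent.P184.H856.VRMain

/-!
# P184: HNN extensions, one virtual retract, the group form
-/

noncomputable section

namespace Vale.Agent.P184.H788

open Vale.Agent.P184 Vale.Agent.P184.H856 HNNExtension
open Vale.Agent.P184.H11.Hnn (Vt Tr mk mk_eq expo smul_mk stabEquiv inter)
open MulAction (orbit stabilizer)

universe u v w

variable {G : Type u} [Group G] {A B : Subgroup G} (φ : A ≃* B)

theorem mem_st {x : HNNExtension G A B φ} : x ∈ stabilizer (HNNExtension G A B φ) (mk φ 1) ↔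
    ∃ g : G, x = of g := by
  rw [MulAction.mem_stabilizer_iff, smul_mk, mul_one]
  constructor
  · intro h
    obtain ⟨g, hg⟩ := (mk_eq φ).1 h.symm
    exact ⟨g, by rw [hg, one_mul]⟩
  · rintro ⟨g, rfl⟩
    exact ((mk_eq φ).2 ⟨g, (one_mul _).symm⟩).symm

theorem mem_st' {x : HNNExtension G A B φ} :
    x ∈ stabilizer (HNNExtension G A B φ) ((t : HNNExtension G A B φ) • mk φ 1) ↔
      ∃ g : G, t⁻¹ * x * t = of g := by
  rw [← mem_st φ, MulAction.mem_stabilizer_iff, MulAction.mem_stabilizer_iff, mul_smul,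
    mul_smul, inv_smul_eq_iff]

theorem hinv_hnn (x : HNNExtension G A B φ) (v : Vt φ) (h : (Tr φ).Adj v (x • v)) :
    x • x • v ≠ v := by
  intro h2
  obtain ⟨y, rfl⟩ := QuotientGroup.mk_surjective v
  have key : ∀ z w : HNNExtension G A B φ, mk φ z = mk φ w → expo φ z = expo φ w := by
    intro z w hzw
    obtain ⟨g, rfl⟩ := (mk_eq φ).1 hzw
    rw [map_mul]
    unfold expo
    rw [lift_of]
    exact (mul_one _).symm
  have ht : expo φ t = Multiplicative.ofAdd 1 := by
    unfold expo
    rw [lift_t]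
  have h3 : mk φ (x * (x * y)) = mk φ y := h2
  have h4 := key _ _ h3
  rw [map_mul, map_mul] at h4
  have h4' := congrArg Multiplicative.toAdd h4
  rw [toAdd_mul, toAdd_mul] at h4'
  obtain ⟨z, ⟨h5, h6⟩ | ⟨h5, h6⟩⟩ := h
  · have h7 := congrArg Multiplicative.toAdd (key _ _ h5)
    have h8 : mk φ (x * y) = mk φ (z * t) := h6
    have h9 := key _ _ h8
    rw [map_mul, map_mul, ht] at h9
    have h10 := congrArg Multiplicative.toAdd h9
    rw [toAdd_mul, toAdd_mul, toAdd_ofAdd] at h10
    omega
  · have h7 : mk φ (x * y) = mk φ z := h5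
    have h8 := key _ _ h7
    have h9 := key _ _ h6
    rw [map_mul] at h8 h9
    rw [ht] at h9
    have h10 := congrArg Multiplicative.toAdd h8
    have h11 := congrArg Multiplicative.toAdd h9
    rw [toAdd_mul] at h10 h11
    rw [toAdd_ofAdd] at h11
    omega

/-- **HNN extensions, one virtual retract.** -/
theorem hnn_of {K : Type v} [Group K] (r : G →* K) (hr : ∀ a ∈ A, r a = 1)
    (hV : VirtRetract (r.comp B.subtype))
    (hp : TreePackH (HNNExtension G A B φ) (Tr φ) (mk φ 1) t) (h : L1Bass G) :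
    L1Bass (HNNExtension G A B φ) := by
  obtain ⟨F, _, _, _, c, hc, hf⟩ := hV.system
  have hc1 : ∀ u, c 1 u = 1 := by
    intro u
    have h := hc 1 1 u
    rw [one_mul, one_smul] at h
    exact (mul_eq_left.1 h.symm)
  let e := stabEquiv φ
  have he : ∀ g, ((e g : stabilizer (HNNExtension G A B φ) (mk φ 1)) :
    HNNExtension G A B φ) = of g := fun g => rfl
  have he' : ∀ l : stabilizer (HNNExtension G A B φ) (mk φ 1), (l : HNNExtension G A B φ) =
    of (e.symm l) := fun l => by rw [← he, MulEquiv.apply_symm_apply]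
  let R : Vh (stabilizer (HNNExtension G A B φ) (mk φ 1))
      (stabilizer (HNNExtension G A B φ) ((t : HNNExtension G A B φ) • mk φ 1)) t F :=
    { m := (MulAction.toPermHom K F).comp (r.comp e.symm.toMonoidHom)
      β := fun l u => of ((c (r (e.symm l)) u : B) : G)
      mul := fun l k u => by
        change of ((c (r (e.symm (l * k))) u : B) : G) =
          of ((c (r (e.symm l)) (r (e.symm k) • u) : B) : G) * of ((c (r (e.symm k)) u : B) : G)
        rw [map_mul, map_mul, hc, Subgroup.coe_mul, map_mul]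
      memM := fun l u => (mem_st φ).2 ⟨_, rfl⟩
      memN := fun l u => (mem_st' φ).2
        ⟨_, (equiv_symm_eq_conj (φ := φ) (c (r (e.symm l)) u)).symm⟩
      fix := fun l hl u => by
        obtain ⟨g', hg'⟩ := (mem_st' φ).1 hl
        have h1 : (t : HNNExtension G A B φ) * of g' * t⁻¹ = of (e.symm l) := by
          rw [← hg', ← he']
          group
        have h2 : g' ∈ A := inter φ h1
        have h3 : of (e.symm l) = (of ((φ ⟨g', h2⟩ : B) : G) : HNNExtension G A B φ) := by
          rw [equiv_eq_conj, ← h1]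
        have h4 : e.symm l = ((φ ⟨g', h2⟩ : B) : G) := HNNExtension.of_injective (φ := φ) h3
        obtain ⟨h5, h6⟩ := hf (φ ⟨g', h2⟩) u
        have h7 : r (e.symm l) = r.comp B.subtype (φ ⟨g', h2⟩) := by
          rw [h4]
          rfl
        refine ⟨?_, ?_⟩
        · change r (e.symm l) • u = u
          rw [h7, h5]
        · rw [h7, h6, he', h4]
      kill := fun l hl u => by
        obtain ⟨g, hg⟩ := (mem_st φ).1 hl
        rw [he'] at hg
        have h2 : e.symm l ∈ A := inter φ hg
        refine ⟨?_, ?_⟩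
        · change r (e.symm l) • u = u
          rw [hr _ h2, one_smul]
        · rw [hr _ h2, hc1, Subgroup.coe_one, map_one] }
  exact vh_of (H11.Hnn.isTree φ) (H11.Hnn.hadj φ) (mk φ 1) t (hinv_hnn φ) hp F R
    (H11.TreeRed.l1Bass_equiv e.symm h)

end Vale.Agent.P184.H788
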