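import Vale.Agent.P184.H788.VH2
import Vale.Agent.P184.H74.PackH
import Vale.Agent.P184.H290.Am

/-!
# P184: HNN extensions, one virtual retract, final form
-/

noncomputable section

namespace Vale.Agent.P184.H788

open Vale.Agent.P184 Vale.Agent.P184.H856 HNNExtension
open Vale.Agent.P184.H11.Hnn (Vt Tr mk mk_eq expo smul_mk stabEquiv inter)

universe u v

theorem packH {G : Type u} [Group G] {A B : Subgroup G} (φ : A ≃* B) :
    TreePackH (HNNExtension G A B φ) (Tr φ) (mk φ 1) t := by
  have ht : (t : HNNExtension G A B φ) • mk φ 1 = mk φ t := by rw [smul_mk, mul_one]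
  have hx : ∀ x : HNNExtension G A B φ, x • mk φ 1 = mk φ x := fun x => by
    rw [smul_mk, mul_one]
  have hadj1 : (Tr φ).Adj (mk φ 1) ((t : HNNExtension G A B φ) • mk φ 1) := by
    have h := H11.Hnn.adj_t φ 1
    rw [one_mul] at h
    rw [ht]
    exact h
  obtain ⟨neg, s, star, κ, ν, p1, p2, p3, p4, p5, p6, p7, p8, p9, _⟩ :=
    H74.Hnn.pack (a := mk φ 1) (t := (t : HNNExtension G A B φ)) (H11.Hnn.isTree φ)
      (H11.Hnn.hadj φ)
      (fun v => by
        obtain ⟨x, rfl⟩ := QuotientGroup.mk_surjective v
        exact ⟨x, hx x⟩)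
      (fun a b h => by
        obtain ⟨x, ⟨h1, h2⟩ | ⟨h1, h2⟩⟩ := h
        · exact Or.inl ⟨x, by rw [hx, h1], by rw [ht, smul_mk, h2]⟩
        · exact Or.inr ⟨x, by rw [hx, h1], by rw [ht, smul_mk, h2]⟩)
      (by
        rintro ⟨g, h1, h2⟩
        refine hinv_hnn φ g (mk φ 1) ?_ ?_
        · rw [h1]
          exact hadj1
        · rw [h1, h2])
  exact ⟨neg, s, star, κ, ν, p1, p2, p3, p4, p5, p6, p7, p8, p9⟩

/-- **HNN extensions, one virtual retract**: `r` is a homomorphism of the base group, trivial on
one associated subgroup, and the other one is a virtual retract of its target. -/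
theorem hnn_virt {G : Type u} [Group G] {A B : Subgroup G} (φ : A ≃* B) {K : Type v} [Group K]
    (r : G →* K) (hr : ∀ a ∈ A, r a = 1) (hV : VirtRetract (r.comp B.subtype))
    (h : L1Bass G) : L1Bass (HNNExtension G A B φ) :=
  hnn_of φ r hr hV (packH φ) h

/-- **HNN extensions, detected by a finitely generated abelian group.** -/
theorem hnn_abelian {G : Type u} [Group G] {A B : Subgroup G} (φ : A ≃* B) {K : Type v}
    [AddCommGroup K] [Module.Finite ℤ K] (χ : G →* Multiplicative K)
    (hA : ∀ a ∈ A, χ a = 1) (hB : ∀ b ∈ B, χ b = 1 → b = 1)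
    (h : L1Bass G) : L1Bass (HNNExtension G A B φ) := by
  refine hnn_virt φ χ hA (virtRetract_abelian (MonoidHom.id (Multiplicative K)) ?_) h
  refine (injective_iff_map_eq_one _).2 fun b hb => ?_
  exact Subtype.ext (hB b b.2 hb)

/-! ### the other orientation -/

/-- the inverse of the stable letter -/
def flip {G : Type u} [Group G] {A B : Subgroup G} (φ : A ≃* B) :
    HNNExtension G A B φ →* HNNExtension G B A φ.symm :=
  lift of t⁻¹ fun a => by
    have h := t_mul_of (φ := φ.symm) (φ a)
    rw [MulEquiv.symm_apply_apply] at h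
    rw [inv_mul_eq_iff_eq_mul, ← mul_assoc, h, mul_inv_cancel_right]

theorem flip_flip {G : Type u} [Group G] {A B : Subgroup G} (φ : A ≃* B)
    (x : HNNExtension G A B φ) : flip φ.symm (flip φ x) = x := by
  have h : (flip φ.symm).comp (flip φ) = MonoidHom.id (HNNExtension G A B φ) := by
    refine HNNExtension.hom_ext ?_ ?_
    · refine MonoidHom.ext fun g => ?_
      change flip φ.symm (flip φ (of g)) = of g
      unfold flip
      rw [lift_of, lift_of]
    · change flip φ.symm (flip φ t) = t
      unfold flip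
      rw [lift_t, map_inv, lift_t, inv_inv]
  exact DFunLike.congr_fun h x

/-- **HNN extensions, one virtual retract**, the other orientation. -/
theorem hnn_virt' {G : Type u} [Group G] {A B : Subgroup G} (φ : A ≃* B) {K : Type v} [Group K]
    (r : G →* K) (hr : ∀ b ∈ B, r b = 1) (hV : VirtRetract (r.comp A.subtype))
    (h : L1Bass G) : L1Bass (HNNExtension G A B φ) :=
  H290.l1Bass_retract (flip φ) (flip φ.symm) (flip_flip φ) (hnn_virt φ.symm r hr hV h)

end Vale.Agent.P184.H788
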