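import Vale.Agent.P184.H788.VK
import Vale.Agent.P184.H788.VH3

/-!
# P184: HNN extensions, one virtual retract, with a spectator
-/

noncomputable section

namespace Vale.Agent.P184.H788.K

open Vale.Agent.P184 (IsIdem tau toFn L1Bass IsTorsionClass vanishesAt_of_charged)
open Vale.Agent.P184.H290.Tree
open MulAction (orbit stabilizer)

universe u v w x

section

variable {G : Type u} {V : Type v} [Group G] [MulAction G V] {T : SimpleGraph V}

theorem vh_of (hT : T.IsTree) (hadj : ∀ (g : G) u v, T.Adj u v → T.Adj (g • u) (g • v))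
    (a : V) (t : G)
    (hinv : ∀ (g : G) v, T.Adj v (g • v) → g • g • v ≠ v)
    (hp : TreePackH G T a t)
    (F : Type w) [Finite F] [Nonempty F]
    (R : Vh (stabilizer G a) (stabilizer G (t • a)) t F)
    (h1 : L1Bass (stabilizer G a)) : L1Bass G := by
  classical
  obtain ⟨neg, s, star, κ, ν, p0, p3, p4, p5, p6, p7, p8, p9, p10⟩ := hp
  have hconj : ∀ x ∈ stabilizer G (t • a), t⁻¹ * x * t ∈ stabilizer G a := fun x hx => by
    rw [MulAction.mem_stabilizer_iff] at hx ⊢
    rw [mul_smul, mul_smul, hx, inv_smul_smul]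
  let D : Pn G V :=
    { neg := neg
      M := stabilizer G a
      N := stabilizer G (t • a)
      t := t
      B := Bd T a
      α := fun g v => (s (g • v))⁻¹ * g * s v
      st := star
      κ := κ
      mul := fun g h v => by
        rw [mul_smul]
        group
      mem := fun g v => by
        rw [MulAction.mem_stabilizer_iff, mul_smul, mul_smul, p0, inv_smul_eq_iff, p0]
      cls := fun g v h => by
        rw [h, ConjClasses.mk_eq_mk_iff_isConj, isConj_comm]
        exact isConj_iff.2 ⟨(s v)⁻¹, by group⟩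
      κmul := p3
      κmemM := fun g v => (p4 g v).1
      κmemN := fun g v => (p4 g v).2
      conjN := hconj
      agree := p5
      triv := p6
      fin := p7
      cnt := p10 }
  intro q e he
  obtain ⟨S, hS, hS2⟩ := hnn_classes (D := D) ν p8 p9 R h1 e he
  refine ⟨S, hS, fun C hC => ?_⟩
  obtain ⟨x, rfl⟩ := ConjClasses.exists_rep C
  by_cases hx : ∃ v : V, x • v = v
  · refine hS2 _ hC fun g hg => ?_
    obtain ⟨v, hv⟩ := hx
    obtain ⟨c, hc⟩ := isConj_iff.1 (ConjClasses.mk_eq_mk_iff_isConj.1 hg)
    refine ⟨c⁻¹ • v, ?_⟩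
    have h3 : g = c⁻¹ * x * c := by
      rw [← hc]
      group
    rw [h3, mul_smul, mul_smul, smul_inv_smul, hv]
  · exact vanishesAt_of_charged
      (charged_of_free hT hadj x (fun v hv => hx ⟨v, hv⟩) (hinv x)) q e he

end

open Vale.Agent.P184.H856 HNNExtension
open Vale.Agent.P184.H11.Hnn (Vt Tr mk mk_eq expo smul_mk stabEquiv inter)

/-- **HNN extensions, one virtual retract, with a spectator.** -/
theorem hnn_spec (S : Type x) [Group S] {G : Type u} [Group G] {A B : Subgroup G} (φ : A ≃* B)
    {K : Type v} [Group K] (r : G →* K) (hr : ∀ a ∈ A, r a = 1)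
    (hV : VirtRetract (r.comp B.subtype)) (h : L1Bass (S × G)) :
    L1Bass (S × HNNExtension G A B φ) := by
  obtain ⟨F, _, _, _, c, hc, hf⟩ := hV.system
  have hc1 : ∀ u, c 1 u = 1 := by
    intro u
    have h := hc 1 1 u
    rw [one_mul, one_smul] at h
    exact (mul_eq_left.1 h.symm)
  let act : MulAction (S × HNNExtension G A B φ) (Vt φ) :=
    MulAction.compHom (Vt φ) (MonoidHom.snd S (HNNExtension G A B φ))
  have hact : ∀ (g : S × HNNExtension G A B φ) (v : Vt φ), g • v = g.2 • v := fun _ _ => rfl
  let t' : S × HNNExtension G A B φ := (1, t)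
  have ht : (t : HNNExtension G A B φ) • mk φ 1 = mk φ t := by rw [smul_mk, mul_one]
  have hx : ∀ x : HNNExtension G A B φ, x • mk φ 1 = mk φ x := fun x => by
    rw [smul_mk, mul_one]
  have hadj1 : (Tr φ).Adj (mk φ 1) ((t : HNNExtension G A B φ) • mk φ 1) := by
    have h := H11.Hnn.adj_t φ 1
    rw [one_mul] at h
    rw [ht]
    exact h
  have hinv : ∀ (g : S × HNNExtension G A B φ) (v : Vt φ), (Tr φ).Adj v (g • v) →
      g • g • v ≠ v := fun g v => hinv_hnn φ g.2 v
  have hadj' : ∀ (g : S × HNNExtension G A B φ) (a b : Vt φ), (Tr φ).Adj a b →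
      (Tr φ).Adj (g • a) (g • b) := fun g a b => H11.Hnn.hadj φ g.2 a b
  have hp : TreePackH (S × HNNExtension G A B φ) (Tr φ) (mk φ 1) t' := by
    obtain ⟨neg, s, star, κ, ν, p1, p2, p3, p4, p5, p6, p7, p8, p9, _⟩ :=
      H74.Hnn.pack (a := mk φ 1) (t := t') (H11.Hnn.isTree φ) hadj'
        (fun v => by
          obtain ⟨x, rfl⟩ := QuotientGroup.mk_surjective v
          exact ⟨(1, x), hx x⟩)
        (fun a b h => by
          obtain ⟨x, ⟨h1, h2⟩ | ⟨h1, h2⟩⟩ := h
          · refine Or.inl ⟨(1, x), ?_, ?_⟩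
            · change x • mk φ 1 = a
              rw [hx, h1]
            · change x • (t : HNNExtension G A B φ) • mk φ 1 = b
              rw [ht, smul_mk, h2]
          · refine Or.inr ⟨(1, x), ?_, ?_⟩
            · change x • mk φ 1 = b
              rw [hx, h1]
            · change x • (t : HNNExtension G A B φ) • mk φ 1 = a
              rw [ht, smul_mk, h2])
        (by
          rintro ⟨g, h1, h2⟩
          refine hinv g (mk φ 1) ?_ ?_
          · rw [h1]
            exact hadj1
          · rw [h1, h2])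
    exact ⟨neg, s, star, κ, ν, p1, p2, p3, p4, p5, p6, p7, p8, p9⟩
  let e := stabEquiv φ
  let pr : stabilizer (S × HNNExtension G A B φ) (mk φ 1) →*
      stabilizer (HNNExtension G A B φ) (mk φ 1) :=
    { toFun := fun l => ⟨l.1.2, l.2⟩
      map_one' := rfl
      map_mul' := fun _ _ => rfl }
  let γ : stabilizer (S × HNNExtension G A B φ) (mk φ 1) →* G := e.symm.toMonoidHom.comp pr
  have hγ : ∀ l : stabilizer (S × HNNExtension G A B φ) (mk φ 1),
      (l : S × HNNExtension G A B φ).2 = of (γ l) := fun l => by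
    have h1 : e (γ l) = pr l := e.apply_symm_apply (pr l)
    exact (congrArg Subtype.val h1).symm
  have hM : ∀ (s : S) (g : G), ((s, of g) : S × HNNExtension G A B φ) ∈
      stabilizer (S × HNNExtension G A B φ) (mk φ 1) := fun s g => by
    have h1 : (of g : HNNExtension G A B φ) ∈ stabilizer (HNNExtension G A B φ) (mk φ 1) :=
      (mem_st φ).2 ⟨g, rfl⟩
    exact h1
  let R : Vh (stabilizer (S × HNNExtension G A B φ) (mk φ 1))
      (stabilizer (S × HNNExtension G A B φ) (t' • mk φ 1)) t' F :=
    { m := (MulAction.toPermHom K F).comp (r.comp γ)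
      β := fun l u => (l.1.1, of ((c (r (γ l)) u : B) : G))
      mul := fun l k u => by
        refine Prod.ext rfl ?_
        change of ((c (r (γ (l * k))) u : B) : G) =
          of ((c (r (γ l)) (r (γ k) • u) : B) : G) * of ((c (r (γ k)) u : B) : G)
        rw [map_mul, map_mul, hc, Subgroup.coe_mul, map_mul]
      memM := fun l u => hM _ _
      memN := fun l u => by
        have h1 : (of ((c (r (γ l)) u : B) : G) : HNNExtension G A B φ) ∈
            stabilizer (HNNExtension G A B φ) ((t : HNNExtension G A B φ) • mk φ 1) :=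
          (mem_st' φ).2 ⟨_, (equiv_symm_eq_conj (φ := φ) (c (r (γ l)) u)).symm⟩
        exact h1
      fix := fun l hl u => by
        have hl' : (l : S × HNNExtension G A B φ).2 ∈
            stabilizer (HNNExtension G A B φ) ((t : HNNExtension G A B φ) • mk φ 1) := hl
        obtain ⟨g', hg'⟩ := (mem_st' φ).1 hl'
        have h1 : (t : HNNExtension G A B φ) * of g' * t⁻¹ = of (γ l) := by
          rw [← hg', ← hγ]
          group
        have h2 : g' ∈ A := inter φ h1
        have h3 : of (γ l) = (of ((φ ⟨g', h2⟩ : B) : G) : HNNExtension G A B φ) := by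
          rw [equiv_eq_conj, ← h1]
        have h4 : γ l = ((φ ⟨g', h2⟩ : B) : G) := HNNExtension.of_injective (φ := φ) h3
        obtain ⟨h5, h6⟩ := hf (φ ⟨g', h2⟩) u
        have h7 : r (γ l) = r.comp B.subtype (φ ⟨g', h2⟩) := by
          rw [h4]
          rfl
        refine ⟨?_, Prod.ext rfl ?_⟩
        · change r (γ l) • u = u
          rw [h7, h5]
        · change of ((c (r (γ l)) u : B) : G) = (l : S × HNNExtension G A B φ).2
          rw [h7, h6, hγ, h4]
      comm := fun l hl u => by
        have hl' : (t : HNNExtension G A B φ) * (l : S × HNNExtension G A B φ).2 * t⁻¹ ∈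
            stabilizer (HNNExtension G A B φ) (mk φ 1) := hl
        obtain ⟨g, hg⟩ := (mem_st φ).1 hl'
        rw [hγ] at hg
        have h2 : γ l ∈ A := inter φ hg
        have h3 : (of ((c (r (γ l)) u : B) : G) : HNNExtension G A B φ) = 1 := by
          rw [hr _ h2, hc1, Subgroup.coe_one, map_one]
        refine ⟨?_, Prod.ext ?_ ?_⟩
        · change r (γ l) • u = u
          rw [hr _ h2, one_smul]
        · change 1⁻¹ * (l : S × HNNExtension G A B φ).1 * 1 = (l : S × HNNExtension G A B φ).1
          rw [inv_one, one_mul, mul_one]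
        · change t⁻¹ * of ((c (r (γ l)) u : B) : G) * t = of ((c (r (γ l)) u : B) : G)
          rw [h3, mul_one, inv_mul_cancel] }
  refine vh_of (H11.Hnn.isTree φ) hadj' (mk φ 1) t' hinv hp F R ?_
  refine H290.l1Bass_retract
    { toFun := fun l : stabilizer (S × HNNExtension G A B φ) (mk φ 1) => ((l.1.1, γ l) : S × G)
      map_one' := Prod.ext rfl (map_one γ)
      map_mul' := fun l k => Prod.ext rfl (map_mul γ l k) }
    { toFun := fun p : S × G => (⟨(p.1, of p.2), hM p.1 p.2⟩ :
        stabilizer (S × HNNExtension G A B φ) (mk φ 1))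
      map_one' := Subtype.ext (Prod.ext rfl (map_one of))
      map_mul' := fun p p' => Subtype.ext (Prod.ext rfl (map_mul of p.2 p'.2)) }
    (fun l => Subtype.ext (Prod.ext rfl (hγ l).symm)) h

/-- the other orientation -/
theorem hnn_spec' (S : Type x) [Group S] {G : Type u} [Group G] {A B : Subgroup G} (φ : A ≃* B)
    {K : Type v} [Group K] (r : G →* K) (hr : ∀ b ∈ B, r b = 1)
    (hV : VirtRetract (r.comp A.subtype)) (h : L1Bass (S × G)) :
    L1Bass (S × HNNExtension G A B φ) :=
  H290.l1Bass_retract ((MonoidHom.id S).prodMap (flip φ)) ((MonoidHom.id S).prodMap (flip φ.symm))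
    (fun x => Prod.ext rfl (flip_flip φ x.2)) (hnn_spec S φ.symm r hr hV h)

end Vale.Agent.P184.H788.K
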