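import Vale.Agent.P184.H788.ClsSum

/-!
# P184: groups acting on trees with an edge as fundamental domain, one virtual retract
-/

noncomputable section

namespace Vale.Agent.P184.H788

open Vale.Agent.P184 (IsIdem tau toFn L1Bass IsTorsionClass)
open Vale.Agent.P184.H13 (sm sm_nonneg)

universe u v w

section

variable {G : Type u} {V : Type v} {F : Type w} [Group G]

/-- a homomorphism to the permutations -/
def permHom {Y : Type*} (f : G → Y → Y) (h1 : ∀ y, f 1 y = y)
    (hm : ∀ g h y, f (g * h) y = f g (f h y)) : G →* Equiv.Perm Y where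
  toFun g := ⟨f g, f g⁻¹, fun y => by rw [← hm, inv_mul_cancel, h1],
    fun y => by rw [← hm, mul_inv_cancel, h1]⟩
  map_one' := Equiv.ext fun y => h1 y
  map_mul' g h := Equiv.ext fun y => hm g h y

/-- a system on `V × F` with values in a subgroup -/
def mkS (H : Subgroup G) (st : G →* Equiv.Perm V) (t : G → V → F → F) (c : G → V → F → G)
    (ht1 : ∀ v u, t 1 v u = u) (htm : ∀ g h v u, t (g * h) v u = t g (st h v) (t h v u))
    (hc : ∀ g v u, c g v u ∈ H)
    (hcm : ∀ g h v u, c (g * h) v u = c g (st h v) (t h v u) * c h v u) :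
    Sys G (V × F) H where
  act := permHom (fun g y => (st g y.1, t g y.1 y.2))
    (fun y => by
      rw [map_one, ht1]
      rfl)
    (fun g h y => by
      rw [map_mul, htm]
      rfl)
  a g y := ⟨c g y.1 y.2, hc g y.1 y.2⟩
  mul g h y := Subtype.ext (hcm g h y.1 y.2)

/-- the sums of the systems on `V × F` -/
theorem mkS_big {H : Subgroup G} {st : G →* Equiv.Perm V} {t : G → V → F → F}
    {c : G → V → F → G} {ht1 : ∀ v u, t 1 v u = u}
    {htm : ∀ g h v u, t (g * h) v u = t g (st h v) (t h v u)} {hc : ∀ g v u, c g v u ∈ H}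
    {hcm : ∀ g h v u, c (g * h) v u = c g (st h v) (t h v u) * c h v u} {q : ℕ}
    (bad : G → Set (V × F)) (e : Matrix (Fin q) (Fin q) (G → ℂ)) (C : ConjClasses G)
    (N : G → ℕ) (hN : ∀ g, ({y | ((st g y.1 = y.1 ∧ t g y.1 y.2 = y.2) ∧
      ConjClasses.mk (c g y.1 y.2) = C) ∧ y ∈ bad g} : Set (V × F)).ncard = N g) :
    (mkS H st t c ht1 htm hc hcm).big H.subtype bad e C = ∑' g, (∑ i, e i i g) * (N g : ℂ) := by
  refine tsum_congr fun g => ?_
  rw [← hN g]
  refine congrArg (fun S : Set (V × F) => (∑ i, e i i g) * (S.ncard : ℂ)) (Set.ext fun y => ?_)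
  refine and_congr_left fun _ => and_congr_left fun _ => ?_
  change (st g y.1, t g y.1 y.2) = y ↔ _
  exact Prod.ext_iff

end

/-- the tree data -/
structure Pk (G : Type u) (V : Type v) [Group G] [MulAction G V] where
  /-- the first kind of vertices -/
  P : V → Prop
  /-- the first stabilizer -/
  La : Subgroup G
  /-- the second stabilizer -/
  Lb : Subgroup G
  /-- the bad vertices -/
  B : G → Set V
  /-- the cocycle -/
  α : G → V → G
  /-- the action of the edges -/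
  st : G →* Equiv.Perm V
  /-- the cocycle of the edges -/
  κ : G → V → G
  P_iff : ∀ (g : G) v, P (g • v) ↔ P v
  mul : ∀ g h v, α (g * h) v = α g (h • v) * α h v
  memA : ∀ g v, P v → α g v ∈ La
  memB : ∀ g v, ¬ P v → α g v ∈ Lb
  cls : ∀ (g : G) v, g • v = v → ConjClasses.mk (α g v) = ConjClasses.mk g
  κmul : ∀ g h v, κ (g * h) v = κ g (st h v) * κ h v
  κmemA : ∀ g v, κ g v ∈ La
  κmemB : ∀ g v, κ g v ∈ Lb
  agree : ∀ (g : G) v, v ∉ B g → st g v = g • v ∧ κ g v = α g v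
  triv : ∀ g v, st g v = v → v ∈ B g → κ g v = 1
  fin : ∀ g, (B g).Finite
  cnt : ∀ g : G, (∃ v : V, g • v = v) → ({v | g • v = v ∧ v ∈ B g} : Set V).ncard = 1

/-- a virtual retraction of `L` to its intersection with `M` -/
structure Vr {G : Type u} [Group G] (L M : Subgroup G) (F : Type w) where
  /-- the action -/
  m : L →* Equiv.Perm F
  /-- the cocycle -/
  β : L → F → G
  mul : ∀ l k u, β (l * k) u = β l (m k u) * β k u
  memA : ∀ l u, β l u ∈ L
  memB : ∀ l u, β l u ∈ M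
  fix : ∀ l : L, (l : G) ∈ M → ∀ u, m l u = u ∧ β l u = l

section

variable {G : Type u} {V : Type v} {F : Type w} [Group G] [MulAction G V] (D : Pk G V)
  (R : Vr D.La D.Lb F)

theorem Pk.one (v : V) : D.α 1 v = 1 := by
  have h := D.mul 1 1 v
  rw [mul_one, one_smul] at h
  exact (left_eq_mul.1 h)

open Classical in
/-- the action on the fibre -/
def tA (g : G) (v : V) (u : F) : F := if h : D.P v then R.m ⟨D.α g v, D.memA g v h⟩ u else u

open Classical in
/-- the value over the first kind of vertices, `x` over the others -/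
def cA (x : G → V → G) (g : G) (v : V) (u : F) : G :=
  if h : D.P v then R.β ⟨D.α g v, D.memA g v h⟩ u else x g v

variable {D R}

theorem tA_pos {g : G} {v : V} (h : D.P v) (u : F) :
    tA D R g v u = R.m ⟨D.α g v, D.memA g v h⟩ u := dif_pos h

theorem tA_neg {g : G} {v : V} (h : ¬ D.P v) (u : F) : tA D R g v u = u := dif_neg h

theorem cA_pos {x : G → V → G} {g : G} {v : V} (h : D.P v) (u : F) :
    cA D R x g v u = R.β ⟨D.α g v, D.memA g v h⟩ u := dif_pos h

theorem cA_neg {x : G → V → G} {g : G} {v : V} (h : ¬ D.P v) (u : F) :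
    cA D R x g v u = x g v := dif_neg h

variable (D R)

theorem tA_one (v : V) (u : F) : tA D R 1 v u = u := by
  by_cases h : D.P v
  · rw [tA_pos h]
    have h1 : (⟨D.α 1 v, D.memA 1 v h⟩ : D.La) = 1 := Subtype.ext (D.one v)
    rw [h1, map_one]
    rfl
  · exact tA_neg h u

theorem tA_mul (g h : G) (v : V) (u : F) :
    tA D R (g * h) v u = tA D R g (MulAction.toPermHom G V h v) (tA D R h v u) := by
  change _ = tA D R g (h • v) _
  by_cases hv : D.P v
  · have hv' : D.P (h • v) := (D.P_iff h v).2 hv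
    rw [tA_pos hv, tA_pos hv, tA_pos hv']
    have h1 : (⟨D.α (g * h) v, D.memA (g * h) v hv⟩ : D.La) =
        ⟨D.α g (h • v), D.memA g (h • v) hv'⟩ * ⟨D.α h v, D.memA h v hv⟩ :=
      Subtype.ext (D.mul g h v)
    rw [h1, map_mul]
    rfl
  · have hv' : ¬ D.P (h • v) := fun h2 => hv ((D.P_iff h v).1 h2)
    rw [tA_neg hv, tA_neg hv, tA_neg hv']

theorem cA_mul {x : G → V → G} (hx : ∀ g h v, x (g * h) v = x g (h • v) * x h v) (g h : G)
    (v : V) (u : F) : cA D R x (g * h) v u =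
      cA D R x g (MulAction.toPermHom G V h v) (tA D R h v u) * cA D R x h v u := by
  change _ = cA D R x g (h • v) _ * _
  by_cases hv : D.P v
  · have hv' : D.P (h • v) := (D.P_iff h v).2 hv
    rw [cA_pos hv, cA_pos hv, cA_pos hv', tA_pos hv]
    have h1 : (⟨D.α (g * h) v, D.memA (g * h) v hv⟩ : D.La) =
        ⟨D.α g (h • v), D.memA g (h • v) hv'⟩ * ⟨D.α h v, D.memA h v hv⟩ :=
      Subtype.ext (D.mul g h v)
    rw [h1, R.mul]
  · have hv' : ¬ D.P (h • v) := fun h2 => hv ((D.P_iff h v).1 h2)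
    rw [cA_neg hv, cA_neg hv, cA_neg hv']
    exact hx g h v

open Classical in
/-- the value of the first system -/
def c1 (g : G) (v : V) (_ : F) : G := if D.P v then D.α g v else 1

/-- the first system over the first group -/
def X1 : Sys G (V × F) D.La :=
  mkS D.La (MulAction.toPermHom G V) (fun _ _ u => u) (c1 D)
    (fun _ _ => rfl) (fun _ _ _ _ => rfl)
    (fun g v _ => by
      unfold c1
      split_ifs with h
      · exact D.memA g v h
      · exact one_mem _)
    (fun g h v _ => by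
      change c1 D (g * h) v _ = c1 D g (h • v) _ * c1 D h v _
      unfold c1
      by_cases hv : D.P v
      · rw [if_pos hv, if_pos hv, if_pos ((D.P_iff h v).2 hv), D.mul]
      · rw [if_neg hv, if_neg hv, if_neg fun h2 => hv ((D.P_iff h v).1 h2), one_mul])

/-- the second system over the first group -/
def X2 : Sys G (V × F) D.La :=
  mkS D.La (MulAction.toPermHom G V) (tA D R) (cA D R fun _ _ => 1)
    (tA_one D R) (tA_mul D R)
    (fun g v u => by
      by_cases h : D.P v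
      · rw [cA_pos h]
        exact R.memA _ _
      · rw [cA_neg h]
        exact one_mem _)
    (cA_mul D R fun _ _ _ => (one_mul 1).symm)

/-- the first system over the second group -/
def X3 : Sys G (V × F) D.Lb :=
  mkS D.Lb (MulAction.toPermHom G V) (tA D R) (cA D R D.α)
    (tA_one D R) (tA_mul D R)
    (fun g v u => by
      by_cases h : D.P v
      · rw [cA_pos h]
        exact R.memB _ _
      · rw [cA_neg h]
        exact D.memB g v h)
    (cA_mul D R D.mul)

/-- the second system over the second group -/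
def X4 : Sys G (V × F) D.Lb :=
  mkS D.Lb D.st (fun _ _ u => u) (fun g v _ => D.κ g v)
    (fun _ _ => rfl) (fun _ _ _ _ => rfl) (fun g v _ => D.κmemB g v)
    (fun g h v _ => D.κmul g h v)

variable {D R}

theorem vgood {g : G} {v : V} (hv : v ∉ D.B g) (u : F) :
    tA D R g v u = u ∧ (D.P v → ∀ x, cA D R x g v u = D.α g v) := by
  by_cases h : D.P v
  · have h1 : D.α g v ∈ D.Lb := by
      rw [← (D.agree g v hv).2]
      exact D.κmemB g v
    obtain ⟨h2, h3⟩ := R.fix ⟨D.α g v, D.memA g v h⟩ h1 u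
    rw [tA_pos h]
    refine ⟨h2, fun _ x => ?_⟩
    rw [cA_pos h]
    exact h3
  · exact ⟨tA_neg h u, fun h2 => absurd h2 h⟩

theorem agree1 (g : G) (y : V × F) (hy : y ∉ {y : V × F | y.1 ∈ D.B g}) :
    (X1 D (F := F)).act g y = (X2 D R).act g y ∧ (X1 D (F := F)).a g y = (X2 D R).a g y := by
  obtain ⟨v, u⟩ := y
  have hv : v ∉ D.B g := hy
  obtain ⟨h1, h2⟩ := vgood (R := R) hv u
  refine ⟨?_, Subtype.ext ?_⟩
  · change (g • v, u) = (g • v, tA D R g v u)
    rw [h1]
  · change c1 D g v u = cA D R (fun _ _ => 1) g v u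
    unfold c1
    by_cases h : D.P v
    · rw [if_pos h, h2 h]
    · rw [if_neg h, cA_neg h]

theorem agree2 (g : G) (y : V × F) (hy : y ∉ {y : V × F | y.1 ∈ D.B g}) :
    (X3 D R).act g y = (X4 D (F := F)).act g y ∧ (X3 D R).a g y = (X4 D (F := F)).a g y := by
  obtain ⟨v, u⟩ := y
  have hv : v ∉ D.B g := hy
  obtain ⟨h1, h2⟩ := vgood (R := R) hv u
  obtain ⟨h3, h4⟩ := D.agree g v hv
  refine ⟨?_, Subtype.ext ?_⟩
  · change (g • v, tA D R g v u) = (D.st g v, u)
    rw [h1, h3]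
  · change cA D R D.α g v u = D.κ g v
    rw [h4]
    by_cases h : D.P v
    · rw [h2 h]
    · rw [cA_neg h]

/-! ### the counts -/

variable (D R)

/-- the bad fixed points of the first kind -/
def Na (F : Type w) (C : ConjClasses G) (g : G) : Set (V × F) :=
  {y | (D.P y.1 ∧ g • y.1 = y.1 ∧ ConjClasses.mk g = C) ∧ y.1 ∈ D.B g}

/-- the bad fixed points of the second kind -/
def Nb (F : Type w) (C : ConjClasses G) (g : G) : Set (V × F) :=
  {y | (¬ D.P y.1 ∧ g • y.1 = y.1 ∧ ConjClasses.mk g = C) ∧ y.1 ∈ D.B g}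

/-- the bad fixed points of the twisted system -/
def Nr (C : ConjClasses G) (g : G) : Set (V × F) :=
  {y | (D.P y.1 ∧ (g • y.1 = y.1 ∧ tA D R g y.1 y.2 = y.2) ∧
    ConjClasses.mk (cA D R D.α g y.1 y.2) = C) ∧ y.1 ∈ D.B g}

variable {D R} {C : ConjClasses G} (hC : C ≠ ConjClasses.mk 1)

include hC in
theorem set1 (g : G) : ({y | ((g • y.1 = y.1 ∧ y.2 = y.2) ∧
    ConjClasses.mk (c1 D g y.1 y.2) = C) ∧ y ∈ {y : V × F | y.1 ∈ D.B g}} : Set (V × F)) =
      Na D F C g := by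
  ext y
  refine and_congr_left fun _ => ?_
  unfold c1
  by_cases h : D.P y.1
  · rw [if_pos h]
    constructor
    · rintro ⟨⟨h1, _⟩, h2⟩
      exact ⟨h, h1, (D.cls g _ h1).symm.trans h2⟩
    · rintro ⟨_, h1, h2⟩
      exact ⟨⟨h1, rfl⟩, (D.cls g _ h1).trans h2⟩
  · rw [if_neg h]
    exact ⟨fun h1 => absurd h1.2.symm hC, fun h1 => absurd h1.1 h⟩

include hC in
theorem set2 (g : G) : ({y | ((g • y.1 = y.1 ∧ tA D R g y.1 y.2 = y.2) ∧
    ConjClasses.mk (cA D R (fun _ _ => 1) g y.1 y.2) = C) ∧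
      y ∈ {y : V × F | y.1 ∈ D.B g}} : Set (V × F)) = Nr D R C g := by
  ext y
  refine and_congr_left fun _ => ?_
  by_cases h : D.P y.1
  · rw [cA_pos h, cA_pos h]
    exact ⟨fun h1 => ⟨h, h1⟩, fun h1 => h1.2⟩
  · rw [cA_neg h]
    exact ⟨fun h1 => absurd h1.2.symm hC, fun h1 => absurd h1.1 h⟩

theorem set3 (g : G) : ({y | ((g • y.1 = y.1 ∧ tA D R g y.1 y.2 = y.2) ∧
    ConjClasses.mk (cA D R D.α g y.1 y.2) = C) ∧
      y ∈ {y : V × F | y.1 ∈ D.B g}} : Set (V × F)) = Nb D F C g ∪ Nr D R C g := by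
  ext y
  by_cases h : D.P y.1
  · constructor
    · rintro ⟨h1, h2⟩
      exact Or.inr ⟨⟨h, h1⟩, h2⟩
    · rintro (h1 | h1)
      · exact absurd h h1.1.1
      · exact ⟨h1.1.2, h1.2⟩
  · constructor
    · rintro ⟨⟨⟨h1, h2⟩, h3⟩, h4⟩
      rw [cA_neg h] at h3
      exact Or.inl ⟨⟨h, h1, (D.cls g _ h1).symm.trans h3⟩, h4⟩
    · rintro (h1 | h1)
      · obtain ⟨⟨_, h2, h3⟩, h4⟩ := h1
        refine ⟨⟨⟨h2, tA_neg h _⟩, ?_⟩, h4⟩
        rw [cA_neg h]
        exact (D.cls g _ h2).trans h3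
      · exact absurd h1.1.1 h

include hC in
theorem set4 (g : G) : ({y | ((D.st g y.1 = y.1 ∧ y.2 = y.2) ∧
    ConjClasses.mk (D.κ g y.1) = C) ∧ y ∈ {y : V × F | y.1 ∈ D.B g}} : Set (V × F)) = ∅ := by
  refine Set.eq_empty_of_forall_notMem ?_
  rintro y ⟨⟨⟨h1, _⟩, h2⟩, h3⟩
  rw [D.triv g y.1 h1 h3] at h2
  exact hC h2.symm

variable (D) in
theorem badF_fin [Finite F] (g : G) : ({y : V × F | y.1 ∈ D.B g} : Set (V × F)).Finite := by
  refine ((D.fin g).prod (Set.finite_univ (α := F))).subset fun y hy => ?_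
  exact ⟨hy, Set.mem_univ _⟩

variable (D F) in
theorem badF_card [Finite F] (g : G) :
    ({y : V × F | y.1 ∈ D.B g} : Set (V × F)).ncard = (D.B g).ncard * Nat.card F := by
  have h : ({y : V × F | y.1 ∈ D.B g} : Set (V × F)) = D.B g ×ˢ (Set.univ : Set F) := by
    ext y
    exact ⟨fun h => ⟨h, Set.mem_univ _⟩, fun h => h.1⟩
  rw [h, Set.ncard_prod, Set.ncard_univ]

theorem Nab_card [Finite F] (hV : ∀ g, ConjClasses.mk g = C → ∃ v : V, g • v = v) (g : G)
    (hg : ConjClasses.mk g = C) : (Na D F C g).ncard + (Nb D F C g).ncard = Nat.card F := by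
  have hd : Disjoint (Na D F C g) (Nb D F C g) :=
    Set.disjoint_left.2 fun y h1 h2 => h2.1.1 h1.1.1
  have h1 : (Na D F C g).Finite := (badF_fin D g).subset fun y hy => hy.2
  have h2 : (Nb D F C g).Finite := (badF_fin D g).subset fun y hy => hy.2
  rw [← Set.ncard_union_eq hd h1 h2]
  have h3 : Na D F C g ∪ Nb D F C g =
      ({v | g • v = v ∧ v ∈ D.B g} : Set V) ×ˢ (Set.univ : Set F) := by
    ext y
    constructor
    · rintro (h | h)
      · exact ⟨⟨h.1.2.1, h.2⟩, Set.mem_univ _⟩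
      · exact ⟨⟨h.1.2.1, h.2⟩, Set.mem_univ _⟩
    · rintro ⟨⟨h4, h5⟩, _⟩
      by_cases h : D.P y.1
      · exact Or.inl ⟨⟨h, h4, hg⟩, h5⟩
      · exact Or.inr ⟨⟨h, h4, hg⟩, h5⟩
  rw [h3, Set.ncard_prod, Set.ncard_univ, D.cnt g (hV g hg), one_mul]

theorem Nab_zero (g : G) (hg : ConjClasses.mk g ≠ C) :
    Na D F C g = ∅ ∧ Nb D F C g = ∅ :=
  ⟨Set.eq_empty_of_forall_notMem fun _ h => hg h.1.2.2,
    Set.eq_empty_of_forall_notMem fun _ h => hg h.1.2.2⟩

/-- **The elliptic classes.** -/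
theorem elliptic_classes [Finite F] [Nonempty F] (ν : G → ℕ) (hν : ∀ g h, ν (g * h) ≤ ν g + ν h)
    (hB : ∀ g, (D.B g).ncard ≤ ν g + 1) (R : Vr D.La D.Lb F) (ha : L1Bass D.La)
    (hb : L1Bass D.Lb) {q : ℕ} (e : Matrix (Fin q) (Fin q) (G → ℂ)) (he : IsIdem e) :
    ∃ S : Finset (ConjClasses G), (∀ C ∈ S, IsTorsionClass C) ∧
      ∀ C ∉ S, (∀ g, ConjClasses.mk g = C → ∃ v : V, g • v = v) → tau C e = 0 := by
  classical
  obtain ⟨e₁, he₁, hdec, htau⟩ := exists_dec (fun g => Nat.card F * (ν g + 1)) (fun g h => by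
    have h1 := hν g h
    have h2 : ν (g * h) + 1 ≤ (ν g + 1) + (ν h + 1) := by omega
    exact (Nat.mul_le_mul_left _ h2).trans (Nat.mul_add _ _ _).le) e he
  set bad : G → Set (V × F) := fun g => {y : V × F | y.1 ∈ D.B g} with hbad
  have hfin : ∀ g, (bad g).Finite := badF_fin D
  have hle : ∀ g, (bad g).ncard ≤ Nat.card F * (ν g + 1) := fun g => by
    refine (badF_card F D g).le.trans ?_
    rw [mul_comm]
    exact Nat.mul_le_mul_left _ (hB g)
  have hs : Summable fun g => sm (toFn e₁ g) * ((bad g).ncard : ℝ) := by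
    refine Summable.of_nonneg_of_le (fun g => mul_nonneg (sm_nonneg _) (Nat.cast_nonneg _))
      (fun g => ?_) (sm_dec hdec)
    exact mul_le_mul_of_nonneg_left (Nat.cast_le.2 (hle g)) (sm_nonneg _)
  obtain ⟨S₁, h1, h2⟩ := pair_big ha D.La.subtype (X1 D) (X2 D R) hfin agree1 he₁ hs
  obtain ⟨S₂, h3, h4⟩ := pair_big hb D.Lb.subtype (X3 D R) (X4 D) hfin agree2 he₁ hs
  refine ⟨insert (ConjClasses.mk 1) (S₁ ∪ S₂), fun C hC => ?_, fun C hC hV => ?_⟩
  · rcases Finset.mem_insert.1 hC with rfl | hC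
    · intro g hg
      have h5 := ConjClasses.mem_carrier_iff_mk_eq.1 hg
      have h6 : IsConj 1 g := ConjClasses.mk_eq_mk_iff_isConj.1 h5.symm
      rw [isConj_one_right.1 h6]
      exact IsOfFinOrder.one
    · rcases Finset.mem_union.1 hC with h | h
      · exact h1 C h
      · exact h3 C h
  have hC1 : C ≠ ConjClasses.mk 1 := fun h => hC (h ▸ Finset.mem_insert_self _ _)
  have hCS : C ∉ S₁ ∪ S₂ := fun h => hC (Finset.mem_insert_of_mem h)
  have e12 := h2 C fun h => hCS (Finset.mem_union_left _ h)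
  have e34 := h4 C fun h => hCS (Finset.mem_union_right _ h)
  have b1 : (X1 D (F := F)).big D.La.subtype bad e₁ C =
      ∑' g, (∑ i, e₁ i i g) * ((Na D F C g).ncard : ℂ) :=
    mkS_big bad e₁ C (fun g => (Na D F C g).ncard) fun g => congrArg Set.ncard (set1 hC1 g)
  have b2 : (X2 D R).big D.La.subtype bad e₁ C =
      ∑' g, (∑ i, e₁ i i g) * ((Nr D R C g).ncard : ℂ) :=
    mkS_big bad e₁ C (fun g => (Nr D R C g).ncard) fun g => congrArg Set.ncard (set2 hC1 g)
  have b3 : (X3 D R).big D.Lb.subtype bad e₁ C =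
      ∑' g, (∑ i, e₁ i i g) * ((Nb D F C g ∪ Nr D R C g).ncard : ℂ) :=
    mkS_big bad e₁ C (fun g => (Nb D F C g ∪ Nr D R C g).ncard) fun g =>
      congrArg Set.ncard (set3 g)
  have b4 : (X4 D (F := F)).big D.Lb.subtype bad e₁ C =
      ∑' g, (∑ i, e₁ i i g) * ((0 : ℕ) : ℂ) :=
    mkS_big bad e₁ C (fun _ => 0) fun g =>
      (congrArg Set.ncard (set4 (F := F) hC1 g)).trans (Set.ncard_empty _)
  have hsum : ∀ N : G → ℕ, (∀ g, N g ≤ (bad g).ncard) →
      Summable fun g => (∑ i, e₁ i i g) * (N g : ℂ) := by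
    intro N hN
    refine Summable.of_norm_bounded hs fun g => ?_
    rw [norm_mul, Complex.norm_natCast]
    exact mul_le_mul (norm_tr_le (toFn e₁ g)) (Nat.cast_le.2 (hN g)) (Nat.cast_nonneg _)
      (sm_nonneg _)
  have sa := hsum (fun g => (Na D F C g).ncard) fun g =>
    Set.ncard_le_ncard (fun y hy => hy.2) (hfin g)
  have sb := hsum (fun g => (Nb D F C g).ncard) fun g =>
    Set.ncard_le_ncard (fun y hy => hy.2) (hfin g)
  have sr := hsum (fun g => (Nr D R C g).ncard) fun g =>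
    Set.ncard_le_ncard (fun y hy => hy.2) (hfin g)
  have hun : ∀ g, (Nb D F C g ∪ Nr D R C g).ncard =
      (Nb D F C g).ncard + (Nr D R C g).ncard := fun g =>
    Set.ncard_union_eq (Set.disjoint_left.2 fun y h5 h6 => h5.1.1 h6.1.1)
      ((hfin g).subset fun y hy => hy.2) ((hfin g).subset fun y hy => hy.2)
  have t1 : ∑' g, (∑ i, e₁ i i g) * ((Na D F C g).ncard : ℂ) =
      ∑' g, (∑ i, e₁ i i g) * ((Nr D R C g).ncard : ℂ) := b1.symm.trans (e12.trans b2)
  have t2 : ∑' g, (∑ i, e₁ i i g) * ((Nb D F C g).ncard : ℂ) +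
      ∑' g, (∑ i, e₁ i i g) * ((Nr D R C g).ncard : ℂ) = 0 := by
    rw [← sb.tsum_add sr]
    refine Eq.trans (tsum_congr fun g => ?_) (b3.symm.trans (e34.trans (b4.trans ?_)))
    · rw [hun, Nat.cast_add, mul_add]
    · refine (tsum_congr fun g => ?_).trans tsum_zero
      rw [Nat.cast_zero, mul_zero]
  have t3 : ∑' g, (∑ i, e₁ i i g) * (((Na D F C g).ncard + (Nb D F C g).ncard : ℕ) : ℂ) = 0 := by
    rw [← t2, ← t1, add_comm, ← sa.tsum_add sb]
    refine tsum_congr fun g => ?_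
    rw [Nat.cast_add, mul_add]
  have t4 : ∑' g, (∑ i, e₁ i i g) * (((Na D F C g).ncard + (Nb D F C g).ncard : ℕ) : ℂ) =
      (Nat.card F : ℂ) * tau C e₁ := by
    unfold tau
    rw [tsum_subtype C.carrier fun g => ∑ i, e₁ i i g, ← tsum_mul_left]
    refine tsum_congr fun g => ?_
    by_cases hg : ConjClasses.mk g = C
    · rw [Nab_card hV g hg, Set.indicator_of_mem (ConjClasses.mem_carrier_iff_mk_eq.2 hg)]
      ring
    · obtain ⟨h5, h6⟩ := Nab_zero (D := D) (F := F) g hg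
      rw [h5, h6, Set.ncard_empty, add_zero, Nat.cast_zero, mul_zero,
        Set.indicator_of_notMem fun h => hg (ConjClasses.mem_carrier_iff_mk_eq.1 h), mul_zero]
  rw [t3] at t4
  rw [← htau C]
  rcases mul_eq_zero.1 t4.symm with h | h
  · exact absurd (Nat.cast_eq_zero.1 h) (Nat.card_pos (α := F)).ne'
  · exact h

end

end Vale.Agent.P184.H788
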