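import Vale.Agent.P184.H788.VR1
import Vale.Agent.P184.H74.Pack

/-!
# P184: the Bass conjecture for actions on trees with one virtual retract, final form
-/

noncomputable section

namespace Vale.Agent.P184.H788

open Vale.Agent.P184 (L1Bass)
open MulAction (orbit stabilizer)

universe u v w

/-- **A group which acts on a tree with one edge as strict fundamental domain satisfies the
conjecture if the two vertex groups do and the edge group is a virtual retract of the first
vertex group.** -/
theorem vr1 {G : Type u} {V : Type v} [Group G] [MulAction G V] {T : SimpleGraph V}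
    (hT : T.IsTree) (hadj : ∀ (g : G) u v, T.Adj u v → T.Adj (g • u) (g • v))
    (a b : V) (hV : ∀ v, (∃ g : G, g • a = v) ∨ ∃ g : G, g • b = v) (hne : ∀ g : G, g • a ≠ b)
    (hE : ∀ u v, T.Adj u v → (∃ g : G, g • a = u ∧ g • b = v) ∨ ∃ g : G, g • a = v ∧ g • b = u)
    (F : Type w) [Finite F] [Nonempty F] [MulAction (stabilizer G a) F]
    (β : stabilizer G a → F → G) (hβ : ∀ l u, β l u ∈ stabilizer G a ⊓ stabilizer G b)
    (hmul : ∀ l m u, β (l * m) u = β l (m • u) * β m u)
    (hA : ∀ l : stabilizer G a, (l : G) • b = b → ∀ u, l • u = u ∧ β l u = l)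
    (h1 : L1Bass (stabilizer G a)) (h2 : L1Bass (stabilizer G b)) : L1Bass G := by
  obtain ⟨s, star, κ, ν, _, _, p1, p2, p3, p4, p5, p6, p7, p8, p9, p10, _⟩ :=
    H74.pack (a := a) (b := b) hT hadj hV hne hE
  exact vr1_of hT hadj a b hV hne hE
    ⟨⟨s, star, κ, p1, p2, p3, p4, p5, p6⟩, p7, ⟨ν, p8, p9⟩, p10⟩ F β hβ hmul hA h1 h2

end Vale.Agent.P184.H788
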