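import Vale.Agent.P184.H788.VR2
import Vale.Agent.P184.H11.VrAm

/-!
# P184: amalgams over a virtual retract of one side, hypothesis free
-/

noncomputable section

namespace Vale.Agent.P184.H788

open Vale.Agent.P184 Monoid

universe u v w

theorem vR1 : H11.VrAm.VR1.{u, v, w} := by
  intro G V _ _ T hT hadj a b _ hV hne hE F _ _ _ β hβ hmul hA h1 h2
  exact vr1 hT hadj a b hV hne hE F β hβ hmul hA h1 h2

variable {G : Bool → Type v} {H : Type u} [∀ i, Group (G i)] [Group H] {φ : ∀ i, H →* G i}

/-- **Amalgams**, one side with a finite set and a cocycle, the other side arbitrary. -/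
theorem amalgam_sys (hφ : ∀ i, Function.Injective (φ i))
    (F : Type w) [Finite F] [Nonempty F] [MulAction (G true) F] (β : G true → F → H)
    (hmul : ∀ l m u, β (l * m) u = β l (m • u) * β m u)
    (hA : ∀ c u, φ true c • u = u ∧ β (φ true c) u = c)
    (h1 : L1Bass (G true)) (h2 : L1Bass (G false)) : L1Bass (PushoutI φ) :=
  H11.VrAm.vr_am vR1 hφ F β hmul hA h1 h2

/-- **Amalgams over a virtual retract of one side.** -/
theorem amalgam_retract (hφ : ∀ i, Function.Injective (φ i))
    (L : Subgroup (G true)) [L.FiniteIndex] (ρ : L →* H)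
    (hr : ∀ x : G true, ∃ l ∈ L, ∀ c, ∃ h : (x * l)⁻¹ * φ true c * (x * l) ∈ L, ρ ⟨_, h⟩ = c)
    (h1 : L1Bass (G true)) (h2 : L1Bass (G false)) : L1Bass (PushoutI φ) :=
  H11.VrAm.vr_retract vR1 hφ L ρ hr h1 h2

/-- **Amalgams over a group detected by a finitely generated abelian quotient of one side.** -/
theorem amalgam_abelian (hφ : ∀ i, Function.Injective (φ i))
    {K : Type w} [AddCommGroup K] [Module.Finite ℤ K] (χ : G true →* Multiplicative K)
    (hχ : Function.Injective (χ.comp (φ true)))
    (h1 : L1Bass (G true)) (h2 : L1Bass (G false)) : L1Bass (PushoutI φ) :=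
  H11.VrAm.vr_abelian vR1 hφ χ hχ h1 h2

end Vale.Agent.P184.H788
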