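import Vale.Agent.P184.H856.VRMain
import Vale.Agent.P184.H290.Spec

/-!
# P184: amalgams over a virtual retract of all factors but one, with a spectator
-/

namespace Vale.Agent.P184.H788

open Vale.Agent.P184 Vale.Agent.P184.H856 Vale.Agent.P184.H290

universe u v w x

section

variable {S : Type x} {H : Type w} {G : Type v} [Group S] [Group H] [Group G]

variable (S) in
theorem virtRetract_prod {f : H →* G} (h : VirtRetract f) :
    VirtRetract ((MonoidHom.id S).prodMap f) := by
  obtain ⟨L, ρ, hL, h⟩ := h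
  let M : Subgroup (S × G) := L.comap (MonoidHom.snd S G)
  let σ : M →* S × H :=
    { toFun := fun p => (p.1.1, ρ ⟨p.1.2, p.2⟩)
      map_one' := Prod.ext rfl (map_one ρ)
      map_mul' := fun p r => Prod.ext rfl (map_mul ρ ⟨p.1.2, p.2⟩ ⟨r.1.2, r.2⟩) }
  have hM : M.index = L.index :=
    L.index_comap_of_surjective (f := MonoidHom.snd S G) fun g => ⟨(1, g), rfl⟩
  refine ⟨M, σ, ⟨by rw [hM]; exact hL.index_ne_zero⟩, fun x => ?_⟩
  obtain ⟨z, hz⟩ := h x.2
  refine ⟨(x.1, z), fun y => ?_⟩
  obtain ⟨h1, h2⟩ := hz y.2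
  exact ⟨h1, Prod.ext rfl h2⟩

end

/-- **Amalgams over a virtual retract of all factors but one, with a spectator.** -/
theorem amalgam_virt_spec {I : Type u} {G : I → Type v} {H : Type w} (S : Type x)
    [∀ i, Group (G i)] [Group H] [Group S] (φ : ∀ i, H →* G i) (j : I)
    (hj : Function.Injective (φ j)) (hV : ∀ i, i ≠ j → VirtRetract (φ i))
    (h : ∀ i, L1Bass (S × G i)) : L1Bass (S × Monoid.PushoutI φ) := by
  refine l1Bass_retract (fromProd S φ) (toProd S φ) to_from ?_
  refine amalgam_virtRetract (psi S φ) j (fun a b hab => ?_)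
    (fun i hi => virtRetract_prod S (hV i hi)) h
  have h1 : (a.1, φ j a.2) = (b.1, φ j b.2) := hab
  exact Prod.ext (Prod.ext_iff.1 h1).1 (hj (Prod.ext_iff.1 h1).2)

end Vale.Agent.P184.H788
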